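import Vale.Agent.P108.Pair

/-! Quasi independence of the two sides. -/

namespace Vale.Agent.P108

open MeasureTheory Filter
open scoped Classical

/-- The scales. -/
def indep_N (n0 : ℕ) : ℕ → ℕ
  | 0 => n0
  | a + 1 => indep_N n0 a + indep_N n0 a / 100

theorem indep_mono (n0 : ℕ) : Monotone (indep_N n0) :=
  monotone_nat_of_le_succ fun _ => Nat.le_add_right _ _

theorem indep_ge (n0 a : ℕ) : n0 ≤ indep_N n0 a := indep_mono n0 (Nat.zero_le a)

theorem indep_lt {n0 : ℕ} (h : 100 ≤ n0) (a : ℕ) : a < indep_N n0 a := by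
  induction a with
  | zero => exact lt_of_lt_of_le (by norm_num) h
  | succ a ih =>
    have := indep_ge n0 a
    rw [indep_N]
    omega

theorem indep_sum {n0 : ℕ} (h : 100 ≤ n0) (A : ℕ) :
    ∑ a ∈ Finset.range A, (1 : ℝ) / indep_N n0 a ≤ 201 * (1 / n0 - 1 / indep_N n0 A) := by
  induction A with
  | zero => simp [indep_N]
  | succ A ih =>
    have h1 := indep_ge n0 A
    have h2 : 201 * indep_N n0 A ≤ 200 * indep_N n0 (A + 1) := by
      rw [indep_N]
      omega
    have h3 : (201 : ℝ) / indep_N n0 (A + 1) ≤ 200 / indep_N n0 A := by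
      rw [div_le_div_iff₀ (by exact_mod_cast (by omega)) (by exact_mod_cast (by omega))]
      exact_mod_cast h2
    rw [Finset.sum_range_succ]
    simp only [div_eq_mul_inv] at ih h3 ⊢
    linarith

theorem indep_comb (R : ℕ) (G : ℕ → ℕ → Prop) (w : ℕ → ℝ) (hw : ∀ a, 0 ≤ w a)
    (h : ∀ a a' g g', a < a' → G a g → G a' g' → (g : ℝ) < g' + w a) (A : ℕ) :
    ∀ U : ℝ, 0 ≤ U → (∀ a < A, ∀ g < R, G a g → (g : ℝ) < U + w a) →
      ∑ a ∈ Finset.range A, (((Finset.range R).filter (G a)).card : ℝ) ≤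
        U + ∑ a ∈ Finset.range A, (w a + 1) := by
  induction A with
  | zero => simp
  | succ A ih =>
    intro U hU hG
    rw [Finset.sum_range_succ, Finset.sum_range_succ]
    rcases ((Finset.range R).filter (G A)).eq_empty_or_nonempty with h1 | h1
    · have := ih U hU fun a ha => hG a (by omega)
      rw [h1, Finset.card_empty, Nat.cast_zero]
      linarith [hw A]
    · obtain ⟨μ, h2, h3⟩ := Finset.exists_min_image _ id h1
      rw [Finset.mem_filter, Finset.mem_range] at h2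
      have h4 := ih μ (Nat.cast_nonneg _) fun a ha g _ hg => h a A g μ ha hg h2.2
      have h5 : (Finset.range R).filter (G A) ⊆ Finset.Ico μ ⌈U + w A⌉₊ := fun g hg => by
        have h6 := h3 g hg
        rw [Finset.mem_filter, Finset.mem_range] at hg
        exact Finset.mem_Ico.2 ⟨h6, Nat.lt_ceil.2 (hG A (by omega) g hg.1 hg.2)⟩
      have h6 : ((((Finset.range R).filter (G A)).card : ℕ) : ℝ) ≤ (⌈U + w A⌉₊ - μ : ℕ) := by
        exact_mod_cast (Finset.card_le_card h5).trans (Nat.card_Ico _ _).le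
      rw [Nat.cast_sub (Nat.lt_ceil.2 (hG A (by omega) μ h2.1 h2.2)).le] at h6
      linarith [Nat.ceil_lt_add_one (add_nonneg hU (hw A))]

/-- The classes. -/
def indep_S (K τ e : ℝ) (R N N' : ℕ) : Set Seq :=
  {V | (∃ n : ℕ, N < n ∧ n ≤ R ∧ n ≤ N' ∧ τ * n - e ≤ Ls K V (-n) 0) ∧
    ∀ m : ℕ, 1 ≤ m → m ≤ N → Ls K V (-m) 0 < τ * m + e}

theorem indep_meas {K τ e : ℝ} {R N N' : ℕ} : MeasurableSet (indep_S K τ e R N N') := by
  have h := fun s t => (continuous_Ls K s t).measurable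
  refine measurableSet_setOfPred.2 (Measurable.and (Measurable.exists fun n => ?_)
    (Measurable.forall fun m => ?_))
  · exact measurable_const.and (measurable_const.and (measurable_const.and
      (measurableSet_setOfPred.1 (measurableSet_le measurable_const (h _ _)))))
  · exact measurable_const.imp (measurable_const.imp
      (measurableSet_setOfPred.1 (measurableSet_lt (h _ _) measurable_const)))

theorem indep_point {K θ : ℝ} (hθ : 0 < θ) {n0 R : ℕ} (h100 : 100 ≤ n0) (hn0 : 500 ≤ n0 * θ)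
    (hR : 0 < R) (V : Seq) :
    ∑ g ∈ Finset.range R, ∑ a ∈ Finset.range R, (indep_S K (θ * (1 + g / R)) 1 R (indep_N n0 a)
      (indep_N n0 (a + 1))).indicator (1 : Seq → ℝ) V ≤
        3 * R * {V | LB K (θ / 2) R V}.indicator (1 : Seq → ℝ) V := by
  have hR' : (0 : ℝ) < R := by exact_mod_cast hR
  have hN : ∀ a, (n0 : ℝ) ≤ indep_N n0 a := fun a => by exact_mod_cast indep_ge n0 a
  have hn : (0 : ℝ) < n0 := by exact_mod_cast (by omega)
  by_cases hV : LB K (θ / 2) R V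
  · rw [Set.indicator_of_mem (s := {V | LB K (θ / 2) R V}) hV, Pi.one_apply, mul_one,
      Finset.sum_comm]
    have h1 := indep_comb R (fun a g => V ∈ indep_S K (θ * (1 + g / R)) 1 R (indep_N n0 a)
      (indep_N n0 (a + 1))) (fun a => 2 * R / θ * (1 / indep_N n0 a)) (fun a => by positivity)
      (fun a a' g g' haa hg hg' => ?_) R R hR'.le fun a _ g hg _ =>
        lt_add_of_lt_of_nonneg (by exact_mod_cast hg) (by positivity)
    · simp only [Set.indicator_apply, Pi.one_apply, Finset.sum_boole]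
      rw [Finset.sum_add_distrib, ← Finset.mul_sum, Finset.sum_const, Finset.card_range,
        nsmul_eq_mul, mul_one] at h1
      have h2 : ∑ a ∈ Finset.range R, (1 : ℝ) / indep_N n0 a ≤ θ / 2 := by
        refine (indep_sum h100 R).trans ?_
        have h3 : (1 : ℝ) / n0 ≤ θ / 500 := by
          rw [div_le_div_iff₀ hn (by norm_num)]
          linarith
        have h4 : (0 : ℝ) ≤ 1 / indep_N n0 R := by positivity
        linarith
      have h3 := mul_le_mul_of_nonneg_left h2 (show 0 ≤ 2 * (R : ℝ) / θ by positivity)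
      rw [show 2 * (R : ℝ) / θ * (θ / 2) = R by field_simp] at h3
      refine le_trans (le_of_eq ?_) (h1.trans (by linarith))
      congr!
    · obtain ⟨⟨n, n1, -, n3, n4⟩, -⟩ := hg
      have h2 := hg'.2 n (by omega) (n3.trans (indep_mono n0 haa))
      have h3 : (indep_N n0 a : ℝ) < n := by exact_mod_cast n1
      have h4 : (0 : ℝ) < indep_N n0 a := hn.trans_le (hN a)
      have h5 : ((g : ℝ) - g') * (θ * n) < 2 * R := by
        have : θ * (1 + g / R) * n - θ * (1 + g' / R) * n = ((g : ℝ) - g') * (θ * n) / R := by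
          field_simp
          ring
        rw [← div_lt_iff₀ hR', ← this]
        linarith
      rw [← sub_lt_iff_lt_add', mul_one_div, div_div, lt_div_iff₀ (by positivity)]
      rcases le_or_gt ((g : ℝ) - g') 0 with h6 | h6
      · exact lt_of_le_of_lt (mul_nonpos_of_nonpos_of_nonneg h6 (by positivity)) (by positivity)
      · exact lt_of_le_of_lt (by gcongr) h5
  · rw [Set.indicator_of_notMem (s := {V | LB K (θ / 2) R V}) hV, mul_zero]
    refine le_of_eq (Finset.sum_eq_zero fun g _ => Finset.sum_eq_zero fun a _ =>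
      Set.indicator_of_notMem (fun hm => ?_) _)
    obtain ⟨⟨n, n1, n2, _, n4⟩, _⟩ := hm
    refine hV ⟨n, by omega, n2, ?_⟩
    have h3 : (indep_N n0 a : ℝ) < n := by exact_mod_cast n1
    have h4 : 0 ≤ θ * ((g : ℝ) / R) * n := by positivity
    nlinarith [hN a]

theorem indep_grid (μ : Measure Seq) [IsProbabilityMeasure μ] (K : ℝ) {θ : ℝ} (hθ : 0 < θ)
    {n0 R : ℕ} (h100 : 100 ≤ n0) (hn0 : 500 ≤ n0 * θ) (hR : 0 < R) :
    ∃ τ, θ ≤ τ ∧ τ ≤ 2 * θ ∧ ∑ a ∈ Finset.range R,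
      μ.real (indep_S K τ 1 R (indep_N n0 a) (indep_N n0 (a + 1))) ≤
        3 * μ.real {V | LB K (θ / 2) R V} := by
  have hi : ∀ {s : Set Seq}, MeasurableSet s → Integrable (s.indicator (1 : Seq → ℝ)) μ :=
    fun hs => (integrable_const (1 : ℝ)).indicator hs
  have h1 := integral_mono (μ := μ) (integrable_finsetSum _ fun g _ =>
    integrable_finsetSum _ fun a _ => hi indep_meas)
    ((hi (measurableSet_LB K (θ / 2) R)).const_mul (3 * R)) (indep_point hθ h100 hn0 hR)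
  rw [integral_finsetSum _ fun g _ => integrable_finsetSum _ fun a _ => hi indep_meas,
    integral_const_mul, integral_indicator_one (measurableSet_LB K (θ / 2) R)] at h1
  simp only [integral_finsetSum _ fun a _ => hi indep_meas,
    integral_indicator_one indep_meas] at h1
  obtain ⟨g, hg, h2⟩ := Finset.exists_le_of_sum_le (Finset.nonempty_range_iff.2 hR.ne')
    (h1.trans (le_of_eq (show _ = ∑ _g ∈ Finset.range R, 3 * μ.real {V | LB K (θ / 2) R V} by
      rw [Finset.sum_const, Finset.card_range, nsmul_eq_mul]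
      ring)))
  have h3 : (g : ℝ) / R ≤ 1 :=
    div_le_one_of_le₀ (by exact_mod_cast (Finset.mem_range.1 hg).le) (Nat.cast_nonneg _)
  have h4 : 0 ≤ (g : ℝ) / R := by positivity
  exact ⟨_, by nlinarith, by nlinarith, h2⟩

theorem indep_LG {K τ : ℝ} (hK : 1 < K) {V : Seq} (hV : Bdd K V) (hτ : τ ≤ 1 / 100) {N : ℕ}
    (hN : 0 < N) (h : ∀ m : ℕ, 1 ≤ m → m ≤ N → Ls K V (-m) 0 < τ * m + 0) :
    LG K (1 / 20) (N + N / 100) V := by
  intro i i1 i2
  have h0 : (0 : ℝ) ≤ i := Nat.cast_nonneg i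
  by_cases hi : i ≤ N
  · nlinarith [h i i1 hi]
  · have h1 := Ls_ext_left hK hV (s := -i) (r := -N) (by omega) 0
    have h2 := h N hN le_rfl
    have h3 : (N : ℝ) ≤ i := by exact_mod_cast (not_le.1 hi).le
    have h4 : 100 * (i : ℝ) ≤ 101 * N := by exact_mod_cast (by omega)
    push_cast at h1
    nlinarith [(Nat.cast_nonneg N : (0 : ℝ) ≤ N)]

theorem indep_class {K θ τ : ℝ} (hK : 1 < K) (hθ : 0 < θ) (hθ' : θ ≤ 1 / 200)
    (h2 : 2 ≤ K ^ (θ / 4)) {n0 R : ℕ} (h100 : 100 ≤ n0) (t1 : θ ≤ τ) (t2 : τ ≤ 2 * θ) {V : Seq}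
    (h : LB K (2 * θ) R V) (hc : ∀ j : ℤ, -(n0 : ℤ) ≤ j → j < 0 → K ^ (1 - θ / 4) ≤ |V j|) :
    ∃ a < R, V ∈ indep_S K τ 0 R (indep_N n0 a) (indep_N n0 (a + 1)) := by
  obtain ⟨i, i1, i2, i3⟩ := h
  have hi : 1 ≤ i ∧ τ * i ≤ Ls K V (-i) 0 :=
    ⟨i1, le_trans (mul_le_mul_of_nonneg_right t2 (Nat.cast_nonneg i)) i3⟩
  have ex : ∃ n : ℕ, 1 ≤ n ∧ τ * n ≤ Ls K V (-n) 0 := ⟨i, hi⟩
  obtain ⟨n1, n2⟩ := Nat.find_spec ex
  have n3 : Nat.find ex ≤ R := (Nat.find_min' ex hi).trans i2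
  have n4 : ∀ m < Nat.find ex, 1 ≤ m → Ls K V (-m) 0 < τ * m := fun m hm m1 =>
    not_le.1 fun h' => Nat.find_min ex hm ⟨m1, h'⟩
  generalize Nat.find ex = n at n1 n2 n3 n4
  have n5 : n0 < n := by
    by_contra h'
    have h3 := noncrit hK (by linarith) h2 (s := -n) (t := 0) (by omega)
      fun j j1 j2 => hc j (by omega) j2
    have h4 : (1 : ℝ) ≤ n := by exact_mod_cast n1
    push_cast at h3
    nlinarith
  have ex' : ∃ a, n ≤ indep_N n0 (a + 1) := ⟨n, by linarith [indep_lt h100 (n + 1)]⟩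
  have a1 := Nat.find_spec ex'
  have a2 : indep_N n0 (Nat.find ex') < n := by
    rcases h' : Nat.find ex' with _ | a
    · exact n5
    · exact not_le.1 (Nat.find_min ex' (by omega))
  refine ⟨_, by linarith [indep_lt h100 (Nat.find ex')], ⟨n, a2, n3, a1, by simpa using n2⟩,
    fun m m1 m2 => by simpa using n4 m (by omega) m1⟩

theorem indep {θ : ℝ} (hθ : 0 < θ) (hθ' : θ ≤ 1 / 200) : ∃ (C : ℝ) (n0 : ℕ), 0 ≤ C ∧
    ∀ᶠ k in atTop, ∀ R : ℕ,
      (nu k).real {V | LB (KK k) (2 * θ) R V ∧ RB (KK k) (2 * θ) R V} ≤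
        C * (nu k).real {V | LB (KK k) (θ / 2) R V} ^ 2 +
          2 * n0 * (nu k).real {V | Crit (KK k) (θ / 4) V} := by
  obtain ⟨C, hC, hp⟩ := pair
  obtain ⟨n0, hn0⟩ := exists_nat_ge (500 / θ)
  rw [div_le_iff₀ hθ] at hn0
  have h100 : 100 ≤ n0 := by
    have : (100 : ℝ) ≤ n0 := by nlinarith [(Nat.cast_nonneg n0 : (0 : ℝ) ≤ n0)]
    exact_mod_cast this
  refine ⟨9 * C, n0, by positivity, ?_⟩
  filter_upwards [hp, cmp, ev_rpow 2 (show 0 < θ / 4 by positivity),
    eventually_ge_atTop (0 : ℝ)] with k hp hc h2 hk R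
  have hK : 1 < KK k := by linarith [four_le_KK hk]
  rcases R.eq_zero_or_pos with rfl | hR
  · have : {V | LB (KK k) (2 * θ) 0 V ∧ RB (KK k) (2 * θ) 0 V} = ∅ :=
      Set.eq_empty_of_forall_notMem fun V ⟨⟨i, h1, h2, _⟩, _⟩ => by omega
    rw [this, measureReal_empty]
    positivity
  obtain ⟨τ, t1, t2, hτ⟩ := indep_grid (nu k) (KK k) hθ h100 hn0 hR
  let S : ℝ → ℕ → Set Seq := fun e a => indep_S (KK k) τ e R (indep_N n0 a) (indep_N n0 (a + 1))
  have one : ∀ a x, IsOrb k x → Vs k x ∈ S 0 a → LG (KK k) (1 / 20) (indep_N n0 (a + 1)) (Vs k x) ∧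
      ∀ x', Cl k (indep_N n0 (a + 1)) 4 x x' → Vs k x' ∈ S 1 a := by
    rintro a x - ⟨⟨n, n1, n2, n3, n4⟩, hm⟩
    have hL := indep_LG hK (bdd_Vs hk x) (by linarith : τ ≤ 1 / 100)
      ((indep_lt h100 a).trans_le' (Nat.zero_le a)) hm
    refine ⟨hL, fun x' hx' => ⟨⟨n, n1, n2, n3, ?_⟩, fun m m1 m2 => ?_⟩⟩
    · linarith [(abs_le.1 (hc _ x x' hL hx' n (by omega) n3)).1]
    · linarith [(abs_le.1 (hc _ x x' hL hx' m m1 (m2.trans (Nat.le_add_right _ _)))).2,
        hm m m1 m2]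
  have two : ∀ a a', (nu k).real (S 0 a ∩ rf ⁻¹' S 0 a') ≤
      C * (nu k).real (S 1 a) * (nu k).real (S 1 a') := fun a a' =>
    hp _ _ _ _ _ (Nat.succ_le_of_lt ((indep_lt h100 (a + 1)).trans_le' (Nat.zero_le _)))
      (Nat.succ_le_of_lt ((indep_lt h100 (a' + 1)).trans_le' (Nat.zero_le _))) indep_meas indep_meas
      (indep_meas.inter (measurable_rf indep_meas)) fun x hx h =>
        ⟨(one a x hx h.1).1, (one a' _ hx.rf h.2).1, fun x' _ => (one a x hx h.1).2 x',
          fun x' _ => (one a' _ hx.rf h.2).2 x'⟩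
  have sub : {V | LB (KK k) (2 * θ) R V ∧ RB (KK k) (2 * θ) R V} ⊆
      (⋃ a ∈ Finset.range R, ⋃ a' ∈ Finset.range R, S 0 a ∩ rf ⁻¹' S 0 a') ∪
        ⋃ j ∈ Finset.Ico (-(n0 : ℤ)) n0, sh j ⁻¹' {V | Crit (KK k) (θ / 4) V} := by
    rintro V ⟨h1, h3⟩
    by_contra h
    simp only [Set.mem_union, Set.mem_iUnion, not_or, not_exists, Finset.mem_Ico, Set.mem_preimage,
      Set.mem_ofPred_eq, Crit, sh, zero_add, not_lt] at h
    obtain ⟨a, ha, ha'⟩ := indep_class hK hθ hθ' h2 h100 t1 t2 h1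
      fun j j1 j2 => h.2 j ⟨j1, by omega⟩
    obtain ⟨b, hb, hb'⟩ := indep_class hK hθ hθ' h2 h100 t1 t2 ((RB_iff _ _ _ _).1 h3)
      fun j j1 j2 => h.2 (-1 - j) ⟨by omega, by omega⟩
    exact h.1 a (Finset.mem_range.2 ha) b (Finset.mem_range.2 hb) ⟨ha', hb'⟩
  refine (measureReal_mono sub).trans ((measureReal_union_le _ _).trans (add_le_add ?_ ?_))
  · calc _ ≤ ∑ a ∈ Finset.range R, ∑ a' ∈ Finset.range R,
          C * (nu k).real (S 1 a) * (nu k).real (S 1 a') :=
          (measureReal_biUnion_finset_le _ _).trans (Finset.sum_le_sum fun a _ =>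
            (measureReal_biUnion_finset_le _ _).trans (Finset.sum_le_sum fun a' _ => two a a'))
      _ = C * (∑ a ∈ Finset.range R, (nu k).real (S 1 a)) ^ 2 := by
          rw [sq, Finset.sum_mul_sum]
          simp only [Finset.mul_sum, mul_assoc]
      _ ≤ C * (3 * (nu k).real {V | LB (KK k) (θ / 2) R V}) ^ 2 := by
          gcongr
      _ = _ := by ring
  · refine (measureReal_biUnion_finset_le _ _).trans (le_of_eq ?_)
    rw [Finset.sum_congr rfl fun j _ =>
      (mp_sh k j).measureReal_preimage (measurableSet_Crit _ _).nullMeasurableSet,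
      Finset.sum_const, Int.card_Ico, nsmul_eq_mul,
      show ((n0 : ℤ) - -(n0 : ℤ)).toNat = 2 * n0 by omega]
    push_cast
    ring

end Vale.Agent.P108
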