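import Vale.Agent.P108.Lin

/-! Counting good levels, matched pairs and hits. -/

namespace Vale.Agent.P108

open MeasureTheory Filter
open scoped Classical

/-- A sequence with increments at most c has many record times. -/
theorem cnt_rec (w : ℕ → ℝ) {c : ℝ} (hc : 0 ≤ c) (h : ∀ m, w (m + 1) ≤ w m + c) (n : ℕ) :
    ∀ m ≤ n, w m ≤ w 0 + c * ((Finset.range n).filter fun r =>
      ∀ m < r + 1, w m ≤ w (r + 1)).card := by
  induction n with
  | zero => intro m hm; simp [Nat.le_zero.1 hm]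
  | succ n ih =>
    intro m hm
    rw [Finset.range_add_one, Finset.filter_insert]
    split_ifs with k
    · rw [Finset.card_insert_of_notMem (by simp)]
      push_cast
      rcases Nat.lt_or_eq_of_le hm with l | rfl
      · linarith [ih m (Nat.lt_succ_iff.1 l)]
      · linarith [ih n le_rfl, h n]
    · rcases Nat.lt_or_eq_of_le hm with l | rfl
      · exact ih m (Nat.lt_succ_iff.1 l)
      · push Not at k
        obtain ⟨j, hj, k⟩ := k
        exact k.le.trans (ih j (Nat.lt_succ_iff.1 hj))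

theorem cnt_pos {K : ℝ} {V φ : Seq} (hV : Bdd K V) (hφ : IsSol V φ) (h0 : nq φ 0 = 1) (m : ℕ) :
    0 < nq φ m := by
  have h := (nq_add_le hV hφ 0 m).2
  rw [h0, zero_add] at h
  refine lt_of_le_of_ne (nq_nonneg _ _) fun e => ?_
  rw [← e] at h
  linarith

theorem cnt_step {K : ℝ} (hK : 1 < K) {V φ : Seq} (hV : Bdd K V) (hφ : IsSol V φ)
    (h0 : nq φ 0 = 1) (m : ℕ) :
    Real.logb K (nq φ (m + 1 : ℕ)) ≤ Real.logb K (nq φ m) + 2 ∧
      Real.logb K (nq φ m) ≤ Real.logb K (nq φ (m + 1 : ℕ)) + 2 := by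
  have h := nq_add_le hV hφ m 1
  have p := cnt_pos hV hφ h0 m
  have q := cnt_pos hV hφ h0 (m + 1)
  have K0 : 0 < K := by linarith
  have e : ∀ x, 0 < x → Real.logb K (K ^ (2 * 1) * x) = Real.logb K x + 2 := fun x hx => by
    rw [Real.logb_mul (by positivity) hx.ne', Real.logb_pow, Real.logb_self_eq_one hK]
    push_cast
    ring
  push_cast at h q ⊢
  exact ⟨(Real.logb_le_logb_of_le hK q h.1).trans (e _ p).le,
    (Real.logb_le_logb_of_le hK p h.2).trans (e _ q).le⟩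

theorem cnt_le_iff {K x y a : ℝ} (hK : 1 < K) (hx : 0 < x) (hy : 0 < y) :
    x ≤ y * K ^ a ↔ Real.logb K x ≤ Real.logb K y + a := by
  have K0 : 0 < K := by linarith
  have p := Real.rpow_pos_of_pos K0 a
  rw [← Real.logb_le_logb hK hx (mul_pos hy p), Real.logb_mul hy.ne' p.ne',
    Real.logb_rpow K0 hK.ne']

theorem cnt_GLv {K : ℝ} (hK : 1 < K) {φ : Seq} (hp : ∀ m : ℕ, 0 < nq φ m) (r : ℕ) :
    GLv K φ r ↔ ∀ m < r, Real.logb K (nq φ m) - 99 / 50 * m ≤ Real.logb K (nq φ r) - 99 / 50 * r := by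
  refine forall₂_congr fun m _ => (cnt_le_iff hK (hp m) (hp r)).trans ?_
  constructor <;> intro h <;> linarith

theorem cnt_two {K : ℝ} (hK : 2 ≤ K) {φ : Seq} {r : ℕ} (h : Lv K φ r) : nq φ r ≤ 2 * φ r ^ 2 := by
  obtain ⟨s, rfl⟩ : ∃ s, r = s + 1 := ⟨r - 1, by have := h.1; omega⟩
  have a := h.2.1 s (Nat.lt_succ_self s)
  have b : K ^ (-(99 / 50 * (((s + 1 : ℕ) : ℝ) - s))) ≤ 1 / 2 := by
    calc _ ≤ K ^ (-1 : ℝ) := Real.rpow_le_rpow_of_exponent_le (by linarith) (by push_cast; linarith)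
      _ = 1 / K := by rw [Real.rpow_neg_one, one_div]
      _ ≤ 1 / 2 := one_div_le_one_div_of_le two_pos hK
  have c := a.trans (mul_le_mul_of_nonneg_left b (nq_nonneg _ _))
  simp only [nq] at c ⊢
  push_cast at c ⊢
  rw [add_sub_cancel_right] at c ⊢
  nlinarith [sq_nonneg (φ (s - 1))]

theorem cnt_top {K θ x : ℝ} {d : ℕ} (hK : 2 ≤ K) (hx : 0 < x)
    (h : K ^ (2 * (1 - θ) * d) ≤ 2 * x) : 2 * (1 - θ) * d - 1 ≤ Real.logb K x := by
  have K1 : 1 < K := by linarith
  have a : K ^ (2 * (1 - θ) * d) ≤ x * K ^ (1 : ℝ) := by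
    rw [Real.rpow_one]
    nlinarith
  rw [cnt_le_iff K1 (Real.rpow_pos_of_pos (by linarith) _) hx,
    Real.logb_rpow (by linarith) K1.ne'] at a
  linarith

/-- Few levels are bad. -/
theorem cnt_bad {K θ : ℝ} (hK : 2 ≤ K) {d : ℕ} {V φ : Seq} (hV : Bdd K V) (hφ : IsSol V φ)
    (h0 : nq φ 0 = 1) (h : K ^ (2 * (1 - θ) * d) ≤ 2 * nq φ d) :
    (((Finset.range d).filter fun r => ¬Lv K φ r).card : ℝ) ≤ 200 * θ * d + 101 := by
  have K1 : 1 < K := by linarith
  have hp := cnt_pos hV hφ h0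
  have a := cnt_rec (fun m : ℕ => Real.logb K (nq φ m) - 99 / 50 * (m : ℝ)) (c := 1 / 50) (by norm_num)
    (fun m => by have := (cnt_step K1 hV hφ h0 m).1; push_cast at this ⊢; linarith) d d le_rfl
  have e : ((Finset.range d).filter fun r => ∀ m : ℕ, m < r + 1 →
      Real.logb K (nq φ m) - 99 / 50 * m ≤
        Real.logb K (nq φ (r + 1 : ℕ)) - 99 / 50 * (r + 1 : ℕ)) =
      (Finset.range d).filter fun r => GLv K φ (r + 1) :=
    Finset.filter_congr fun r _ => (cnt_GLv K1 hp (r + 1)).symm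
  beta_reduce at a
  rw [e, Nat.cast_zero, h0, Real.logb_one] at a
  have b := cnt_top hK (hp d) h
  have c := Finset.card_filter_add_card_filter_not (s := Finset.range d) fun r => GLv K φ (r + 1)
  rw [Finset.card_range] at c
  set N := (Finset.range d).filter fun r => ¬GLv K φ (r + 1) with hN
  have s : ((Finset.range d).filter fun r => ¬Lv K φ r) ⊆ insert 0 (N ∪ N.image (· + 1)) := by
    intro r hr
    obtain ⟨h1, h2⟩ := Finset.mem_filter.1 hr
    rcases r with _ | r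
    · exact Finset.mem_insert_self _ _
    · refine Finset.mem_insert_of_mem (Finset.mem_union.2 ?_)
      by_cases k : GLv K φ (r + 1 + 1)
      · refine Or.inr (Finset.mem_image.2 ⟨r, Finset.mem_filter.2 ⟨?_, fun l => ?_⟩, rfl⟩)
        · rw [Finset.mem_range] at h1 ⊢
          omega
        · exact h2 ⟨by omega, l, k⟩
      · exact Or.inl (Finset.mem_filter.2 ⟨h1, k⟩)
  have t : ((Finset.range d).filter fun r => ¬Lv K φ r).card ≤ N.card + N.card + 1 :=
    (Finset.card_le_card s).trans ((Finset.card_insert_le _ _).trans (Nat.succ_le_succ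
      ((Finset.card_union_le _ _).trans (Nat.add_le_add_left Finset.card_image_le _))))
  have t' : (((Finset.range d).filter fun r => ¬Lv K φ r).card : ℝ) ≤ N.card + N.card + 1 := by
    exact_mod_cast t
  have c' : (((Finset.range d).filter fun r => GLv K φ (r + 1)).card : ℝ) + N.card = d := by
    exact_mod_cast c
  push_cast at a
  nlinarith

theorem cnt_up {K : ℝ} (hK : 1 < K) {V φ : Seq} (hV : Bdd K V) (hφ : IsSol V φ)
    (h0 : nq φ 0 = 1) (m n : ℕ) :
    Real.logb K (nq φ (m + n : ℕ)) ≤ Real.logb K (nq φ m) + 2 * n := by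
  induction n with
  | zero => simp
  | succ n ih =>
    have := (cnt_step hK hV hφ h0 (m + n)).1
    rw [← add_assoc, Nat.cast_succ n]
    linarith

theorem cnt_cmp {K : ℝ} (hK : 2 ≤ K) {φ ψ : Seq} {r l : ℕ} (hr : 0 < nq φ r) (hl : 0 < nq ψ l)
    (h : Lv K ψ l) (k : Real.logb K (nq φ r) ≤ Real.logb K (nq ψ l) + 1) :
    |φ r| ≤ 100 * K ^ (1 / 2 : ℝ) * |ψ l| := by
  have K0 : 0 < K := by linarith
  rw [← cnt_le_iff (by linarith) hr hl, Real.rpow_one] at k
  have a := cnt_two hK h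
  have b : φ r ^ 2 ≤ nq φ r := le_add_of_nonneg_right (sq_nonneg _)
  have e : (K ^ (1 / 2 : ℝ)) ^ 2 = K := by
    rw [← Real.rpow_natCast, ← Real.rpow_mul K0.le]
    norm_num
  refine abs_le_of_sq_le_sq' ?_ (by positivity) |>.2
  rw [mul_pow, mul_pow, e, sq_abs, sq_abs]
  nlinarith [mul_le_mul_of_nonneg_right a K0.le, mul_nonneg K0.le (sq_nonneg (ψ l))]

theorem pair_count : ∃ K0 : ℝ, ∀ K, K0 ≤ K → ∀ (θ : ℝ) (d : ℕ) (V φ : Seq), 0 ≤ θ →
    θ ≤ 1 / 100000 → 100000 ≤ d → Bdd K V → IsSol V φ → nq φ 0 = 1 →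
    K ^ (2 * (1 - θ) * d) ≤ 2 * nq φ d → K ^ (2 * (1 - θ) * d) ≤ 2 * nq φ (-d) →
    d ≤ 10 * ((Finset.range d).filter fun r => ∃ l, Pair K d φ l r ∧
      100 ≤ max |φ r| |rf φ l|).card := by
  refine ⟨20000, fun K hK θ d V φ _ hθ hd hV hφ h0 h1 h2 => ?_⟩
  have K2 : 2 ≤ K := by linarith
  have K1 : 1 < K := by linarith
  have h0' : nq (rf φ) 0 = 1 := by rw [nq_rf, neg_zero, h0]
  rw [← nq_rf] at h2
  have hp := cnt_pos hV hφ h0
  have hp' := cnt_pos hV.rf hφ.rf h0'
  have b1 := cnt_bad K2 hV hφ h0 h1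
  have b2 := cnt_bad K2 hV.rf hφ.rf h0' h2
  have d0 : (100000 : ℝ) ≤ d := by exact_mod_cast hd
  have td : θ * d ≤ d / 100000 := by nlinarith
  -- every good level r < d / 2 has a partner
  have key : ∀ r, r < d / 2 → Lv K φ r → ∃ l : ℕ, l + 2 ≤ d ∧
      Real.logb K (nq φ r) ≤ Real.logb K (nq (rf φ) l) + 1 ∧
      Real.logb K (nq (rf φ) l) < Real.logb K (nq φ r) + 1 := by
    intro r hr hL
    have r1 : (1 : ℝ) ≤ r := by exact_mod_cast hL.1
    have lo := (cnt_GLv K1 hp r).1 hL.2.1 0 hL.1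
    have up := cnt_up K1 hV hφ h0 0 r
    rw [zero_add] at up
    rw [Nat.cast_zero, h0, Real.logb_one] at lo up
    have top := cnt_top K2 (hp' d) h2
    have up' := cnt_up K1 hV.rf hφ.rf h0' (d - 2) 2
    rw [Nat.sub_add_cancel (by omega)] at up'
    have rd : 2 * (r : ℝ) ≤ d := by exact_mod_cast (show 2 * r ≤ d by omega)
    have ex : Real.logb K (nq φ r) ≤ Real.logb K (nq (rf φ) (d - 2 : ℕ)) + 1 := by
      push_cast at up' lo
      nlinarith
    have hex : ∃ l : ℕ, Real.logb K (nq φ r) ≤ Real.logb K (nq (rf φ) l) + 1 := ⟨_, ex⟩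
    have le := Nat.find_min' hex ex
    refine ⟨Nat.find hex, by omega, Nat.find_spec hex, ?_⟩
    have sp := Nat.find_spec hex
    rcases e : Nat.find hex with _ | s
    · rw [e, Nat.cast_zero, h0', Real.logb_one] at sp
      push_cast at lo
      linarith
    · have := not_le.1 (Nat.find_min hex (m := s) (by omega))
      linarith [(cnt_step K1 hV.rf hφ.rf h0' s).1]
  choose! l hl using key
  set B := (Finset.range d).filter fun r => ¬Lv K φ r
  set B' := (Finset.range d).filter fun r => ¬Lv K (rf φ) r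
  set P := (Finset.range d).filter fun r => ∃ l, Pair K d φ l r ∧ 100 ≤ max |φ r| |rf φ l|
  set X := (Finset.range (d / 2)).filter fun r => Lv K φ r ∧ ¬Lv K (rf φ) (l r) with hX
  have s : Finset.range (d / 2) ⊆ B ∪ P ∪ X := by
    intro r hr
    have hr' := Finset.mem_range.1 hr
    have hrd : r ∈ Finset.range d := Finset.mem_range.2 (by omega)
    simp only [Finset.mem_union]
    by_cases a : Lv K φ r
    · by_cases b : Lv K (rf φ) (l r)
      · obtain ⟨k1, k2, k3⟩ := hl r hr' a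
        refine Or.inl (Or.inr (Finset.mem_filter.2 ⟨hrd, l r, ⟨a, b, by omega, k1,
          cnt_cmp K2 (hp r) (hp' _) b k2, cnt_cmp K2 (hp' _) (hp r) a k3.le⟩, le_max_of_le_left ?_⟩))
        have r1 : (1 : ℝ) ≤ r := by exact_mod_cast a.1
        have lo := (cnt_GLv K1 hp r).1 a.2.1 0 a.1
        rw [Nat.cast_zero, h0, Real.logb_one] at lo
        have : K ≤ nq φ r := by
          rw [← Real.rpow_one K, ← Real.le_logb_iff_rpow_le K1 (hp r)]
          push_cast at lo
          linarith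
        have := cnt_two K2 a
        refine abs_le_of_sq_le_sq' ?_ (abs_nonneg _) |>.2
        rw [sq_abs]
        linarith
      · exact Or.inr (Finset.mem_filter.2 ⟨hr, a, b⟩)
    · exact Or.inl (Or.inl (Finset.mem_filter.2 ⟨hrd, a⟩))
  have near : ∀ r ∈ X, ∀ r' ∈ X, l r = l r' → r' ≤ r + 1 := by
    intro r hr r' hr' e
    obtain ⟨k1, k2, _⟩ := Finset.mem_filter.1 hr
    obtain ⟨k3, k4, _⟩ := Finset.mem_filter.1 hr'
    by_contra c
    have g := (cnt_GLv K1 hp r').1 k4.2.1 r (by omega)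
    have c' : (r : ℝ) + 2 ≤ r' := by exact_mod_cast (show r + 2 ≤ r' by omega)
    have p := (hl r (Finset.mem_range.1 k1) k2).2.2
    have q := (hl r' (Finset.mem_range.1 k3) k4).2.1
    rw [e] at p
    linarith
  have cX : X.card ≤ (B' ×ˢ Finset.range 2).card := by
    refine Finset.card_le_card_of_injOn (fun r => (l r, r % 2)) (fun r hr => ?_)
      fun r hr r' hr' e => ?_
    · obtain ⟨k1, k2, k3⟩ := Finset.mem_filter.1 (Finset.mem_coe.1 hr)
      have := (hl r (Finset.mem_range.1 k1) k2).1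
      exact Finset.mem_coe.2 (Finset.mem_product.2 ⟨Finset.mem_filter.2
        ⟨Finset.mem_range.2 (by change l r < d; omega), k3⟩,
          Finset.mem_range.2 (Nat.mod_lt r two_pos)⟩)
    · obtain ⟨e1, e2⟩ := Prod.mk.inj e
      have := near r hr r' hr' e1
      have := near r' hr' r hr e1.symm
      omega
  rw [Finset.card_product, Finset.card_range] at cX
  have c := (Finset.card_le_card s).trans ((Finset.card_union_le _ _).trans
    (Nat.add_le_add_right (Finset.card_union_le _ _) _))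
  rw [Finset.card_range] at c
  have b1' : 500 * B.card ≤ d + 50500 := by
    have : 500 * (B.card : ℝ) ≤ d + 50500 := by nlinarith
    exact_mod_cast this
  have b2' : 500 * B'.card ≤ d + 50500 := by
    have : 500 * (B'.card : ℝ) ≤ d + 50500 := by nlinarith
    exact_mod_cast this
  omega

theorem hit_count : ∃ K0 : ℝ, ∀ K, K0 ≤ K → ∀ (θ : ℝ) (d : ℕ) (V ψ : Seq), Bdd K V → IsSol V ψ →
    nq ψ 0 = 1 → nq ψ d ≤ K ^ (-(2 * (1 - θ) * d)) →
    (((Finset.range d).filter fun r => r + 2 ≤ d ∧ Hit K ψ r).card : ℝ) ≤ 100 * θ * d := by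
  refine ⟨2 ^ 50, fun K hK θ d V ψ hV hψ h0 h => ?_⟩
  have K1 : 1 < K := lt_of_lt_of_le (by norm_num) hK
  have K0 : 0 < K := by linarith
  have hp := cnt_pos hV hψ h0
  have k2 : 2 ≤ K ^ (1 / 50 : ℝ) := by
    have := Real.rpow_le_rpow (by positivity) hK (show (0 : ℝ) ≤ 1 / 50 by norm_num)
    rwa [← Real.rpow_natCast, ← Real.rpow_mul zero_le_two, show ((50 : ℕ) : ℝ) * (1 / 50) = 1 by
      norm_num, Real.rpow_one] at this
  set b : ℕ → ℝ := fun m => Real.logb K (nq ψ (m + 1 : ℕ)) - Real.logb K (nq ψ m) + 2 with hb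
  have b0 : ∀ m, 0 ≤ b m := fun m => by have := (cnt_step K1 hV hψ h0 m).2; simp only [hb]; linarith
  have sb : ∑ m ∈ Finset.range d, b m ≤ 2 * θ * d := by
    rw [Finset.sum_add_distrib, Finset.sum_range_sub (fun m : ℕ => Real.logb K (nq ψ m)),
      Nat.cast_zero, h0, Real.logb_one, Finset.sum_const, Finset.card_range, nsmul_eq_mul]
    have := (Real.logb_le_iff_le_rpow K1 (hp d)).2 h
    linarith
  have hit : ∀ r, Hit K ψ r → 1 / 50 ≤ b (r + 1) := by
    intro r hr
    have : nq ψ (r + 1 : ℕ) ≤ nq ψ (r + 1 + 1 : ℕ) * K ^ (99 / 50 : ℝ) := by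
      set A := K ^ (49 / 50 : ℝ) with hA
      have A1 : 1 ≤ A := Real.one_le_rpow K1.le (by norm_num)
      have e : K ^ (99 / 50 : ℝ) = A ^ 2 * K ^ (1 / 50 : ℝ) := by
        rw [hA, ← Real.rpow_natCast, ← Real.rpow_mul K0.le, ← Real.rpow_add K0]
        norm_num
      have a : |ψ r| ≤ A * |ψ (r + 1)| := by
        rw [Hit, Real.rpow_neg K0.le, ← hA, inv_mul_lt_iff₀ (by linarith)] at hr
        exact hr.le
      have a2 : ψ r ^ 2 ≤ A ^ 2 * ψ (r + 1) ^ 2 := by
        rw [← sq_abs (ψ r), ← sq_abs (ψ (r + 1)), ← mul_pow]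
        exact pow_le_pow_left₀ (abs_nonneg _) a 2
      have A2 : 1 ≤ A ^ 2 := one_le_pow₀ A1
      simp only [nq]
      push_cast
      rw [add_sub_cancel_right, add_sub_cancel_right, e]
      have s1 := sq_nonneg (ψ (r + 1))
      have s2 := sq_nonneg (ψ (r + 1 + 1))
      calc _ ≤ ψ (r + 1) ^ 2 * (A ^ 2 * 2) := by nlinarith
        _ ≤ _ := mul_le_mul (by linarith) (mul_le_mul_of_nonneg_left k2 (by positivity))
          (by positivity) (by positivity)
    rw [cnt_le_iff K1 (hp _) (hp _)] at this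
    simp only [hb]
    linarith
  set S := (Finset.range d).filter fun r => r + 2 ≤ d ∧ Hit K ψ r
  have a : (S.card : ℝ) * (1 / 50) ≤ ∑ r ∈ S, b (r + 1) := by
    rw [← nsmul_eq_mul]
    exact Finset.card_nsmul_le_sum _ _ _ fun r hr => hit r (Finset.mem_filter.1 hr).2.2
  have c : ∑ r ∈ S, b (r + 1) ≤ ∑ m ∈ Finset.range d, b m := by
    rw [← Finset.sum_image (g := (· + 1)) fun _ _ _ _ e => Nat.succ_injective e]
    refine Finset.sum_le_sum_of_subset_of_nonneg (fun m hm => ?_) fun m _ _ => b0 m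
    obtain ⟨r, hr, rfl⟩ := Finset.mem_image.1 hm
    have := (Finset.mem_filter.1 hr).2.1
    exact Finset.mem_range.2 (by omega)
  linarith

theorem window_count (Q : ℕ) : ∃ K0 : ℝ, ∀ K, K0 ≤ K → ∀ (d : ℕ) (φ : Seq) (A : ℝ), 0 < A →
    ((Finset.range d).filter fun r => Lv K φ r ∧ A ≤ |φ r| ∧ |φ r| ≤ A * K ^ (Q + 1)).card
      ≤ 2 * Q + 5 := by
  refine ⟨2, fun K hK d φ A hA => ?_⟩
  have K1 : 1 < K := by linarith
  have K0 : 0 < K := by linarith
  set S := (Finset.range d).filter fun r => Lv K φ r ∧ A ≤ |φ r| ∧ |φ r| ≤ A * K ^ (Q + 1)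
  rcases S.eq_empty_or_nonempty with e | ne
  · simp [e]
  have s : S ⊆ Finset.Icc (S.min' ne) (S.min' ne + (2 * Q + 3)) := by
    intro r hr
    refine Finset.mem_Icc.2 ⟨S.min'_le r hr, ?_⟩
    have m := (Finset.mem_filter.1 (S.min'_mem ne)).2
    generalize S.min' ne = q at m
    have k := (Finset.mem_filter.1 hr).2
    by_contra c
    have g := k.1.2.1 q (by omega)
    have c' : (q : ℝ) + (2 * Q + 4) ≤ r := by exact_mod_cast (show q + (2 * Q + 4) ≤ r by omega)
    have Q0 : (0 : ℝ) ≤ Q := Nat.cast_nonneg Q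
    have e1 : K ^ (-(99 / 50 * ((r : ℝ) - q))) ≤ (K ^ (2 * Q + 4))⁻¹ := by
      rw [← Real.rpow_natCast, ← Real.rpow_neg K0.le]
      exact Real.rpow_le_rpow_of_exponent_le K1.le (by push_cast; linarith)
    have a1 : A ^ 2 ≤ nq φ q := by
      refine le_trans ?_ (le_add_of_nonneg_right (sq_nonneg _))
      rw [← sq_abs (φ q)]
      exact pow_le_pow_left₀ hA.le m.2.1 2
    have a2 : φ r ^ 2 ≤ (A * K ^ (Q + 1)) ^ 2 := by
      rw [← sq_abs (φ r)]
      exact pow_le_pow_left₀ (abs_nonneg _) k.2.2 2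
    have a3 := cnt_two hK k.1
    have a4 := a1.trans (g.trans (mul_le_mul_of_nonneg_left e1 (nq_nonneg _ _)))
    rw [← div_eq_mul_inv, le_div_iff₀ (by positivity)] at a4
    have e2 : A ^ 2 * K ^ (2 * Q + 4) = (A * K ^ (Q + 1)) ^ 2 * K ^ 2 := by ring
    have p : 0 < (A * K ^ (Q + 1)) ^ 2 := by positivity
    rw [e2] at a4
    have : (4 : ℝ) ≤ K ^ 2 := by nlinarith
    nlinarith
  have := Finset.card_le_card s
  rw [Nat.card_Icc] at this
  omega

end Vale.Agent.P108
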