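import Vale.Agent.P108.Rec

/-! A dyadic large deviation bound. -/

namespace Vale.Agent.P108

open MeasureTheory Filter
open scoped Classical

lemma dyad_cover {S : Set ℝ} (m i r : ℕ)
    (hS : ∀ a ∈ S, (i : ℝ) / 2 ^ m ≤ a ∧ a < (i + 1) / 2 ^ m) (f : ℕ → ℝ) (hf0 : ∀ j, 0 ≤ f j)
    (hf : ∀ j ∈ Finset.range (2 ^ r), volume {a | a ∈ S ∧
      ((j : ℝ) / 2 ^ r ≤ a * 2 ^ m - i ∧ a * 2 ^ m - i < (j + 1) / 2 ^ r) ∧
      ((i * 2 ^ r + j : ℕ) : ℝ) / 2 ^ (m + r) ≤ a ∧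
        a < ((i * 2 ^ r + j : ℕ) + 1) / 2 ^ (m + r)} ≤ ENNReal.ofReal (f j)) :
    volume S ≤ ENNReal.ofReal (∑ j ∈ Finset.range (2 ^ r), f j) := by
  rw [ENNReal.ofReal_sum_of_nonneg fun j _ => hf0 j]
  refine le_trans (measure_mono fun a ha => ?_)
    ((measure_biUnion_finset_le _ _).trans (Finset.sum_le_sum hf))
  obtain ⟨h1, h2⟩ := hS a ha
  have p1 : (0 : ℝ) < 2 ^ m := by positivity
  have p2 : (0 : ℝ) < 2 ^ r := by positivity
  rw [div_le_iff₀ p1] at h1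
  rw [lt_div_iff₀ p1] at h2
  have h3 : 0 ≤ (a * 2 ^ m - i) * 2 ^ r := mul_nonneg (by linarith) p2.le
  have h4 := Nat.floor_le h3
  have h5 := Nat.lt_floor_add_one ((a * 2 ^ m - i) * 2 ^ r)
  refine Set.mem_biUnion (x := ⌊(a * 2 ^ m - i) * 2 ^ r⌋₊) (Finset.mem_range.2
    ((Nat.floor_lt h3).2 ?_)) ⟨ha, ⟨(div_le_iff₀ p2).2 h4, (lt_div_iff₀ p2).2 h5⟩, ?_, ?_⟩
  · push_cast
    nlinarith
  · rw [div_le_iff₀ (by positivity), pow_add]
    push_cast
    linarith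
  · rw [lt_div_iff₀ (by positivity), pow_add]
    push_cast
    linarith


theorem dyad {c : ℝ} (hc : 0 < c) (hc' : c ≤ 1) {ϱ Cq Mx : ℕ} (hϱ : 1 ≤ ϱ) (hC : 1 ≤ Cq)
    {E : Set ℝ} {g b : ℝ → ℕ → ℕ} (h0 : ∀ a ∈ E, ∀ m, Mx < m → g a m = 0)
    (hb : ∀ a ∈ E, ∀ m, b a (m + 1) ≤ b a m)
    (hs : ∀ (m : ℕ) (i : ℕ),
      (∀ a ∈ E, (i : ℝ) / 2 ^ m ≤ a → a < (i + 1) / 2 ^ m → g a m ≤ g a (m + 1)) ∨
      ∃ H : Finset ℕ, H ⊆ Finset.range (2 ^ ϱ) ∧ c * 2 ^ ϱ ≤ (H.card : ℝ) ∧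
        ∀ a ∈ E, (i : ℝ) / 2 ^ m ≤ a → a < (i + 1) / 2 ^ m → g a m ≤ g a (m + ϱ) + Cq ∧
          ∀ n ∈ H, (n : ℝ) / 2 ^ ϱ ≤ a * 2 ^ m - i → a * 2 ^ m - i < (n + 1) / 2 ^ ϱ →
            b a (m + ϱ) + 1 ≤ b a m) (n h : ℕ) :
    volume {a | a ∈ E ∧ a ∈ Set.Ico (0 : ℝ) 1 ∧ n * Cq ≤ g a 0 ∧ b a 0 ≤ h} ≤
      ENNReal.ofReal ((1 - c / 2) ^ n * 2 ^ h) := by
  have hanti : ∀ a ∈ E, ∀ m r, b a (m + r) ≤ b a m := fun a ha m r =>
    antitone_nat_of_succ_le (hb a ha) (Nat.le_add_right m r)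
  have hc2 : 0 ≤ 1 - c / 2 := by linarith
  suffices H : ∀ n m i h : ℕ, volume {a | a ∈ E ∧ ((i : ℝ) / 2 ^ m ≤ a ∧ a < (i + 1) / 2 ^ m) ∧
      n * Cq ≤ g a m ∧ b a m ≤ h} ≤ ENNReal.ofReal ((1 - c / 2) ^ n * 2 ^ h / 2 ^ m) by
    simpa using H n 0 0 h
  intro n
  induction n with
  | zero =>
    intro m i h
    refine (measure_mono (t := Set.Ico ((i : ℝ) / 2 ^ m) ((i + 1) / 2 ^ m))
      fun a ha => ha.2.1).trans ?_
    rw [Real.volume_Ico, ← sub_div, add_sub_cancel_left, pow_zero, one_mul]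
    exact ENNReal.ofReal_le_ofReal
      (div_le_div_of_nonneg_right (one_le_pow₀ one_le_two) (by positivity))
  | succ n ih =>
    suffices H : ∀ k m : ℕ, Mx < m + k → ∀ i h : ℕ, volume {a | a ∈ E ∧
        ((i : ℝ) / 2 ^ m ≤ a ∧ a < (i + 1) / 2 ^ m) ∧ (n + 1) * Cq ≤ g a m ∧ b a m ≤ h} ≤
        ENNReal.ofReal ((1 - c / 2) ^ (n + 1) * 2 ^ h / 2 ^ m) from
      fun m => H (Mx + 1) m (by omega)
    intro k
    induction k with
    | zero =>
      intro m hm i h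
      refine le_trans (measure_mono (t := ∅) fun a ha => ?_) (by simp)
      have h1 := ha.2.2.1
      rw [h0 a ha.1 m hm] at h1
      exact absurd h1 (not_le.2 (by positivity))
    | succ k ihk =>
      intro m hm i h
      rcases hs m i with h1 | ⟨H, hH, hcH, h1⟩
      · refine (dyad_cover m i 1 (fun a ha => ha.2.1)
          (fun _ => (1 - c / 2) ^ (n + 1) * 2 ^ h / 2 ^ (m + 1)) (fun _ => by positivity)
          fun j _ => le_trans (measure_mono fun a ha => ?_)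
            (ihk (m + 1) (by omega) (i * 2 ^ 1 + j) h)).trans (le_of_eq ?_)
        · obtain ⟨⟨a1, a2, a3, a4⟩, -, a5⟩ := ha
          exact ⟨a1, a5, a3.trans (h1 a a1 a2.1 a2.2), (hb a a1 m).trans a4⟩
        · rw [Finset.sum_const, Finset.card_range, nsmul_eq_mul, pow_succ (2 : ℝ) m]
          congr 1
          push_cast
          field_simp
      refine (dyad_cover m i ϱ (fun a ha => ha.2.1)
        (fun j => (1 - c / 2) ^ n * 2 ^ h / 2 ^ (m + ϱ) * (1 - if j ∈ H then 1 / 2 else 0))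
        (fun j => mul_nonneg (by positivity) (by split_ifs <;> norm_num)) fun j _ => ?_).trans
        (ENNReal.ofReal_le_ofReal ?_)
      · have hg : ∀ a ∈ E, (i : ℝ) / 2 ^ m ≤ a ∧ a < (i + 1) / 2 ^ m → (n + 1) * Cq ≤ g a m →
            n * Cq ≤ g a (m + ϱ) := fun a a1 a2 a3 => by
          have := (h1 a a1 a2.1 a2.2).1
          rw [add_mul, one_mul] at a3
          omega
        split_ifs with hj
        · rcases h with _ | h
          · refine le_trans (measure_mono (t := ∅) fun a ha => ?_) (by simp)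
            obtain ⟨⟨a1, a2, -, a4⟩, a5, -⟩ := ha
            have := (h1 a a1 a2.1 a2.2).2 j hj a5.1 a5.2
            omega
          refine le_trans (measure_mono fun a ha => ?_)
            ((ih (m + ϱ) (i * 2 ^ ϱ + j) h).trans (le_of_eq ?_))
          · obtain ⟨⟨a1, a2, a3, a4⟩, a5, a6⟩ := ha
            have := (h1 a a1 a2.1 a2.2).2 j hj a5.1 a5.2
            exact ⟨a1, a6, hg a a1 a2 a3, by omega⟩
          · congr 1
            ring
        · rw [sub_zero, mul_one]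
          refine le_trans (measure_mono fun a ha => ?_) (ih (m + ϱ) (i * 2 ^ ϱ + j) h)
          obtain ⟨⟨a1, a2, a3, a4⟩, -, a6⟩ := ha
          exact ⟨a1, a6, hg a a1 a2 a3, (hanti a a1 m ϱ).trans a4⟩
      · rw [← Finset.mul_sum, Finset.sum_sub_distrib, Finset.sum_ite_mem,
          Finset.inter_eq_right.2 hH, Finset.sum_const, Finset.sum_const, Finset.card_range,
          nsmul_eq_mul, nsmul_eq_mul]
        calc _ ≤ (1 - c / 2) ^ n * 2 ^ h / 2 ^ (m + ϱ) * (2 ^ ϱ * (1 - c / 2)) := by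
              refine mul_le_mul_of_nonneg_left ?_ (by positivity)
              push_cast
              linarith
          _ = _ := by
              rw [pow_add, pow_succ]
              field_simp

end Vale.Agent.P108
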