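import Vale.Agent.P108.RayC

/-! Holomorphic dependence along a line up to a good level. -/

namespace Vale.Agent.P108

open MeasureTheory Filter
open scoped Classical

theorem ray_pow {K : ℝ} (hK : 0 < K) (n : ℕ) :
    (K ^ (-(1 / 100) : ℝ)) ^ n = K ^ (-(n / 100) : ℝ) := by
  rw [← Real.rpow_natCast, ← Real.rpow_mul hK.le]; congr 1; ring

theorem ray_hyp {k : ℝ} (hk : 0 ≤ k) (h10 : 10 ≤ KK k ^ (1 / 100 : ℝ)) {x φ : Seq} {eu ev : ℝ}
    {r : ℕ} (hx : IsOrb k x) (hφ : IsSol (Vs k x) φ) (h0 : φ 0 = ev) (h1 : φ (-1) = eu)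
    (hn : eu ^ 2 + ev ^ 2 = 1) (hL : GLv (KK k) φ r) :
    ray_Hyp k (KK k ^ (-(1 / 100) : ℝ)) √(nq φ r) x φ eu ev r := by
  have K0 : 0 < KK k := by linarith [four_le_KK hk]
  have hK : KK k * (KK k ^ (-(1 / 100) : ℝ)) ^ 100 = 1 := by
    rw [ray_pow K0, show (-(((100 : ℕ) : ℝ) / 100)) = -1 by norm_num, Real.rpow_neg_one,
      mul_inv_cancel₀ K0.ne']
  have hu : 0 < KK k ^ (-(1 / 100) : ℝ) := Real.rpow_pos_of_pos K0 _
  have hs := Real.sq_sqrt (nq_nonneg φ r)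
  refine ⟨hk, hu, ?_, hK, hx, hφ, h0, h1, Real.sqrt_pos.2 ?_, fun m i hm => ?_, fun m i hm => ?_⟩
  · rw [Real.rpow_neg K0.le, one_div (10 : ℝ)]
    exact inv_anti₀ (by norm_num) h10
  · have a := (nq_add_le (bdd_Vs hk x) hφ 0 r).2
    have b : nq φ 0 = 1 := by simp only [nq, zero_sub, h0, h1]; linarith
    rw [b, zero_add] at a
    exact (pos_iff_pos_of_mul_pos (zero_lt_one.trans_le a)).1 (by positivity)
  · refine abs_le_of_sq_le_sq' ?_ (by positivity) |> abs_le.2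
    have a : φ m ^ 2 ≤ nq φ m := by unfold nq; nlinarith [sq_nonneg (φ (m - 1))]
    refine a.trans ?_
    rw [mul_pow, hs, ← pow_mul, ray_pow K0]
    rcases Nat.eq_zero_or_pos i with rfl | hi
    · simp [← hm]
    · refine (hL m (by omega)).trans_eq ?_
      congr 2
      rw [← hm]; push_cast; ring
  · have a := (nq_add_le (bdd_Vs hk x) hφ m i).1
    rw [show (m : ℤ) + i = r by exact_mod_cast hm] at a
    rw [mul_pow, hs]
    calc _ ≤ KK k ^ (2 * i) * nq φ m * ((KK k ^ (-(1 / 100) : ℝ)) ^ (100 * i)) ^ 2 :=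
          mul_le_mul_of_nonneg_right a (by positivity)
      _ = (KK k * (KK k ^ (-(1 / 100) : ℝ)) ^ 100) ^ (2 * i) * nq φ m := by ring
      _ = _ := by rw [hK]; simp

theorem ray_main {k u G : ℝ} {x φ : Seq} {eu ev cu cv : ℝ} {r : ℕ} (H : ray_Hyp k u G x φ eu ev r)
    (hW : |ev * cu - eu * cv| = 1) (hr : 1 ≤ r) (hG : G ^ 2 = nq φ r)
    (hn : nq φ r ≤ nq φ (r + 1) * u ^ 198) {ρ : ℝ} (hρ : ρ * |φ r| * u ^ 90 ≤ 1) :
    1 ≤ |Vr k (x r)| * u ^ 98 ∧ φ r ≠ 0 ∧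
    ∃ (Y P Θ : ℂ → ℂ) (c0 c1 c2 : ℂ), DifferentiableOn ℂ Y (Metric.ball 0 ρ) ∧
      DifferentiableOn ℂ P (Metric.ball 0 ρ) ∧ DifferentiableOn ℂ Θ (Metric.ball 0 ρ) ∧
      (∀ a ∈ Metric.ball (0 : ℂ) ρ, ‖Y a - x r - a * φ r‖ ≤ ‖a‖ ^ 2 * φ r ^ 2 * u ^ 90 ∧
        ‖P a - φ r‖ ≤ |φ r| / 2 ∧
        ‖Θ a - (c0 + c1 * a + c2 * a ^ 2)‖ ≤ ‖a‖ ^ 3 * |φ r| * u ^ 70) ∧
      ∀ a : ℝ, |a| < ρ → ∀ x' φ' χ' : Seq, IsOrb k x' →
        x' 0 = x 0 + a * ev → x' (-1) = x (-1) + a * eu →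
        IsSol (Vs k x') φ' → φ' 0 = ev → φ' (-1) = eu →
        IsSol (Vs k x') χ' → χ' 0 = cv → χ' (-1) = cu →
        Y a = x' r ∧ P a = φ' r ∧ Θ a = (χ' r / φ' r : ℝ) ∧
          |φ' (r - 1)| ≤ u ^ 98 * |φ' r| ∧ ∀ m : ℕ, m ≤ r → |φ' m| ≤ 4 * |φ r| := by
  have G0 := H.hG
  have hu := H.hu
  have hu' := H.hu'
  have sm : ∀ n : ℕ, u ^ n ≤ (1 / 10) ^ n := fun n => pow_le_pow_left₀ hu.le hu' n
  have le1 : ∀ n : ℕ, u ^ n ≤ 1 := fun n => pow_le_one₀ hu.le (by linarith)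
  obtain ⟨s, rfl⟩ : ∃ s, r = s + 1 := ⟨r - 1, by omega⟩
  have cs : ((s + 1 : ℕ) : ℤ) - 1 = s := by push_cast; ring
  have a1 := H.up s 1 rfl
  have a0 := H.up (s + 1) 0 rfl
  rw [mul_one] at a1
  rw [mul_zero, pow_zero, mul_one] at a0
  have u99 : u ^ 99 ≤ u ^ 98 / 10 := by
    rw [pow_succ]; nlinarith [pow_pos hu 98]
  have a2 : |φ s| ≤ G / 10 := by nlinarith [le1 98]
  have a3 : 9 / 10 * G ≤ |φ (s + 1 : ℕ)| := by
    refine (abs_le_of_sq_le_sq' ?_ (abs_nonneg _)).2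
    have := pow_le_pow_left₀ (abs_nonneg _) a2 2
    rw [nq, cs] at hG
    rw [sq_abs] at this ⊢
    nlinarith
  have ix : ray_ix φ (s + 1 : ℕ) = (s + 1 : ℕ) := by
    unfold ray_ix; rw [cs, if_pos (by linarith)]
  have hb : ∀ a : ℂ, ‖a‖ < ρ → ‖a‖ * G * u ^ 98 < u ^ 5 := fun a ha => by
    have b1 : ‖a‖ * |φ (s + 1 : ℕ)| * u ^ 90 < 1 := lt_of_lt_of_le
      (mul_lt_mul_of_pos_right (mul_lt_mul_of_pos_right ha (by linarith)) (pow_pos hu _)) hρ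
    have b2 : ‖a‖ * (G * u ^ 3) ≤ ‖a‖ * |φ (s + 1 : ℕ)| :=
      mul_le_mul_of_nonneg_left (by nlinarith [sm 3]) (norm_nonneg _)
    have b3 := mul_le_mul_of_nonneg_right b2 (pow_pos hu 90).le
    calc _ = ‖a‖ * (G * u ^ 3) * u ^ 90 * u ^ 5 := by ring
      _ < 1 * u ^ 5 := mul_lt_mul_of_pos_right (by linarith) (pow_pos hu _)
      _ = _ := one_mul _
  have hb' : ∀ a : ℂ, ‖a‖ < ρ → ‖a‖ * G * u ^ (98 * (0 + 1)) ≤ u ^ 5 := fun a ha => (hb a ha).le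
  obtain ⟨c0, c1, c2, hc⟩ := ray_poly H hW (s + 1) 0 rfl
  refine ⟨?_, abs_pos.1 (by linarith), fun a => ray_X k x eu ev a (s + 1 : ℕ),
    fun a => ray_S k x eu ev eu ev a (s + 1 : ℕ), ray_th k x φ eu ev cu cv (s + 1 : ℕ), c0, c1, c2,
    (ray_X_diff _ _ _ _ _).differentiableOn, (ray_S_diff _ _ _ _ _ _ _).differentiableOn,
    ray_th_diff H le_rfl (add_zero _) fun a ha => hb' a (mem_ball_zero_iff.1 ha),
    fun a ha => ⟨?_, ?_, ?_⟩, fun a ha x' φ' χ' hx' x0 x1 hφ' p0 p1 hχ' q0 q1 => ?_⟩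
  · by_contra hcon
    rw [not_le] at hcon
    have e := H.hφ (s + 1 : ℕ)
    rw [cs] at e
    simp only [Vs] at e
    set V := |Vr k (x (s + 1 : ℕ))| with hV
    have V0 : 0 ≤ V := abs_nonneg _
    have b1 : |φ ((s + 1 : ℕ) + 1)| ≤ (V + 1) * G := by
      rw [eq_sub_of_add_eq e]
      refine (abs_sub _ _).trans ?_
      rw [abs_mul]
      nlinarith
    have b2 := pow_le_pow_left₀ (abs_nonneg _) b1 2
    have b3 := pow_le_pow_left₀ (abs_nonneg _) a0 2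
    rw [sq_abs] at b2 b3
    rw [← hG, nq, add_sub_cancel_right] at hn
    have w0 : 0 < u ^ 99 := pow_pos hu 99
    have b4 : G ^ 2 ≤ (((V + 1) * G) ^ 2 + G ^ 2) * u ^ 198 :=
      hn.trans (mul_le_mul_of_nonneg_right (by linarith) (pow_pos hu _).le)
    have b5 : (V + 1) * u ^ 99 ≤ 1 / 5 := by
      have := mul_le_mul_of_nonneg_left u99 V0
      linarith [le1 98]
    have b6 := pow_le_pow_left₀ (mul_nonneg (by linarith) w0.le) b5 2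
    have b7 : u ^ 198 ≤ 1 / 10 := (pow_le_of_le_one hu.le (by linarith) (by norm_num)).trans hu'
    have b8 : (((V + 1) * G) ^ 2 + G ^ 2) * u ^ 198 =
        G ^ 2 * (((V + 1) * u ^ 99) ^ 2 + u ^ 198) := by ring
    have b9 := mul_le_mul_of_nonneg_left (add_le_add b6 b7) (sq_nonneg G)
    nlinarith [pow_pos G0 2]
  · refine (ray_E H (hb' a (mem_ball_zero_iff.1 ha)) le_rfl (add_zero _)).1.trans ?_
    have b1 := pow_le_pow_left₀ (by linarith) a3 2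
    rw [sq_abs] at b1
    have b2 : 112 * u ^ 8 * G ^ 2 ≤ φ (s + 1 : ℕ) ^ 2 := by nlinarith [sm 8, sq_nonneg G]
    have b3 := mul_le_mul_of_nonneg_left b2 (mul_nonneg (sq_nonneg ‖a‖) (pow_pos hu 90).le)
    calc _ = ‖a‖ ^ 2 * u ^ 90 * (112 * u ^ 8 * G ^ 2) := by ring
      _ ≤ _ := b3
      _ = _ := by ring
  · refine (ray_E' H (hb' a (mem_ball_zero_iff.1 ha)) le_rfl (add_zero _)).1.trans ?_
    rw [mul_zero, pow_zero]
    linarith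
  · refine (hc a (hb a (mem_ball_zero_iff.1 ha))).trans ?_
    have b2 : 128 * u ^ 9 * G ≤ |φ (s + 1 : ℕ)| := by nlinarith [sm 9]
    have b3 := mul_le_mul_of_nonneg_left b2
      (mul_nonneg (pow_nonneg (norm_nonneg a) 3) (pow_pos hu 70).le)
    calc _ = ‖a‖ ^ 3 * u ^ 70 * (128 * u ^ 9 * G) := by ring
      _ ≤ _ := b3
      _ = _ := by ring
  · have e1 := ray_X_real hx' x0 x1
    have e2 := ray_S_real hx' x0 x1 hφ' p0 p1
    have e3 := ray_S_real hx' x0 x1 hχ' q0 q1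
    have ha' := hb' a (by rwa [Complex.norm_real])
    have key : ∀ m i : ℕ, m + i = s + 1 → |φ' m| ≤ |φ m| + G * u ^ (100 * i) / 100 ∧
        |φ m| ≤ |φ' m| + G * u ^ (100 * i) / 100 := fun m i hm => by
      have := (ray_E' H ha' (Nat.zero_le i) hm).1
      rw [e2, ← Complex.ofReal_sub, Complex.norm_real, Real.norm_eq_abs] at this
      constructor
      · linarith [abs_sub_abs_le_abs_sub (φ' m) (φ m)]
      · linarith [abs_sub_abs_le_abs_sub (φ m) (φ' m), abs_sub_comm (φ m) (φ' m)]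
    refine ⟨congrFun e1 _, congrFun e2 _, ?_, ?_, fun m hm => ?_⟩
    · unfold ray_th
      rw [e2, e3, ix]; push_cast; rfl
    · have b1 := (key s 1 rfl).1
      have b2 := (key (s + 1) 0 rfl).2
      rw [mul_zero, pow_zero] at b2
      rw [mul_one] at b1
      have b3 : u ^ 100 ≤ u ^ 98 := pow_le_pow_of_le_one hu.le (by linarith) (by norm_num)
      have b4 := mul_le_mul_of_nonneg_left b3 G0.le
      have b5 := mul_le_mul_of_nonneg_left u99 G0.le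
      have b6 := mul_le_mul_of_nonneg_left (show G / 2 ≤ |φ' (s + 1 : ℕ)| by linarith)
        (pow_pos hu 98).le
      have b7 := mul_pos G0 (pow_pos hu 98)
      rw [cs]
      linarith
    · have b1 := (key m (s + 1 - m) (by omega)).1
      have b2 := H.up m (s + 1 - m) (by omega)
      have b3 := mul_le_mul_of_nonneg_left (le1 (100 * (s + 1 - m))) G0.le
      have b4 := mul_le_mul_of_nonneg_left (le1 (99 * (s + 1 - m))) G0.le
      linarith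

theorem ray : ∀ᶠ k in atTop, ∀ (x φ : Seq) (eu ev cu cv : ℝ) (r : ℕ), IsOrb k x →
    IsSol (Vs k x) φ → φ 0 = ev → φ (-1) = eu → eu ^ 2 + ev ^ 2 = 1 → |ev * cu - eu * cv| = 1 →
    Lv (KK k) φ r → KK k ^ (49 / 50 : ℝ) ≤ |Vr k (x r)| ∧ φ r ≠ 0 ∧
    ∃ (Y P Θ : ℂ → ℂ) (c0 c1 c2 : ℂ),
      DifferentiableOn ℂ Y (Metric.ball 0 (KK k ^ (9 / 10 : ℝ) / |φ r|)) ∧
      DifferentiableOn ℂ P (Metric.ball 0 (KK k ^ (9 / 10 : ℝ) / |φ r|)) ∧
      DifferentiableOn ℂ Θ (Metric.ball 0 (KK k ^ (9 / 10 : ℝ) / |φ r|)) ∧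
      (∀ a ∈ Metric.ball (0 : ℂ) (KK k ^ (9 / 10 : ℝ) / |φ r|),
        ‖Y a - x r - a * φ r‖ ≤ ‖a‖ ^ 2 * φ r ^ 2 * KK k ^ (-(9 / 10) : ℝ) ∧
        ‖P a - φ r‖ ≤ |φ r| / 2 ∧
        ‖Θ a - (c0 + c1 * a + c2 * a ^ 2)‖ ≤ ‖a‖ ^ 3 * |φ r| * KK k ^ (-(7 / 10) : ℝ)) ∧
      ∀ a : ℝ, |a| < KK k ^ (9 / 10 : ℝ) / |φ r| → ∀ x' φ' χ' : Seq, IsOrb k x' →
        x' 0 = x 0 + a * ev → x' (-1) = x (-1) + a * eu →
        IsSol (Vs k x') φ' → φ' 0 = ev → φ' (-1) = eu →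
        IsSol (Vs k x') χ' → χ' 0 = cv → χ' (-1) = cu →
        Y a = x' r ∧ P a = φ' r ∧ Θ a = (χ' r / φ' r : ℝ) ∧
          |φ' (r - 1)| ≤ KK k ^ (-(49 / 50) : ℝ) * |φ' r| ∧
          ∀ m : ℕ, m ≤ r → |φ' m| ≤ 4 * |φ r| := by
  filter_upwards [ev_rpow 10 (a := 1 / 100) (by norm_num), eventually_ge_atTop 0] with k h10 hk
    x φ eu ev cu cv r hx hφ h0 h1 hn hW hL
  have K0 : 0 < KK k := by linarith [four_le_KK hk]
  have H := ray_hyp hk h10 hx hφ h0 h1 hn hL.2.1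
  have e90 : (KK k ^ (-(1 / 100) : ℝ)) ^ 90 = KK k ^ (-(9 / 10) : ℝ) := by
    rw [ray_pow K0]; norm_num
  have e70 : (KK k ^ (-(1 / 100) : ℝ)) ^ 70 = KK k ^ (-(7 / 10) : ℝ) := by
    rw [ray_pow K0]; norm_num
  have e98 : (KK k ^ (-(1 / 100) : ℝ)) ^ 98 = KK k ^ (-(49 / 50) : ℝ) := by
    rw [ray_pow K0]; norm_num
  have M := ray_main H hW hL.1 (Real.sq_sqrt (nq_nonneg φ r)) (by
    have := hL.2.2 r (Nat.lt_succ_self r)
    rw [ray_pow K0]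
    refine this.trans_eq ?_
    push_cast
    congr 2
    ring) (ρ := KK k ^ (9 / 10 : ℝ) / |φ r|) (by
    rw [e90, Real.rpow_neg K0.le, ← div_eq_mul_inv, div_le_one (Real.rpow_pos_of_pos K0 _)]
    rcases eq_or_ne |φ r| 0 with h | h
    · rw [h, mul_zero]; positivity
    · rw [div_mul_cancel₀ _ h])
  rw [e90, e70, e98] at M
  refine ⟨?_, M.2⟩
  have := M.1
  rwa [Real.rpow_neg K0.le, ← div_eq_mul_inv, one_le_div (Real.rpow_pos_of_pos K0 _)] at this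

end Vale.Agent.P108
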