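import Vale.Agent.P108.RigidD

/-! The tangency relation cannot hold on almost all of an interval. -/

namespace Vale.Agent.P108

open MeasureTheory Filter Set Complex
open scoped Classical

theorem rig_core {k h a0 u v x0 y0 : ℝ} {X Y P R Θ : ℂ → ℂ} {c0 c1 c2 : ℂ} {M : ℕ} (hk : 0 ≤ k)
    (h0 : 0 < h) (h1 : h ≤ 1 / 10 ^ 20) (hK : KK k * h ^ 50 = 1)
    (hC : 2 ^ 72 * (9 * Real.exp 8 ^ 2 * 10 ^ 6 + 10 ^ 6) * h ≤ 1) (hM : KK k ^ 4 ≤ M)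
    (a0' : 0 ≤ a0) (a1 : a0 ≤ 1) (hu : 100 ≤ max |u| |v|) (hu' : max |u| |v| ≤ 200)
    (hv : h ^ 25 ≤ min |u| |v|) (hx : 1 ≤ |Vr k x0| * h ^ 49) (hy : 1 ≤ |Vr k y0| * h ^ 49)
    (dX : DifferentiableOn ℂ X (Metric.ball a0 (1 / h ^ 40)))
    (dY : DifferentiableOn ℂ Y (Metric.ball a0 (1 / h ^ 40)))
    (dP : DifferentiableOn ℂ P (Metric.ball a0 (1 / h ^ 40)))
    (dR : DifferentiableOn ℂ R (Metric.ball a0 (1 / h ^ 40)))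
    (dT : DifferentiableOn ℂ Θ (Metric.ball a0 (1 / h ^ 40)))
    (hB : ∀ a ∈ Metric.ball (a0 : ℂ) (1 / h ^ 40),
      ‖X a - x0 - (a - a0) * u‖ ≤ ‖a - a0‖ ^ 2 * u ^ 2 * h ^ 45 ∧
      ‖Y a - y0 - (a - a0) * v‖ ≤ ‖a - a0‖ ^ 2 * v ^ 2 * h ^ 45 ∧
      ‖P a - u‖ ≤ |u| / 2 ∧ ‖R a - v‖ ≤ |v| / 2 ∧
      ‖Θ a - (c0 + c1 * (a - a0) + c2 * (a - a0) ^ 2)‖ ≤ ‖a - a0‖ ^ 3 * (|u| + |v|) * h ^ 35)
    {xr yr pr qr tr : ℝ → ℝ} (hr : ∀ s : ℝ, 0 ≤ s → s ≤ 1 →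
      X s = xr s ∧ Y s = yr s ∧ P s = pr s ∧ R s = qr s ∧ Θ s = tr s) {E : Set ℝ}
    (hE : ∀ s ∈ E, ∃ α β : ℝ, |α - Vr k (xr s)| ≤ 2 * h ^ 49 ∧ |β - Vr k (yr s)| ≤ 2 * h ^ 49 ∧
      tr s * pr s ^ 2 * qr s ^ 2 * α * β = pr s ^ 2 * α + qr s ^ 2 * β)
    (hH : (((Finset.range M).filter fun i : ℕ =>
      ∀ s ∈ E, ¬ ((i : ℝ) / M ≤ s ∧ s < (i + 1) / M)).card + 1) * (8 * 72 ^ 2) ≤ M) : False := by
  have q50 := pow_pos h0 50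
  have p50 := rig_pw h0 h1 (show 0 < 50 by norm_num)
  have K0 := four_le_KK hk
  have K12 : 12 ≤ KK k := le_of_mul_le_mul_right (by linarith) q50
  have u2 := (le_max_left _ _).trans hu'
  have v2 := (le_max_right _ _).trans hu'
  have ax := rig_ap hk h0 h1 hK (by linarith) a0' a1 u2 hx dX (fun a ha => (hB a ha).1)
    fun s a b => (hr s a b).1
  have ay := rig_ap hk h0 h1 hK (by linarith) a0' a1 v2 hy dY (fun a ha => (hB a ha).2.1)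
    fun s a b => (hr s a b).2.1
  have n0 : 2 * h ^ 50 ≤ 2 / (KK k - 4) := by rw [le_div_iff₀ (by linarith)]; linarith
  have n1 : 2 / (KK k - 4) ≤ 3 * h ^ 50 := by rw [div_le_iff₀ (by linarith)]; linarith
  have n2 : 0 ≤ 2 / (KK k - 4) := by linarith
  obtain ⟨s1, i1, b1⟩ := rig_node h0 h1 n2 n1 ax ay hu hu' (t := 0) le_rfl (by norm_num)
  obtain ⟨s2, i2, b2⟩ := rig_node h0 h1 n2 n1 ax ay hu hu' (t := 1 / 5) (by norm_num) (by norm_num)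
  obtain ⟨s3, i3, b3⟩ := rig_node h0 h1 n2 n1 ax ay hu hu' (t := 2 / 5) (by norm_num) (by norm_num)
  have q40 := pow_pos h0 40
  have q20 := pow_pos h0 20
  have ρ1 : 1 < 1 / h ^ 40 := by
    rw [lt_div_iff₀ q40]; linarith [rig_pw h0 h1 (show 0 < 40 by norm_num)]
  have ρ2 : 4 ≤ 1 / h ^ 20 := by
    rw [le_div_iff₀ q20]; linarith [rig_pw h0 h1 (show 0 < 20 by norm_num)]
  have ρ3 : Metric.ball (a0 : ℂ) (1 / h ^ 20) ⊆ Metric.ball a0 (1 / h ^ 40) :=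
    Metric.ball_subset_ball (one_div_le_one_div_of_le q40 (pow_le_pow_of_le_one h0.le (by linarith)
      (by norm_num)))
  obtain ⟨μ, m1, m2, m3, s, i, b, m0⟩ : ∃ μ, |tr s1| ≤ μ ∧ |tr s2| ≤ μ ∧ |tr s3| ≤ μ ∧
      ∃ s ∈ Icc (0 : ℝ) (1 / 2), (h ^ 25 ≤ |Cc (2 / (KK k - 4)) (xr s)| ∧
        h ^ 25 ≤ |Cc (2 / (KK k - 4)) (yr s)|) ∧ |tr s| = μ := by
    have j1 : s1 ∈ Icc (0 : ℝ) (1 / 2) := ⟨i1.1, by linarith [i1.2]⟩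
    have j2 : s2 ∈ Icc (0 : ℝ) (1 / 2) := ⟨by linarith [i2.1], by linarith [i2.2]⟩
    have j3 : s3 ∈ Icc (0 : ℝ) (1 / 2) := ⟨by linarith [i3.1], by linarith [i3.2]⟩
    rcases le_total |tr s1| |tr s2| with a | a
    · rcases le_total |tr s2| |tr s3| with b | b
      exacts [⟨_, a.trans b, b, le_rfl, s3, j3, b3, rfl⟩, ⟨_, a, le_rfl, b, s2, j2, b2, rfl⟩]
    · rcases le_total |tr s1| |tr s3| with b | b
      exacts [⟨_, b, a.trans b, le_rfl, s3, j3, b3, rfl⟩, ⟨_, le_rfl, a, b, s1, j1, b1, rfl⟩]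
  have nt : ∀ t : ℝ, 0 ≤ t → t ≤ 1 → ‖Θ t‖ = |tr t| := fun t a b => by
    rw [(hr t a b).2.2.2.2, norm_real, Real.norm_eq_abs]
  have TB := @rig_TB (400 * h ^ 35) _ _ u v μ s1 s2 s3 P R Θ c0 c1 c2 (by positivity) ρ1 a0' a1
    (fun a ha => ⟨(hB a ha).2.2.1, (hB a ha).2.2.2.1, (hB a ha).2.2.2.2.trans
      (by rw [mul_assoc]; gcongr; linarith)⟩) i1 i2 i3
    (by rwa [nt _ i1.1 (by linarith [i1.2])])
    (by rwa [nt _ (by linarith [i2.1]) (by linarith [i2.2])])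
    (by rwa [nt _ (by linarith [i3.1]) (by linarith [i3.2])])
  clear i1 i2 i3 m1 m2 m3 b1 b2 b3
  subst m0
  set m := (|tr s| + 400 * h ^ 35) * (u ^ 2 * v ^ 2) with hm
  have m0' : 0 ≤ m := by positivity
  have T1 : ∀ s : ℝ, 0 ≤ s → s ≤ 1 → |tr s| * (pr s ^ 2 * qr s ^ 2) ≤ 40000 * m := fun t a b => by
    obtain ⟨e1, e2⟩ := rig_mem a0' a1 ρ1 a b
    obtain ⟨-, -, e3, e4, e5⟩ := hr t a b
    have c := (TB e2).trans (show _ ≤ 5000 * m * (1 + 1) ^ 3 by gcongr)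
    rw [e3, e4, e5, norm_mul, norm_mul, norm_pow, norm_pow, norm_real, norm_real, norm_real,
      Real.norm_eq_abs, Real.norm_eq_abs, Real.norm_eq_abs, sq_abs, sq_abs] at c
    linarith only [c]
  have key : ∀ s ∈ Icc (0 : ℝ) (1 / 2), |pr s ^ 2 * Vr k (xr s) + qr s ^ 2 * Vr k (yr s) -
      tr s * pr s ^ 2 * qr s ^ 2 * Vr k (xr s) * Vr k (yr s)| ≤ (h ^ 50 + m) / h ^ 2 := fun s hs => by
    refine (rig_ext (T' := 40000 * m / h ^ 60) (x0 := x0) (y0 := y0) hk a0' a1 u2 v2 ρ2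
      (by positivity) (by linarith only [rig_pw h0 h1 (show 0 < 49 by norm_num)]) (dX.mono ρ3)
      (dY.mono ρ3) (dP.mono ρ3) (dR.mono ρ3) (dT.mono ρ3) (fun a ha => ?_) hr T1 hE hH hs.1
      hs.2).trans (rig_delta h0 h1 hK hC m0' hM)
    obtain ⟨c1, c2, c3, c4, -⟩ := hB a (ρ3 ha)
    have z := (mem_ball_iff_norm.1 ha).le
    have w : ∀ w : ℝ, |w| ≤ 200 → ‖a - a0‖ ^ 2 * w ^ 2 * h ^ 45 ≤ 1 := fun w hw =>
      calc _ ≤ (1 / h ^ 20) ^ 2 * 200 ^ 2 * h ^ 45 := by rw [← sq_abs w]; gcongr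
        _ = 40000 * h ^ 5 := by field_simp; ring
        _ ≤ 1 := by linarith only [rig_pw h0 h1 (show 0 < 5 by norm_num)]
    refine ⟨c1.trans (w u u2), c2.trans (w v v2), by linarith only [rig_nP c3, u2],
      by linarith only [rig_nP c4, v2], (TB (ρ3 ha)).trans ?_⟩
    calc _ ≤ 5000 * m * (2 * (1 / h ^ 20)) ^ 3 := by gcongr; linarith only [z, ρ2]
      _ = _ := by field_simp; ring
  have sq : ∀ s ∈ Icc (0 : ℝ) (1 / 2), (u ^ 2 / 4 ≤ pr s ^ 2 ∧ pr s ^ 2 ≤ 160000) ∧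
      v ^ 2 / 4 ≤ qr s ^ 2 ∧ qr s ^ 2 ≤ 160000 := fun s hs => by
    obtain ⟨-, -, c3, c4, -⟩ := hB s (rig_mem a0' a1 ρ1 hs.1 (by linarith only [hs.2])).2
    obtain ⟨-, -, e3, e4, -⟩ := hr s hs.1 (by linarith only [hs.2])
    rw [e3, ← ofReal_sub, norm_real] at c3
    rw [e4, ← ofReal_sub, norm_real] at c4
    exact ⟨rig_sq c3 u2, rig_sq c4 v2⟩
  have K8 : 8 ≤ KK k := by linarith only [K12]
  have K' : 1 / 2 ≤ (KK k - 4) * h ^ 50 := by linarith only [hK, p50]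
  simp only [rig_V K8] at key
  have mb := rig_mb h0 h1 K0 K' u2 v2 (sq s i).1.1 (sq s i).1.2 (sq s i).2.1 (sq s i).2.2 b.1 b.2
    (key s i)
  exact rig_fin h0 h1 n0 n1 ax ay hu hu' hv fun s hs => ⟨_, _, _, (sq s hs).1.1, (sq s hs).2.1,
    rig_last h0 h1 (by linarith only [K12]) hK K' mb (T1 s hs.1 (by linarith only [hs.2])) (key s hs)⟩

theorem rigid : ∃ (c : ℝ) (Q : ℕ), 0 < c ∧ c ≤ 1 ∧ ∀ᶠ k in atTop, ∀ M : ℕ, KK k ^ Q ≤ M →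
    ∀ (a0 u v x0 y0 : ℝ) (X Y P R Θ : ℂ → ℂ) (c0 c1 c2 : ℂ), 0 ≤ a0 → a0 ≤ 1 →
    100 ≤ max |u| |v| → max |u| |v| ≤ 200 → KK k ^ (-(1 / 2) : ℝ) ≤ min |u| |v| →
    KK k ^ (49 / 50 : ℝ) ≤ |Vr k x0| → KK k ^ (49 / 50 : ℝ) ≤ |Vr k y0| →
    DifferentiableOn ℂ X (Metric.ball a0 (KK k ^ (4 / 5 : ℝ))) →
    DifferentiableOn ℂ Y (Metric.ball a0 (KK k ^ (4 / 5 : ℝ))) →
    DifferentiableOn ℂ P (Metric.ball a0 (KK k ^ (4 / 5 : ℝ))) →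
    DifferentiableOn ℂ R (Metric.ball a0 (KK k ^ (4 / 5 : ℝ))) →
    DifferentiableOn ℂ Θ (Metric.ball a0 (KK k ^ (4 / 5 : ℝ))) →
    (∀ a ∈ Metric.ball (a0 : ℂ) (KK k ^ (4 / 5 : ℝ)),
      ‖X a - x0 - (a - a0) * u‖ ≤ ‖a - a0‖ ^ 2 * u ^ 2 * KK k ^ (-(9 / 10) : ℝ) ∧
      ‖Y a - y0 - (a - a0) * v‖ ≤ ‖a - a0‖ ^ 2 * v ^ 2 * KK k ^ (-(9 / 10) : ℝ) ∧
      ‖P a - u‖ ≤ |u| / 2 ∧ ‖R a - v‖ ≤ |v| / 2 ∧
      ‖Θ a - (c0 + c1 * (a - a0) + c2 * (a - a0) ^ 2)‖ ≤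
        ‖a - a0‖ ^ 3 * (|u| + |v|) * KK k ^ (-(7 / 10) : ℝ)) →
    ∀ xr yr pr qr tr : ℝ → ℝ, (∀ s : ℝ, 0 ≤ s → s ≤ 1 →
      X s = xr s ∧ Y s = yr s ∧ P s = pr s ∧ R s = qr s ∧ Θ s = tr s) →
    ∀ E : Set ℝ, (∀ s ∈ E, ∃ α β : ℝ, |α - Vr k (xr s)| ≤ 2 * KK k ^ (-(49 / 50) : ℝ) ∧
      |β - Vr k (yr s)| ≤ 2 * KK k ^ (-(49 / 50) : ℝ) ∧
      tr s * pr s ^ 2 * qr s ^ 2 * α * β = pr s ^ 2 * α + qr s ^ 2 * β) →
    c * M ≤ (((Finset.range M).filter fun i : ℕ =>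
      ∀ s ∈ E, ¬ ((i : ℝ) / M ≤ s ∧ s < (i + 1) / M)).card : ℝ) := by
  refine ⟨1 / (16 * 72 ^ 2), 4, by norm_num, by norm_num, ?_⟩
  filter_upwards [eventually_ge_atTop 0, ev_rpow (10 ^ 20) (show (0 : ℝ) < 1 / 50 by norm_num),
    ev_rpow (2 ^ 72 * (9 * Real.exp 8 ^ 2 * 10 ^ 6 + 10 ^ 6)) (show (0 : ℝ) < 1 / 50 by norm_num),
    ev_rpow 20 one_pos] with k hk e1 e2 e3
  intro M hM a0 u v x0 y0 X Y P R Θ c0 c1 c2 a1 a2 u1 u2 u3 bx bY dX dY dP dR dT hB xr yr pr qr tr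
    hr E hE
  have K0 : 0 < KK k := lt_of_lt_of_le (by norm_num) (four_le_KK hk)
  have w0 : 0 < KK k ^ (1 / 50 : ℝ) := Real.rpow_pos_of_pos K0 _
  obtain ⟨h, hh⟩ : ∃ h, h = 1 / KK k ^ (1 / 50 : ℝ) := ⟨_, rfl⟩
  have pw : ∀ (n : ℕ) (a : ℝ), a = n / 50 → KK k ^ a = 1 / h ^ n ∧ KK k ^ (-a) = h ^ n :=
    fun n a e => by
    have : KK k ^ a = 1 / h ^ n := by
      rw [hh, one_div_pow, one_div_one_div, ← Real.rpow_mul_natCast K0.le, e]; congr 1; ring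
    exact ⟨this, by rw [Real.rpow_neg K0.le, this, one_div, inv_inv]⟩
  have h0 : 0 < h := by rw [hh]; positivity
  have r1 := (pw 40 (4 / 5) (by norm_num)).1
  have r2 := pw 49 (49 / 50) (by norm_num)
  have r3 := (pw 50 1 (by norm_num)).1
  rw [Real.rpow_one] at r3 e3
  rw [r1] at dX dY dP dR dT hB
  rw [(pw 45 _ (by norm_num)).2, (pw 35 _ (by norm_num)).2] at hB
  rw [(pw 25 _ (by norm_num)).2] at u3
  rw [r2.1, div_le_iff₀ (pow_pos h0 _)] at bx bY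
  rw [r2.2] at hE
  by_contra con
  refine rig_core hk h0 (by rw [hh]; exact one_div_le_one_div_of_le (by norm_num) e1)
    (by rw [r3, one_div_mul_cancel (pow_pos h0 _).ne']) (by rwa [hh, mul_one_div, div_le_one w0]) hM
    a1 a2 u1 u2 u3 bx bY dX dY dP dR dT hB hr hE ?_
  have : (20 : ℝ) ^ 4 ≤ M := le_trans (by gcongr) hM
  rw [← Nat.cast_le (α := ℝ)]
  push_cast
  linarith [not_le.1 con]

end Vale.Agent.P108
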