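import Vale.Agent.P108.WegB
import Vale.Agent.P108.Cnt

/-! The Wegner type estimate: the two counting functions. -/

namespace Vale.Agent.P108

open MeasureTheory Filter
open scoped Classical

/-- The number of matched pairs above scale m. -/
noncomputable def wegG (K : ℝ) (d : ℕ) (φ : Seq) (m : ℕ) : ℕ :=
  ((Finset.range d).filter fun r => ∃ l, Pair K d φ l r ∧
    100 * 2 ^ m ≤ max |φ r| |rf φ l|).card
/-- The number of hits above scale m. -/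
noncomputable def wegB (K : ℝ) (d : ℕ) (φ ψ : Seq) (m : ℕ) : ℕ :=
  ((Finset.range d).filter fun r => r + 2 ≤ d ∧ Hit K ψ r ∧
    ∃ j : ℕ, j ≤ r ∧ K ^ (-(9 / 10) : ℝ) * 2 ^ m ≤ |φ j|).card

theorem weg_B_sub {K : ℝ} (hK : 0 ≤ K) (d : ℕ) (φ ψ : Seq) {m m' : ℕ} (h : m ≤ m') :
    ((Finset.range d).filter fun r => r + 2 ≤ d ∧ Hit K ψ r ∧
      ∃ j : ℕ, j ≤ r ∧ K ^ (-(9 / 10) : ℝ) * 2 ^ m' ≤ |φ j|) ⊆
    ((Finset.range d).filter fun r => r + 2 ≤ d ∧ Hit K ψ r ∧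
      ∃ j : ℕ, j ≤ r ∧ K ^ (-(9 / 10) : ℝ) * 2 ^ m ≤ |φ j|) := fun r hr => by
  rw [Finset.mem_filter] at hr ⊢
  obtain ⟨a, b, c, j, hj, e⟩ := hr
  refine ⟨a, b, c, j, hj, le_trans ?_ e⟩
  exact mul_le_mul_of_nonneg_left (pow_le_pow_right₀ (by norm_num) h) (Real.rpow_nonneg hK _)

theorem weg_B_anti {K : ℝ} (hK : 0 ≤ K) (d : ℕ) (φ ψ : Seq) {m m' : ℕ} (h : m ≤ m') :
    wegB K d φ ψ m' ≤ wegB K d φ ψ m := Finset.card_le_card (weg_B_sub hK d φ ψ h)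

theorem weg_B_drop {K : ℝ} (hK : 0 ≤ K) {d : ℕ} {φ ψ : Seq} {m m' : ℕ} (h : m ≤ m') {r : ℕ}
    (hr : r + 2 ≤ d) (hH : Hit K ψ r) (h1 : K ^ (-(9 / 10) : ℝ) * 2 ^ m ≤ |φ r|)
    (h2 : ∀ j : ℕ, j ≤ r → |φ j| < K ^ (-(9 / 10) : ℝ) * 2 ^ m') :
    wegB K d φ ψ m' + 1 ≤ wegB K d φ ψ m := by
  refine Finset.card_lt_card ((Finset.ssubset_iff_of_subset (weg_B_sub hK d φ ψ h)).2
    ⟨r, ?_, ?_⟩)
  · exact Finset.mem_filter.2 ⟨Finset.mem_range.2 (by omega), hr, hH, r, le_rfl, h1⟩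
  · intro hc
    obtain ⟨-, -, -, j, hj, e⟩ := Finset.mem_filter.1 hc
    exact absurd (h2 j hj) (not_lt.2 e)

theorem weg_B_le (K : ℝ) (d : ℕ) (φ ψ : Seq) (m : ℕ) : wegB K d φ ψ m ≤
    ((Finset.range d).filter fun r => r + 2 ≤ d ∧ Hit K ψ r).card :=
  Finset.card_le_card fun r hr => by
    rw [Finset.mem_filter] at hr ⊢
    exact ⟨hr.1, hr.2.1, hr.2.2.1⟩

theorem weg_abs_le {K : ℝ} (hK : 1 ≤ K) {V φ : Seq} (hV : Bdd K V) (hφ : IsSol V φ)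
    (h0 : nq φ 0 = 1) {d r : ℕ} (hr : r ≤ d) : |φ r| ≤ K ^ d := by
  have h := (nq_add_le hV hφ 0 r).1
  rw [h0, zero_add, mul_one, nq, mul_comm, pow_mul] at h
  refine le_trans (abs_le_of_sq_le_sq' ?_ (by positivity) |> abs_le.2) (pow_le_pow_right₀ hK hr)
  nlinarith [sq_nonneg (φ (r - 1))]

theorem weg_G_zero {K : ℝ} (hK : 1 ≤ K) {V φ : Seq} (hV : Bdd K V) (hφ : IsSol V φ)
    (h0 : nq φ 0 = 1) {d m : ℕ} (hm : K ^ d < 2 ^ m) : wegG K d φ m = 0 := by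
  rw [wegG, Finset.card_eq_zero, Finset.filter_eq_empty_iff]
  rintro r - ⟨l, ⟨-, -, h1, h2, -⟩, h⟩
  have a := weg_abs_le hK hV hφ h0 (show r ≤ d by omega)
  have b := weg_abs_le hK hV.rf hφ.rf (by rwa [nq_rf, neg_zero]) (show l ≤ d by omega)
  have c := max_le a b
  have : (0 : ℝ) < 2 ^ m := by positivity
  linarith

theorem weg_G_step {K : ℝ} {d : ℕ} {φ : Seq} {m : ℕ} (h : ¬ ∃ l r : ℕ, Pair K d φ l r ∧
    100 * 2 ^ m ≤ max |φ r| |rf φ l| ∧ max |φ r| |rf φ l| ≤ 200 * 2 ^ m) :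
    wegG K d φ m ≤ wegG K d φ (m + 1) := Finset.card_le_card fun r hr => by
  rw [Finset.mem_filter] at hr ⊢
  obtain ⟨a, l, b, c⟩ := hr
  refine ⟨a, l, b, ?_⟩
  by_contra hc
  refine h ⟨l, r, b, c, ?_⟩
  rw [not_le, pow_succ] at hc
  linarith

theorem weg_G_win {K : ℝ} (hK : 1 ≤ K) {d : ℕ} {φ : Seq} {m ϱ Q Cq : ℕ}
    (hϱ : (2 : ℝ) ^ ϱ ≤ 2 * K ^ (Q + 1)) (h200 : 200 ≤ K ^ (1 / 2 : ℝ))
    (hw : ∀ A : ℝ, 0 < A → ((Finset.range d).filter fun r => Lv K φ r ∧ A ≤ |φ r| ∧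
      |φ r| ≤ A * K ^ (Q + 1 + 1)).card ≤ Cq) :
    wegG K d φ m ≤ wegG K d φ (m + ϱ) + Cq := by
  have hK0 : 0 < K := by linarith
  have h2 : (0 : ℝ) < 2 ^ m := by positivity
  have hs : 0 < K ^ (-(1 / 2) : ℝ) := Real.rpow_pos_of_pos hK0 _
  refine le_trans ?_ (Nat.add_le_add_left (hw (2 ^ m * K ^ (-(1 / 2) : ℝ)) (by positivity)) _)
  refine le_trans (Finset.card_le_card fun r hr => ?_) (Finset.card_union_le _ _)
  rw [Finset.mem_union, Finset.mem_filter, Finset.mem_filter]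
  obtain ⟨a, l, b, c⟩ := Finset.mem_filter.1 hr
  by_cases hc : 100 * 2 ^ (m + ϱ) ≤ max |φ r| |rf φ l|
  · exact Or.inl ⟨a, l, b, hc⟩
  refine Or.inr ⟨a, b.1, ?_, ?_⟩
  · have := weg_min (t := (2 ^ m)⁻¹) hK (by positivity) b.2.2.2.2.2
      (by rwa [← div_eq_inv_mul, le_div_iff₀ h2])
    rwa [← div_eq_inv_mul, le_div_iff₀ h2, mul_comm] at this
  · have e : K ^ (-(1 / 2) : ℝ) * K = K ^ (1 / 2 : ℝ) := by
      rw [← Real.rpow_add_one hK0.ne']; norm_num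
    have hp : 0 < K ^ (Q + 1) := by positivity
    calc |φ r| ≤ max |φ r| |rf φ l| := le_max_left _ _
      _ ≤ 100 * 2 ^ (m + ϱ) := (not_le.1 hc).le
      _ = 2 ^ m * (100 * 2 ^ ϱ) := by ring
      _ ≤ 2 ^ m * (K ^ (1 / 2 : ℝ) * K ^ (Q + 1)) :=
        mul_le_mul_of_nonneg_left (by nlinarith) h2.le
      _ = _ := by rw [← e]; ring

/-- Growth of the tangent solution from a decaying transversal solution. -/
theorem weg_grow {K a : ℝ} (hK : 0 < K) {V ψ : Seq} (hψ : IsSol V ψ) (h : 1 / 2 ≤ ψ (-1) ^ 2)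
    {j : ℤ} (hj : nq ψ j ≤ K ^ (-a)) : K ^ a ≤ 2 * nq (gs V 1 0) j := by
  have w := sq_Wr_le (gs V 1 0) ψ j
  rw [Wr_const (isSol_gs V 1 0) hψ j 0] at w
  have e : Wr (gs V 1 0) ψ 0 = ψ (-1) := by simp [Wr]
  rw [e] at w
  have p : 0 < K ^ a := Real.rpow_pos_of_pos hK _
  have q := mul_le_mul_of_nonneg_left hj (nq_nonneg (gs V 1 0) j)
  rw [Real.rpow_neg hK.le, ← div_eq_mul_inv, le_div_iff₀ p] at q
  nlinarith

end Vale.Agent.P108
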