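import Vale.Agent.P108.Torus
import Vale.Agent.P108.Ray
import Vale.Agent.P108.Rigid
import Vale.Agent.P108.Dyad
import Vale.Agent.P108.Cnt
import Vale.Agent.P108.WegC

/-! The Wegner type estimate. -/

namespace Vale.Agent.P108

open MeasureTheory Filter
open scoped Classical

theorem weg_scale {K : ℝ} (hK : 4 ≤ K) (Q : ℕ) : ∃ ϱ : ℕ, 1 ≤ ϱ ∧ K ^ (Q + 1) ≤ 2 ^ ϱ ∧
    (2 : ℝ) ^ ϱ ≤ 2 * K ^ (Q + 1) := by
  obtain ⟨n, h1, h2⟩ := exists_nat_pow_near (x := K ^ (Q + 1)) (y := 2)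
    (one_le_pow₀ (by linarith)) (by norm_num)
  exact ⟨n + 1, by omega, h2.le, by rw [pow_succ]; linarith⟩

theorem weg_slice : ∃ (c : ℝ) (Cq : ℕ), 0 < c ∧ c ≤ 1 ∧ 1 ≤ Cq ∧ ∀ᶠ k in atTop, ∀ θ : ℝ, 0 ≤ θ →
    θ ≤ 1 / 100000 → ∀ d : ℕ, 100000 ≤ d → ∀ u : ℝ,
    volume {v | v ∈ Set.Ico (0 : ℝ) 1 ∧ Vs k (XR k (u, v)) ∈ {V : Seq | ∃ ψ, IsSol V ψ ∧
      nq ψ 0 = 1 ∧ 1 / 2 ≤ ψ (-1) ^ 2 ∧ nq ψ (-d) ≤ KK k ^ (-(2 * (1 - θ) * d)) ∧
      nq ψ d ≤ KK k ^ (-(2 * (1 - θ) * d))}} ≤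
      ENNReal.ofReal ((1 - c / 2) ^ (d / (10 * Cq)) * 2 ^ ⌊200 * θ * d⌋₊) := by
  obtain ⟨c, Q, hc, hc1, hhole⟩ := weg_hole
  obtain ⟨K1, hpair⟩ := pair_count
  obtain ⟨K2, hhit⟩ := hit_count
  obtain ⟨K3, hwin⟩ := window_count (Q + 1)
  refine ⟨c, 2 * (Q + 1) + 5, hc, hc1, by omega, ?_⟩
  filter_upwards [hhole, eventually_ge_atTop 0, tendsto_KK.eventually_ge_atTop K1,
    tendsto_KK.eventually_ge_atTop K2, tendsto_KK.eventually_ge_atTop K3,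
    ev_rpow 200 (show (0 : ℝ) < 1 / 2 by norm_num), ev_rpow 2 (show (0 : ℝ) < 2 / 5 by norm_num),
    ev_rpow 801 (show (0 : ℝ) < 1 / 10 by norm_num)] with k hhole hk k1 k2 k3 p1 p2 p3
  intro θ hθ hθ' d hd u
  have hK4 := four_le_KK hk
  have hK1 : 1 ≤ KK k := by linarith
  have hK0 : 0 < KK k := by linarith
  obtain ⟨ϱ, hϱ, hϱ1, hϱ2⟩ := weg_scale hK4 Q
  obtain ⟨Mx, hMx⟩ := pow_unbounded_of_one_lt (KK k ^ d) (show (1 : ℝ) < 2 by norm_num)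
  set E : Set ℝ := {v | ∃ ψ, IsSol (wegV k u v) ψ ∧ nq ψ 0 = 1 ∧ 1 / 2 ≤ ψ (-1) ^ 2 ∧
    nq ψ (-d) ≤ KK k ^ (-(2 * (1 - θ) * d)) ∧ nq ψ d ≤ KK k ^ (-(2 * (1 - θ) * d))} with hE
  have hex : ∀ v : ℝ, ∃ ψ : Seq, v ∈ E → IsSol (wegV k u v) ψ ∧ nq ψ 0 = 1 ∧
      1 / 2 ≤ ψ (-1) ^ 2 ∧ nq ψ (-d) ≤ KK k ^ (-(2 * (1 - θ) * d)) ∧
      nq ψ d ≤ KK k ^ (-(2 * (1 - θ) * d)) := fun v => by
    by_cases h : v ∈ E
    · obtain ⟨ψ, hψ⟩ := h
      exact ⟨ψ, fun _ => hψ⟩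
    · exact ⟨0, fun h' => absurd h' h⟩
  choose ψ hψ using hex
  have hB : ∀ a, Bdd (KK k) (wegV k u a) := fun a => bdd_Vs hk _
  have hS : ∀ a, IsSol (wegV k u a) (wegP k u a) := fun a => isSol_gs _ _ _
  have hN : ∀ a, nq (wegP k u a) 0 = 1 := fun a => by simp [nq, wegP]
  have main := dyad hc hc1 hϱ (show 1 ≤ 2 * (Q + 1) + 5 by omega) (Mx := Mx) (E := E)
    (g := fun a m => wegG (KK k) d (wegP k u a) m)
    (b := fun a m => wegB (KK k) d (wegP k u a) (ψ a) m +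
      wegB (KK k) d (rf (wegP k u a)) (rf (ψ a)) m)
    (fun a _ m hm => weg_G_zero hK1 (hB a) (hS a) (hN a)
      (hMx.trans_le (pow_le_pow_right₀ (by norm_num) hm.le)))
    (fun a _ m => Nat.add_le_add (weg_B_anti hK0.le _ _ _ (Nat.le_succ m))
      (weg_B_anti hK0.le _ _ _ (Nat.le_succ m))) (fun m i => ?_)
    (d / (10 * (2 * (Q + 1) + 5))) ⌊200 * θ * d⌋₊
  · refine le_trans (measure_mono ?_) main
    rintro v ⟨hv, hvE⟩
    refine ⟨hvE, hv, ?_, ?_⟩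
    · obtain ⟨s1, -, s3, s4, s5⟩ := hψ v hvE
      have := hpair _ k1 θ d _ _ hθ hθ' hd (hB v) (hS v) (hN v) (weg_grow hK0 s1 s3 s5)
        (weg_grow hK0 s1 s3 s4)
      have e := Nat.div_mul_le_self d (10 * (2 * (Q + 1) + 5))
      simp only [wegG, pow_zero, mul_one]
      nlinarith
    · obtain ⟨s1, s2, -, s4, s5⟩ := hψ v hvE
      have a1 := hhit _ k2 θ d _ _ (hB v) s1 s2 s5
      have a2 := hhit _ k2 θ d _ _ (hB v).rf s1.rf (by rwa [nq_rf, neg_zero]) (by rwa [nq_rf])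
      have b1 : (wegB (KK k) d (wegP k u v) (ψ v) 0 : ℝ) ≤ _ := Nat.cast_le.2 (weg_B_le _ _ _ _ _)
      have b2 : (wegB (KK k) d (rf (wegP k u v)) (rf (ψ v)) 0 : ℝ) ≤ _ :=
        Nat.cast_le.2 (weg_B_le _ _ _ _ _)
      refine Nat.le_floor ?_
      push_cast
      linarith
  by_cases hcase : ∃ a0 ∈ E, (i : ℝ) / 2 ^ m ≤ a0 ∧ a0 < (i + 1) / 2 ^ m ∧ ∃ l r : ℕ,
      Pair (KK k) d (wegP k u a0) l r ∧
      100 * 2 ^ m ≤ max |wegP k u a0 r| |rf (wegP k u a0) l| ∧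
      max |wegP k u a0 r| |rf (wegP k u a0) l| ≤ 200 * 2 ^ m
  swap
  · exact Or.inl fun a ha h1 h2 => weg_G_step fun h => hcase ⟨a, ha, h1, h2, h⟩
  obtain ⟨a0, -, i1, i2, l, r, hP, j1, j2⟩ := hcase
  have h2 : (0 : ℝ) < 2 ^ m := by positivity
  have sc : ∀ a : ℝ, (i : ℝ) / 2 ^ m ≤ a → a < (i + 1) / 2 ^ m →
      0 ≤ a * 2 ^ m - i ∧ a * 2 ^ m - i ≤ 1 := fun a h h' => by
    rw [div_le_iff₀ h2] at h
    rw [lt_div_iff₀ h2] at h'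
    constructor <;> linarith
  have j1' : 100 ≤ (2 ^ m)⁻¹ * max |wegP k u a0 r| |rf (wegP k u a0) l| := by
    rwa [← div_eq_inv_mul, le_div_iff₀ h2]
  obtain ⟨hsz, hcard⟩ := hhole (2 ^ ϱ) (by
      push_cast
      exact (pow_le_pow_right₀ hK1 (Nat.le_succ Q)).trans hϱ1) u a0 (2 ^ m)⁻¹ (a0 * 2 ^ m - i) d l r
    (by positivity) (sc a0 i1 i2).1 (sc a0 i1 i2).2 hP j1'
    (by rwa [← div_eq_inv_mul, div_le_iff₀ h2]) E ψ fun a ha => ⟨(hψ a ha).1, fun h => by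
      have := (hψ a ha).2.2.1
      rw [h] at this
      norm_num at this⟩
  refine Or.inr ⟨_, Finset.filter_subset _ _, le_trans (le_of_eq (by push_cast; rfl)) hcard,
    fun a ha h1 h1' => ⟨weg_G_win hK1 hϱ2 p1 (hwin _ k3 d _), fun n hn n1 n2 => ?_⟩⟩
  have ea : a0 + (a * 2 ^ m - i - (a0 * 2 ^ m - i)) * (2 ^ m)⁻¹ = a := by field_simp; ring
  have hH := (Finset.mem_filter.1 hn).2 _ (sc a h1 h1').1 (sc a h1 h1').2 (by rwa [ea])
    (by exact_mod_cast n1) (by exact_mod_cast n2)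
  have hz := hsz _ (sc a h1 h1').1 (sc a h1 h1').2
  rw [ea] at hH hz
  have lo : ∀ p q : ℝ, KK k ^ (-(1 / 2) : ℝ) ≤ (2 ^ m)⁻¹ * p → p / 2 ≤ q →
      KK k ^ (-(9 / 10) : ℝ) * 2 ^ m ≤ q := fun p q hp hq => by
    rw [← div_eq_inv_mul, le_div_iff₀ h2,
      show (-(1 / 2) : ℝ) = -(9 / 10) + 2 / 5 by norm_num, Real.rpow_add hK0] at hp
    have : 0 < KK k ^ (-(9 / 10) : ℝ) * 2 ^ m := by positivity
    nlinarith
  have hi : ∀ p q : ℝ, p ≤ 200 * 2 ^ m → q ≤ 4 * p →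
      q < KK k ^ (-(9 / 10) : ℝ) * 2 ^ (m + ϱ) := fun p q hp hq => by
    have e : KK k ^ (-(9 / 10) : ℝ) * KK k = KK k ^ (1 / 10 : ℝ) := by
      rw [← Real.rpow_add_one hK0.ne']; norm_num
    have a1 : KK k ≤ 2 ^ ϱ := le_trans (le_self_pow₀ hK1 (Nat.succ_ne_zero Q)) hϱ1
    have a2 := mul_le_mul_of_nonneg_left a1 (Real.rpow_nonneg hK0.le (-(9 / 10) : ℝ))
    rw [pow_add, mul_comm ((2 : ℝ) ^ m), ← mul_assoc]
    nlinarith
  rcases hH with hH | hH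
  · have := weg_B_drop hK0.le (Nat.le_add_right m ϱ) hP.2.2.1 hH
      (lo _ _ (weg_min hK1 (by positivity) hP.2.2.2.2.2 j1') hz.1.1)
      fun j hj => hi _ _ ((le_max_left _ _).trans j2) (hz.1.2 j hj)
    have := weg_B_anti hK0.le d (rf (wegP k u a)) (rf (ψ a)) (Nat.le_add_right m ϱ)
    omega
  · have := weg_B_drop hK0.le (Nat.le_add_right m ϱ) hP.2.2.2.1 hH
      (lo _ _ (weg_min hK1 (by positivity) hP.2.2.2.2.1 (by rwa [max_comm])) hz.2.1)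
      fun j hj => hi _ _ ((le_max_right _ _).trans j2) (hz.2.2 j hj)
    have := weg_B_anti hK0.le d (wegP k u a) (ψ a) (Nat.le_add_right m ϱ)
    omega

theorem weg_num {c : ℝ} (hc : 0 < c) (hc1 : c ≤ 1) {Cq : ℕ} (hC : 1 ≤ Cq) {θ : ℝ} (hθ : 0 ≤ θ)
    (hθ' : θ ≤ c / (8000 * Cq)) (d : ℕ) :
    (1 - c / 2) ^ (d / (10 * Cq)) * 2 ^ ⌊200 * θ * d⌋₊ ≤
      Real.exp 1 * Real.exp (-(c / (40 * Cq) * d)) := by
  have hC' : (1 : ℝ) ≤ Cq := by exact_mod_cast hC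
  have a1 : (1 - c / 2) ^ (d / (10 * Cq)) ≤ Real.exp (-(c / 2)) ^ (d / (10 * Cq)) :=
    pow_le_pow_left₀ (by linarith) (by linarith [Real.add_one_le_exp (-(c / 2))]) _
  have a2 : (2 : ℝ) ^ ⌊200 * θ * d⌋₊ ≤ Real.exp 1 ^ ⌊200 * θ * d⌋₊ :=
    pow_le_pow_left₀ (by norm_num) (by linarith [Real.add_one_le_exp (1 : ℝ)]) _
  refine (mul_le_mul a1 a2 (by positivity) (by positivity)).trans ?_
  rw [← Real.exp_nat_mul, ← Real.exp_nat_mul, ← Real.exp_add, ← Real.exp_add, Real.exp_le_exp]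
  have b1 : (⌊200 * θ * d⌋₊ : ℝ) ≤ 200 * θ * d := Nat.floor_le (by positivity)
  have b2 : (d : ℝ) < 10 * Cq * ((d / (10 * Cq) : ℕ) + 1) := by
    exact_mod_cast Nat.lt_mul_div_succ d (show 0 < 10 * Cq by omega)
  have b3 : c / (20 * Cq) * d ≤ c / 2 * ((d / (10 * Cq) : ℕ) + 1) := by
    rw [show c / (20 * Cq) * d = c / 2 * (d / (10 * Cq)) by field_simp; ring]
    exact mul_le_mul_of_nonneg_left (by rw [div_le_iff₀ (by positivity)]; linarith) (by positivity)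
  have b4 : 200 * θ * d ≤ c / (40 * Cq) * d := by
    refine mul_le_mul_of_nonneg_right ?_ (by positivity)
    rw [show c / (40 * Cq) = 200 * (c / (8000 * Cq)) by field_simp; ring]
    linarith
  have b5 : c / (20 * Cq) * d = 2 * (c / (40 * Cq) * d) := by field_simp; ring
  linarith

theorem weg : ∃ θ c C : ℝ, 0 < θ ∧ 0 < c ∧ 0 ≤ C ∧ ∀ᶠ k in atTop, ∀ d : ℕ,
    (nu k).real {V | Wd (KK k) θ d V} ≤ C * Real.exp (-(c * d)) := by
  obtain ⟨c, Cq, hc, hc1, hC, h⟩ := weg_slice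
  have hC' : (1 : ℝ) ≤ Cq := by exact_mod_cast hC
  have hθ : 0 < min (1 / 100000) (c / (8000 * Cq)) := lt_min (by norm_num) (by positivity)
  refine ⟨_, c / (40 * Cq), 2 * Real.exp 1 + Real.exp (c / (40 * Cq) * 100000), hθ, by positivity,
    by positivity, ?_⟩
  filter_upwards [h] with k h d
  have pe := Real.exp_pos (-(c / (40 * Cq) * d))
  by_cases hd : d < 100000
  · refine measureReal_le_one.trans ?_
    have hd' : (d : ℝ) ≤ 100000 := by exact_mod_cast hd.le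
    have : 1 ≤ Real.exp (c / (40 * Cq) * 100000) * Real.exp (-(c / (40 * Cq) * d)) := by
      rw [← Real.exp_add]
      refine Real.one_le_exp ?_
      have := mul_le_mul_of_nonneg_left hd' (show 0 ≤ c / (40 * Cq) by positivity)
      linarith
    have := Real.exp_pos 1
    nlinarith
  have hA := measurableSet_Wd' (KK k ^ (-(2 * (1 - min (1 / 100000) (c / (8000 * Cq))) * d))) d
  have b1 := nu_le_of_slice k hA (h _ hθ.le (min_le_left _ _) d (not_lt.1 hd))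
  have b2 := ENNReal.toReal_le_of_le_ofReal (by positivity)
    (b1.trans (ENNReal.ofReal_le_ofReal (weg_num hc hc1 hC hθ.le (min_le_right _ _) d)))
  have b3 := (mp_rf k).measureReal_preimage hA.nullMeasurableSet
  refine le_trans (measureReal_mono (fun V hV => ?_) (measure_ne_top _ _))
    ((measureReal_union_le _ _).trans ((add_le_add b2 (b3.le.trans b2)).trans ?_))
  · obtain ⟨ψ, s1, s2, s3, s4⟩ := hV
    by_cases hψ : 1 / 2 ≤ ψ (-1) ^ 2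
    · exact Or.inl ⟨ψ, s1, s2, hψ, s3, s4⟩
    · refine Or.inr ⟨rf ψ, s1.rf, by rwa [nq_rf, neg_zero], ?_, by rwa [nq_rf, neg_neg],
        by rwa [nq_rf]⟩
      simp only [nq, zero_sub] at s2
      simp only [rf, sub_neg_eq_add, neg_add_cancel]
      linarith
  · have := Real.exp_pos (c / (40 * Cq) * 100000)
    nlinarith

end Vale.Agent.P108
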