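import Vale.Agent.P108.Det
import Vale.Agent.P108.Indep
import Vale.Agent.P108.Weg

/-! The bootstrap in the length of the intervals. -/

namespace Vale.Agent.P108

open MeasureTheory Filter
open scoped Classical

theorem boot_ind_nonneg (p : Prop) : 0 ≤ ind p := by
  unfold ind
  split_ifs
  exacts [zero_le_one, le_rfl]

theorem boot_ind_le (p : Prop) : ind p ≤ 1 := by
  unfold ind
  split_ifs
  exacts [le_rfl, zero_le_one]

theorem boot_ind_eq (p : Seq → Prop) :
    (fun V => ind (p V)) = Set.indicator {V | p V} (1 : Seq → ℝ) := by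
  funext V
  unfold ind
  by_cases h : p V
  · rw [if_pos h, Set.indicator_of_mem (show V ∈ {V | p V} from h), Pi.one_apply]
  · rw [if_neg h, Set.indicator_of_notMem (show V ∉ {V | p V} from h)]

theorem boot_int_ind (k : ℝ) {p : Seq → Prop} (hp : MeasurableSet {V | p V}) :
    Integrable (fun V => ind (p V)) (nu k) := by
  rw [boot_ind_eq]
  exact (integrable_const (1 : ℝ)).indicator hp

theorem boot_integral_ind (k : ℝ) {p : Seq → Prop} (hp : MeasurableSet {V | p V}) :
    ∫ V, ind (p V) ∂nu k = (nu k).real {V | p V} := by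
  rw [boot_ind_eq, integral_indicator_one hp]

theorem boot_integral_sh (k : ℝ) {c : Seq → ℝ} (hc : Integrable c (nu k)) (j : ℤ) :
    ∫ V, c (sh j V) ∂nu k = ∫ V, c V ∂nu k := by
  have h := integral_map (μ := nu k) (measurable_sh j).aemeasurable (f := c)
    (by rw [(mp_sh k j).map_eq]; exact hc.aestronglyMeasurable)
  rw [(mp_sh k j).map_eq] at h
  exact h.symm

/-- Greedy covering from the right. -/
theorem boot_greedy {θ : ℝ} (hθ : 0 ≤ θ) {a : ℕ → ℝ} (ha : ∀ l, 0 ≤ a l) {b : ℕ → Prop}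
    (hb : ∀ j, b j → ∃ m i : ℕ, 1 ≤ i ∧ j = m + i ∧ θ * i ≤ ∑ l ∈ Finset.range i, a (m + l))
    (n : ℕ) : θ * ∑ j ∈ Finset.range (n + 1), ind (b j) ≤ ∑ l ∈ Finset.range n, a l := by
  induction n using Nat.strong_induction_on with
  | _ n ih =>
    by_cases h : b n
    · obtain ⟨m, i, h1, rfl, h2⟩ := hb n h
      have h3 := ih m (by omega)
      have h4 : ∑ l ∈ Finset.range i, ind (b (m + 1 + l)) ≤ i := by
        have h5 := Finset.sum_le_card_nsmul (Finset.range i) (fun l => ind (b (m + 1 + l))) 1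
          fun l _ => boot_ind_le _
        rwa [Finset.card_range, nsmul_eq_mul, mul_one] at h5
      have h5 := mul_le_mul_of_nonneg_left h4 hθ
      rw [Nat.add_right_comm, Finset.sum_range_add _ (m + 1) i, Finset.sum_range_add a m i,
        mul_add]
      linarith only [h2, h3, h5]
    · rw [Finset.sum_range_succ, ind, if_neg h, add_zero]
      rcases n with _ | n
      · simp
      · rw [Finset.sum_range_succ a]
        linarith only [ih n (Nat.lt_succ_self n), ha n]

/-- The loss on intervals of length at most R is paid by a cost of mean at most x. -/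
def boot_Bd (k : ℝ) (R : ℕ) (x : ℝ) : Prop :=
  ∃ c : Seq → ℝ, Integrable c (nu k) ∧ (∀ V, 0 ≤ c V) ∧ ∫ V, c V ∂nu k ≤ x ∧
    ∀ V, Bdd (KK k) V → ∀ (n : ℕ) (s : ℤ), 1 ≤ n → n ≤ R →
      Ls (KK k) V s (s + n) ≤ ∑ i ∈ Finset.range n, c (sh (s + i) V)

theorem boot_mono {k x x' : ℝ} {R R' : ℕ} (h : boot_Bd k R x) (hR : R' ≤ R) (hx : x ≤ x') :
    boot_Bd k R' x' := by
  obtain ⟨c, h1, h2, h3, h4⟩ := h
  exact ⟨c, h1, h2, h3.trans hx, fun V hV n s hn hn' => h4 V hV n s hn (hn'.trans hR)⟩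

theorem boot_LB {k x θ : ℝ} (hk : 0 ≤ k) (hθ : 0 ≤ θ) {R : ℕ} (h : boot_Bd k R x) :
    θ * (nu k).real {V | LB (KK k) θ R V} ≤ x := by
  obtain ⟨c, h1, h2, h3, h4⟩ := h
  have hm : ∀ j : ℤ, MeasurableSet {V | LB (KK k) θ R (sh j V)} := fun j =>
    measurable_sh j (measurableSet_LB (KK k) θ R)
  have hi : ∀ j : ℤ, Integrable (fun V => c (sh j V)) (nu k) := fun j =>
    (mp_sh k j).integrable_comp_of_integrable h1
  have key : ∀ N : ℕ, (N + 1 : ℝ) * (θ * (nu k).real {V | LB (KK k) θ R V}) ≤ (R + N) * x := by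
    intro N
    have h5 : ∀ᵐ V ∂nu k, θ * ∑ j ∈ Finset.range (N + 1), ind (LB (KK k) θ R (sh (R + j : ℕ) V)) ≤
        ∑ l ∈ Finset.range (R + N), c (sh (l : ℕ) V) := by
      filter_upwards [ae_bdd hk] with V hV
      have h6 := boot_greedy hθ (a := fun l : ℕ => c (sh l V)) (fun l => h2 _)
        (b := fun j => R ≤ j ∧ LB (KK k) θ R (sh j V)) (fun j hj => by
          obtain ⟨hj, i, i1, i2, i3⟩ := hj
          obtain ⟨m, rfl⟩ := Nat.exists_eq_add_of_le' (i2.trans hj)
          refine ⟨m, i, i1, rfl, i3.trans ?_⟩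
          have h7 := h4 V hV i m i1 i2
          rw [Ls_sh]
          push_cast
          rw [zero_add, show -(i : ℤ) + (m + i) = m by ring]
          exact h7) (R + N)
      refine le_trans (mul_le_mul_of_nonneg_left ?_ hθ) h6
      rw [add_assoc, Finset.sum_range_add _ R (N + 1)]
      refine le_add_of_nonneg_of_le (Finset.sum_nonneg fun j _ => boot_ind_nonneg _)
        (le_of_eq (Finset.sum_congr rfl fun j _ => ?_))
      simp only [Nat.le_add_right, true_and]
    have h6 := integral_mono_ae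
      ((integrable_finsetSum _ fun j _ => boot_int_ind k (hm _)).const_mul θ)
      (integrable_finsetSum _ fun l _ => hi _) h5
    rw [integral_const_mul, integral_finsetSum _ fun j _ => boot_int_ind k (hm _),
      integral_finsetSum _ fun l _ => hi _] at h6
    simp only [boot_integral_sh k h1, boot_integral_sh k
      (boot_int_ind k (measurableSet_LB (KK k) θ R)),
      boot_integral_ind k (measurableSet_LB (KK k) θ R), Finset.sum_const, Finset.card_range,
      nsmul_eq_mul] at h6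
    push_cast at h6
    have h7 := mul_le_mul_of_nonneg_left h3 (show (0 : ℝ) ≤ R + N by positivity)
    linarith only [h6, h7]
  have hx : 0 ≤ x := (integral_nonneg h2).trans h3
  generalize θ * (nu k).real {V | LB (KK k) θ R V} = p at key ⊢
  refine le_of_not_gt fun hp => ?_
  obtain ⟨N, hN⟩ := exists_nat_gt (R * x / (p - x))
  rw [div_lt_iff₀ (sub_pos.2 hp)] at hN
  linarith only [key N, hN, hp, hx]

theorem boot_RB {k x θ : ℝ} (hk : 0 ≤ k) (hθ : 0 ≤ θ) {R : ℕ} (h : boot_Bd k R x) :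
    θ * (nu k).real {V | RB (KK k) θ R V} ≤ x := by
  have h1 : {V | RB (KK k) θ R V} = rf ⁻¹' {V | LB (KK k) θ R V} := by
    ext V
    exact RB_iff _ _ _ _
  rw [h1, (mp_rf k).measureReal_preimage (measurableSet_LB _ _ _).nullMeasurableSet]
  exact boot_LB hk hθ h

theorem boot_succ {k x : ℝ} (hk : 0 ≤ k) {R : ℕ} (hR : 1 ≤ R) (h : boot_Bd k R x) :
    boot_Bd k (R + 1) (x + 2 / (R + 1)) := by
  obtain ⟨c, h1, h2, h3, h4⟩ := h
  have hK : 1 < KK k := by linarith only [four_le_KK hk]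
  have hp : (0 : ℝ) < R + 1 := by positivity
  refine ⟨fun V => c V + 2 / (R + 1), h1.add (integrable_const _),
    fun V => add_nonneg (h2 V) (by positivity), ?_, fun V hV n s hn hn' => ?_⟩
  · rw [integral_add h1 (integrable_const _), integral_const, probReal_univ, one_smul]
    exact add_le_add h3 le_rfl
  · rw [Finset.sum_add_distrib, Finset.sum_const, Finset.card_range, nsmul_eq_mul]
    rcases hn'.eq_or_lt with rfl | hlt
    · have h5 := Ls_ext_right hK hV s (r := s + R) (t := s + (R + 1 : ℕ)) (by push_cast; omega)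
      have h6 := h4 V hV R s hR le_rfl
      rw [Finset.sum_range_succ]
      push_cast at h5 ⊢
      rw [mul_div_cancel₀ _ hp.ne']
      linarith only [h5, h6, h2 (sh (s + R) V)]
    · exact le_add_of_le_of_nonneg (h4 V hV n s hn (Nat.le_of_lt_succ hlt)) (by positivity)

theorem boot_init {k θ : ℝ} (hk : 0 ≤ k) (hθ : 0 ≤ θ) (hθ' : θ ≤ 1 / 4) (h2 : 2 ≤ KK k ^ θ)
    (R : ℕ) : boot_Bd k R (2 * θ + R * (nu k).real {V | Crit (KK k) θ V}) := by
  have hK : 1 < KK k := by linarith only [four_le_KK hk]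
  have hi := (boot_int_ind k (measurableSet_Crit (KK k) θ)).const_mul (R : ℝ)
  have h0 : ∀ V, 0 ≤ (R : ℝ) * ind (Crit (KK k) θ V) := fun V =>
    mul_nonneg (Nat.cast_nonneg R) (boot_ind_nonneg _)
  refine ⟨fun V => 2 * θ + R * ind (Crit (KK k) θ V), (integrable_const _).add hi,
    fun V => add_nonneg (by positivity) (h0 V), ?_, fun V _ n s hn hn' => ?_⟩
  · rw [integral_add (integrable_const _) hi, integral_const, probReal_univ, one_smul,
      integral_const_mul, boot_integral_ind k (measurableSet_Crit _ _)]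
  · rw [Finset.sum_add_distrib, Finset.sum_const, Finset.card_range, nsmul_eq_mul]
    by_cases hc : ∃ i ∈ Finset.range n, Crit (KK k) θ (sh (s + i) V)
    · obtain ⟨i, hi, hc⟩ := hc
      have h3 := Finset.single_le_sum
        (f := fun i : ℕ => (R : ℝ) * ind (Crit (KK k) θ (sh (s + i) V))) (fun i _ => h0 _) hi
      have h4 := Ls_le hK V s (s + n)
      have h5 : (n : ℝ) ≤ R := Nat.cast_le.2 hn'
      have h6 : (0 : ℝ) ≤ n * (2 * θ) := by positivity
      rw [ind, if_pos hc, mul_one] at h3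
      push_cast at h4
      linarith only [h3, h4, h5, h6]
    · have h3 := noncrit hK hθ' h2 (V := V) (s := s) (t := s + n) (by omega) fun j h4 h5 => by
        obtain ⟨i, rfl⟩ : ∃ i : ℕ, j = s + i := ⟨(j - s).toNat, by omega⟩
        refine le_of_not_gt fun h6 => hc ⟨i, Finset.mem_range.2 (by omega), ?_⟩
        show |V (0 + (s + i))| < _
        rwa [zero_add]
      have h4 : 0 ≤ ∑ i ∈ Finset.range n, (R : ℝ) * ind (Crit (KK k) θ (sh (s + i) V)) :=
        Finset.sum_nonneg fun i _ => h0 _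
      push_cast at h3
      linarith only [h3, h4]

theorem boot_cost {k θs θc C1 : ℝ} (hs : 0 < θs) (hc : 0 ≤ θc) (hC1 : 0 ≤ C1) {d0 R : ℕ}
    (hdet : ∀ V, Bdd (KK k) V → ∀ (n : ℕ) (s : ℤ), 1 ≤ n → n ≤ R → Ls (KK k) V s (s + n) ≤
      ∑ i ∈ Finset.range n, cost (KK k) θs θc C1 d0 R (sh (s + i) V)) :
    boot_Bd k R (3 * θc + 2 * θs * ((nu k).real {V | LB (KK k) (1 / 10) R V} +
      (nu k).real {V | RB (KK k) (1 / 10) R V}) +
      10 / θs * (nu k).real {V | LB (KK k) θs R V ∧ RB (KK k) θs R V} +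
      C1 * (nu k).real {V | Crit (KK k) θc V} +
      ∑ d ∈ Finset.Icc d0 R, 4 * (d : ℝ) * (nu k).real {V | Wd (KK k) (5 * θs) d V}) := by
  have m3 : MeasurableSet {V | LB (KK k) θs R V ∧ RB (KK k) θs R V} :=
    (measurableSet_LB _ _ _).inter (measurableSet_RB _ _ _)
  have i1 := boot_int_ind k (measurableSet_LB (KK k) (1 / 10) R)
  have i2 := boot_int_ind k (measurableSet_RB (KK k) (1 / 10) R)
  have i3 := (boot_int_ind k m3).const_mul (10 / θs)
  have i4 := (boot_int_ind k (measurableSet_Crit (KK k) θc)).const_mul C1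
  have i5 : ∀ d ∈ Finset.Icc d0 R, Integrable
      (fun V => 4 * (d : ℝ) * ind (Wd (KK k) (5 * θs) d V)) (nu k) := fun d _ =>
    (boot_int_ind k (measurableSet_Wd _ _ d)).const_mul _
  have j1 : Integrable (fun V => 2 * θs * (ind (LB (KK k) (1 / 10) R V) +
      ind (RB (KK k) (1 / 10) R V))) (nu k) := (i1.add i2).const_mul _
  have j2 : Integrable (fun V => 3 * θc + 2 * θs * (ind (LB (KK k) (1 / 10) R V) +
      ind (RB (KK k) (1 / 10) R V))) (nu k) := (integrable_const _).add j1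
  have j3 : Integrable (fun V => 3 * θc + 2 * θs * (ind (LB (KK k) (1 / 10) R V) +
      ind (RB (KK k) (1 / 10) R V)) +
      10 / θs * ind (LB (KK k) θs R V ∧ RB (KK k) θs R V)) (nu k) := j2.add i3
  have j4 : Integrable (fun V => 3 * θc + 2 * θs * (ind (LB (KK k) (1 / 10) R V) +
      ind (RB (KK k) (1 / 10) R V)) + 10 / θs * ind (LB (KK k) θs R V ∧ RB (KK k) θs R V) +
      C1 * ind (Crit (KK k) θc V)) (nu k) := j3.add i4
  refine ⟨cost (KK k) θs θc C1 d0 R, j4.add (integrable_finsetSum _ i5), fun V => ?_,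
    le_of_eq ?_, hdet⟩
  · have h0 := boot_ind_nonneg
    exact add_nonneg (add_nonneg (add_nonneg (add_nonneg (by positivity)
      (mul_nonneg (by positivity) (add_nonneg (h0 _) (h0 _)))) (mul_nonneg (by positivity) (h0 _)))
      (mul_nonneg hC1 (h0 _))) (Finset.sum_nonneg fun d _ => mul_nonneg (by positivity) (h0 _))
  · unfold cost
    rw [integral_add j4 (integrable_finsetSum _ i5), integral_add j3 i4, integral_add j2 i3,
      integral_add (integrable_const _) j1, integral_const, probReal_univ, one_smul,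
      integral_finsetSum _ i5]
    simp only [integral_const_mul, integral_add i1 i2, boot_integral_ind k m3,
      boot_integral_ind k (measurableSet_LB _ _ _), boot_integral_ind k (measurableSet_RB _ _ _),
      boot_integral_ind k (measurableSet_Crit _ _), boot_integral_ind k (measurableSet_Wd _ _ _)]

theorem boot_tail {c C ε : ℝ} (hc : 0 < c) (hε : 0 < ε) : ∃ d0 : ℕ, 1 ≤ d0 ∧ ∀ R : ℕ,
    ∑ d ∈ Finset.Icc d0 R, 4 * (d : ℝ) * (C * Real.exp (-(c * d))) ≤ ε := by
  have h1 : Summable fun d : ℕ => 4 * (d : ℝ) * (C * Real.exp (-(c * d))) := by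
    refine ((Real.summable_pow_mul_exp_neg_nat_mul 1 hc).mul_left (4 * C)).congr fun d => ?_
    rw [pow_one, neg_mul]
    ring
  obtain ⟨s, hs⟩ := summable_iff_vanishing_norm.1 h1 ε hε
  refine ⟨s.sup id + 1, Nat.le_add_left _ _, fun R => (le_abs_self _).trans (hs _ ?_).le⟩
  refine Finset.disjoint_left.2 fun d hd hd' => ?_
  have h2 : d ≤ s.sup id := Finset.le_sup (f := id) hd'
  have h3 := (Finset.mem_Icc.1 hd).1
  omega

theorem boot_arith {θs C y p q r : ℝ} (hs : 0 < θs) (hC : 0 ≤ C) (hy : 0 ≤ y)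
    (hy' : y ≤ θs ^ 3 / (1600 * (C + 1))) (hq0 : 0 ≤ q) (hq : θs / 4 * q ≤ y)
    (hp : p ≤ C * q ^ 2 + r) (hr : 100 * r ≤ θs * y) : 10 / θs * p ≤ y / 5 := by
  rw [div_mul_eq_mul_div, div_le_iff₀ hs]
  rw [le_div_iff₀ (by positivity)] at hy'
  have h1 : (θs * q) ^ 2 ≤ (4 * y) ^ 2 :=
    pow_le_pow_left₀ (mul_nonneg hs.le hq0) (by linarith only [hq]) 2
  have h2 : θs ^ 2 * (100 * (C * q ^ 2)) ≤ θs ^ 2 * (θs * y) := by
    have h3 := mul_le_mul_of_nonneg_left h1 hC
    have h4 := mul_le_mul_of_nonneg_left hy' hy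
    nlinarith only [h3, h4, mul_nonneg hy hy]
  have h3 := le_of_mul_le_mul_left h2 (pow_pos hs 2)
  linarith only [h3, hp, hr]

theorem boot {θ ε : ℝ} (hθ : 0 < θ) (hε : 0 < ε) :
    ∀ᶠ k in atTop, ∀ R : ℕ, (nu k).real {V | LB (KK k) θ R V} ≤ ε := by
  obtain ⟨θw, c, Cw, hθw, hc, hCw, hweg⟩ := weg
  obtain ⟨θs, hs, hs1, hs2⟩ : ∃ θs : ℝ, 0 < θs ∧ θs ≤ 1 / 100 ∧ 5 * θs ≤ θw :=
    ⟨min (1 / 100) (θw / 5), by positivity, min_le_left _ _, by
      linarith only [min_le_right (1 / 100 : ℝ) (θw / 5)]⟩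
  obtain ⟨C, n0, hC, hind⟩ := indep (θ := θs / 2) (by positivity) (by linarith only [hs1])
  obtain ⟨y, hy, hy1, hy2⟩ : ∃ y : ℝ, 0 < y ∧ y ≤ θ * ε ∧ y ≤ θs ^ 3 / (1600 * (C + 1)) :=
    ⟨min (θ * ε) (θs ^ 3 / (1600 * (C + 1))), by positivity, min_le_left _ _, min_le_right _ _⟩
  obtain ⟨d0, hd0, htail⟩ := boot_tail (C := Cw) hc (show 0 < y / 10 by positivity)
  obtain ⟨θc, hc0, hc1, hc2⟩ : ∃ θc : ℝ, 0 < θc ∧ θc ≤ 1 / 4 ∧ θc ≤ y / 100 :=
    ⟨min (1 / 4) (y / 100), by positivity, min_le_left _ _, min_le_right _ _⟩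
  obtain ⟨C1, K0, hC1, hdet⟩ := det hs hs1 hc0 hc1 hd0
  obtain ⟨R0, hR0⟩ := exists_nat_ge (20 / y + 1)
  have hR1 : 20 ≤ R0 * y := by
    have h1 : 20 / y ≤ R0 := by linarith only [hR0]
    exact (div_le_iff₀ hy).1 h1
  have hR2 : 1 ≤ R0 := by
    have h1 : 0 < 20 / y := by positivity
    exact_mod_cast (show (1 : ℝ) ≤ R0 by linarith only [hR0, h1])
  filter_upwards [hweg, hind, eventually_ge_atTop 0, tendsto_KK.eventually_ge_atTop K0,
    ev_rpow 2 hc0, crit_small hc0 (show 0 < y / 10 / (C1 + R0 + 1) by positivity),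
    crit_small (show 0 < θs / 2 / 4 by positivity)
      (show 0 < θs * y / (200 * (n0 + 1)) by positivity)] with k e1 e2 hk e3 e4 e5 e6
  have hK : 1 ≤ KK k := by linarith only [four_le_KK hk]
  have e7 : 0 ≤ (nu k).real {V | Crit (KK k) θc V} := measureReal_nonneg
  rw [le_div_iff₀ (by positivity)] at e5 e6
  have h0 : boot_Bd k R0 y := by
    refine boot_mono (boot_init hk hc0.le hc1 e4 R0) le_rfl ?_
    nlinarith only [e5, e7, hc2, hy, mul_nonneg hC1 e7]
  have hstep : ∀ R, R0 ≤ R → boot_Bd k R y → boot_Bd k (R + 1) y := by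
    intro R hR h
    refine boot_mono (boot_succ hk (hR2.trans hR) (boot_cost hs hc0.le hC1
      fun V hV n s => hdet _ e3 V hV R n s)) le_rfl ?_
    have a1 := boot_LB hk (θ := 1 / 10) (by norm_num) h
    have a2 := boot_RB hk (θ := 1 / 10) (by norm_num) h
    have a3 := boot_LB hk (θ := θs / 2 / 2) (by positivity) h
    have a4 := e2 R
    rw [mul_div_cancel₀ θs two_ne_zero] at a4
    have a5 := boot_arith hs hC hy.le hy2 measureReal_nonneg (by linarith only [a3]) a4
      (by nlinarith only [e6, measureReal_nonneg (μ := nu k) (s := {V | Crit (KK k) (θs / 2 / 4) V})])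
    have a6 : ∑ d ∈ Finset.Icc d0 R, 4 * (d : ℝ) * (nu k).real {V | Wd (KK k) (5 * θs) d V} ≤
        y / 10 := by
      refine le_trans (Finset.sum_le_sum fun d _ => mul_le_mul_of_nonneg_left ?_ (by positivity))
        (htail R)
      exact (measureReal_mono fun V hV => Wd.mono hK hs2 hV).trans (e1 d)
    have a7 : C1 * (nu k).real {V | Crit (KK k) θc V} ≤ y / 10 := by
      nlinarith only [e5, e7, mul_nonneg (Nat.cast_nonneg (α := ℝ) R0) e7]
    have a8 : 2 / ((R : ℝ) + 1) ≤ y / 10 := by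
      rw [div_le_iff₀ (by positivity)]
      have a9 : (R0 : ℝ) ≤ R := Nat.cast_le.2 hR
      nlinarith only [a9, hR1, hy]
    have a9 : 2 * θs * ((nu k).real {V | LB (KK k) (1 / 10) R V} +
        (nu k).real {V | RB (KK k) (1 / 10) R V}) ≤ 2 * (1 / 100) * (20 * y) :=
      mul_le_mul (by linarith only [hs1]) (by linarith only [a1, a2])
        (add_nonneg measureReal_nonneg measureReal_nonneg) (by norm_num)
    linarith only [a5, a6, a7, a8, a9, hc2, hy]
  intro R
  have h1 : boot_Bd k R y := by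
    rcases le_total R R0 with h | h
    · exact boot_mono h0 h le_rfl
    · exact Nat.le_induction h0 hstep R h
  exact le_of_mul_le_mul_left ((boot_LB hk hθ.le h1).trans hy1) hθ

end Vale.Agent.P108
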