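import Vale.Agent.P108.Lin

/-! The deterministic lemma. -/

namespace Vale.Agent.P108

open MeasureTheory Filter
open scoped Classical

theorem det_norm (V : Seq) (s t : ℤ) : ∃ v, IsSol V v ∧ nq v t = 1 ∧ nq v s * F V s t ≤ 2 := by
  obtain ⟨φ, p, -, h1, -, h2, h3⟩ := exists_exp V s t
  have h4 : 0 < nq φ t := by linarith [two_le_F V s t]
  have h5 : ∀ j, nq (fun j => (√(nq φ t))⁻¹ * φ j) j = nq φ j / nq φ t := fun j => by
    generalize nq φ t = a at h4
    simp only [nq, mul_pow, inv_pow]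
    rw [Real.sq_sqrt h4.le]
    ring
  refine ⟨_, h1.smul (√(nq φ t))⁻¹, by rw [h5, div_self h4.ne'], ?_⟩
  rwa [h5, h2, one_div_mul_eq_div, div_le_iff₀ h4]

theorem det_three {K θ : ℝ} (hK : 2 ≤ K) {V v w : Seq} (hv : IsSol V v) (hw : IsSol V w)
    {s p q t : ℤ} (h1 : nq v s * F V s p ≤ 2) (h2 : nq w t * F V t q ≤ 2)
    (h3 : Ls K V s p ≤ θ * (p - s)) (h4 : Ls K V q t ≤ θ * (t - q)) {x : ℝ}
    (h5 : K ^ (-x) ≤ |Wr v w q|) :
    Ls K V s t ≤ θ * (p - s) + θ * (t - q) + (q - p) + x + 1 := by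
  have K1 : 1 < K := by linarith
  have K0 : 0 < K := by linarith
  rw [Ls_le_iff K1] at h3 h4 ⊢
  have a1 := sq_Wr_le v w t
  rw [Wr_const hv hw t q] at a1
  have a2 := nq_le_F hv s t
  have a3 : (K ^ (-x)) ^ 2 ≤ F V s t * nq v s * nq w t :=
    (pow_le_pow_left₀ (by positivity) h5 2).trans ((sq_abs _).le.trans
      (a1.trans (mul_le_mul_of_nonneg_right a2 (nq_nonneg _ _))))
  have a4 : K ^ (-2 : ℝ) ≤ 1 / 4 := by
    rw [Real.rpow_neg K0.le, Real.rpow_two, one_div]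
    exact inv_anti₀ (by norm_num) (by nlinarith)
  have f1 := two_le_F V s p
  have f2 := two_le_F V q t
  have f3 := two_le_F V s t
  rw [F_symm] at h2
  calc _ = K ^ (2 * ((p - s : ℝ) - θ * (p - s))) * K ^ (2 * ((t - q : ℝ) - θ * (t - q))) *
        (K ^ (-x)) ^ 2 * K ^ (-2 : ℝ) := by
        rw [sq, ← Real.rpow_add K0, ← Real.rpow_add K0, ← Real.rpow_add K0, ← Real.rpow_add K0]
        congr 1
        ring
    _ ≤ F V s p * F V q t * (F V s t * nq v s * nq w t) * (1 / 4) := by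
        have := nq_nonneg v s
        have := nq_nonneg w t
        gcongr
    _ = F V s t * ((nq v s * F V s p) * (nq w t * F V q t)) / 4 := by ring
    _ ≤ F V s t * (2 * 2) / 4 := by
        have := mul_nonneg (nq_nonneg w t) (show 0 ≤ F V q t by linarith)
        gcongr
    _ = _ := by ring

theorem det_wd {K θ : ℝ} (hK : 2 ≤ K) (hθ : 0 < θ) (hθ' : θ ≤ 1 / 100) (h11 : 11 ≤ K ^ θ)
    {V v w : Seq} (hV : Bdd K V) (hv : IsSol V v) (hw : IsSol V w) {P B M d : ℕ} (hd : 1 ≤ d)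
    (hB : 2 * (B : ℝ) ≤ θ * d) (hP : d ≤ P) (hM : d ≤ M) (hL : LG K θ P V)
    (hR : LG K θ M (rf (sh B V))) (v0 : nq v 0 = 1) (v1 : nq v (-P) * F V (-P) 0 ≤ 2)
    (w0 : nq w B = 1) (w1 : nq w (B + M) * F V (B + M) B ≤ 2)
    (ho : |Wr v w B| ≤ K ^ (-(2 * d : ℝ))) : Wd K (5 * θ) d V := by
  have K1 : 1 ≤ K := by linarith
  have K0 : 0 < K := by linarith
  have d1 : (1 : ℝ) ≤ d := by exact_mod_cast hd
  have B0 : (0 : ℝ) ≤ B := Nat.cast_nonneg B
  have θd : θ ≤ θ * d := le_mul_of_one_le_right hθ.le d1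
  have hBd : B < d := by
    have : (B : ℝ) < d := by nlinarith
    exact_mod_cast this
  obtain ⟨i, rfl⟩ : ∃ i, d = B + i := ⟨d - B, by omega⟩
  refine ⟨v, hv, v0, ?_, ?_⟩
  · refine (decay (B := 1) hK hθ.le (by linarith) hV hL hv (by rw [v0]; norm_num)
      (by simpa using v1) hd hP).trans ?_
    calc _ ≤ K ^ θ * K ^ θ * K ^ (2 * θ - 2 * (1 - 2 * θ) * (B + i : ℕ)) :=
          mul_le_mul_of_nonneg_right (by nlinarith) (by positivity)
      _ ≤ _ := by
          rw [← Real.rpow_add K0, ← Real.rpow_add K0]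
          exact Real.rpow_le_rpow_of_exponent_le K1 (by linarith)
  · have a1 := decomp hv hw w0 (B + i : ℕ)
    have a2 : √(nq v B) ≤ K ^ (B : ℝ) := by
      have := (nq_add_le hV hv 0 B).1
      rw [zero_add, v0, mul_one] at this
      rw [Real.sqrt_le_left (by positivity), Real.rpow_natCast, ← pow_mul, mul_comm]
      exact this
    have a3 : √(nq w (B + i : ℕ)) ≤ 10 * K ^ (θ - (1 - 2 * θ) * i) := by
      have := decay (B := 1) hK hθ.le (by linarith) (hV.sh B).rf hR (hw.sh B).rf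
        (by simp [nq_rf, nq_sh, w0]) (by
          simpa [nq_rf, nq_sh, F_rf, F_sh, add_comm] using w1) (i := i) (by omega) (by omega)
      rw [nq_rf, nq_sh, neg_neg, add_comm] at this
      rw [Real.sqrt_le_left (by positivity), Nat.cast_add]
      refine this.trans (le_of_eq ?_)
      rw [mul_pow, sq (K ^ _), ← Real.rpow_add K0]
      congr 1
      · norm_num
      · congr 1
        ring
    have a4 : √(F V B (B + i : ℕ)) ≤ K ^ (i : ℝ) := by
      rw [Real.sqrt_le_left (by positivity), Real.rpow_natCast, ← pow_mul, mul_comm, Nat.cast_add]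
      exact F_le_pow hV B (by omega)
    have a5 : √(nq v (B + i : ℕ)) ≤ K ^ (-((1 - 5 * θ) * (B + i : ℕ))) :=
      calc _ ≤ K ^ (B : ℝ) * (10 * K ^ (θ - (1 - 2 * θ) * i)) +
            K ^ (-(2 * (B + i : ℕ) : ℝ)) * K ^ (i : ℝ) := a1.trans (by gcongr)
        _ = 10 * K ^ (B + (θ - (1 - 2 * θ) * i)) + K ^ (-(2 * (B + i : ℕ) : ℝ) + i) := by
            rw [Real.rpow_add K0, Real.rpow_add K0]
            ring
        _ ≤ 10 * K ^ (-((1 - 4 * θ) * (B + i : ℕ))) + K ^ (-((1 - 4 * θ) * (B + i : ℕ))) := by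
            have := mul_nonneg hθ.le B0
            push_cast at hB θd ⊢
            gcongr <;> nlinarith
        _ ≤ K ^ θ * K ^ (-((1 - 4 * θ) * (B + i : ℕ))) := by
            have : 0 ≤ K ^ (-((1 - 4 * θ) * (B + i : ℕ))) := by positivity
            nlinarith
        _ ≤ _ := by
            rw [← Real.rpow_add K0]
            exact Real.rpow_le_rpow_of_exponent_le K1 (by linarith)
    rw [Real.sqrt_le_left (by positivity), sq, ← Real.rpow_add K0] at a5
    refine a5.trans (le_of_eq ?_)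
    congr 1
    ring

theorem det_core {K θ : ℝ} (hK : 2 ≤ K) (hθ : 0 < θ) (hθ' : θ ≤ 1 / 100) (h11 : 11 ≤ K ^ θ)
    {V : Seq} (hV : Bdd K V) {P B M : ℕ} (hL : LG K θ P V) (hR : LG K θ M (rf (sh B V))) :
    ∃ d : ℕ, Ls K V (-P) (B + M) ≤ θ * (P + B + M) + B + 4 * d + 4 ∧
      (1 ≤ d → 2 * (B : ℝ) ≤ θ * d → Wd K (5 * θ) d V ∧ d ≤ M) := by
  have K1 : 1 < K := by linarith
  obtain ⟨v, hv, v0, v1⟩ := det_norm V (-P) 0
  obtain ⟨w, hw, w0, w1⟩ := det_norm V (B + M) B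
  have l1 : Ls K V (-P) 0 ≤ θ * P := by
    rcases P.eq_zero_or_pos with rfl | h
    · simpa using Ls_le K1 V 0 0
    · exact hL P h le_rfl
  have l2 : Ls K V B (B + M) ≤ θ * M := by
    rcases M.eq_zero_or_pos with rfl | h
    · simpa using Ls_le K1 V B B
    · simpa [Ls_rf, Ls_sh, add_comm] using hR M h le_rfl
  let Q : ℕ → Prop := fun d => 2 * d ≤ P + B ∧ 2 * d ≤ B + M ∧ |Wr v w B| ≤ K ^ (-(2 * d : ℝ))
  have q1 : ¬ Q (Nat.findGreatest Q (P + B) + 1) := fun h =>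
    Nat.findGreatest_is_greatest (Nat.lt_succ_self _) (by have := h.1; omega) h
  have q2 : 1 ≤ Nat.findGreatest Q (P + B) → Q (Nat.findGreatest Q (P + B)) := fun h =>
    Nat.findGreatest_of_ne_zero rfl (by omega)
  generalize Nat.findGreatest Q (P + B) = d at q1 q2
  have P0 := mul_nonneg hθ.le (Nat.cast_nonneg P : (0 : ℝ) ≤ P)
  have B0 := mul_nonneg hθ.le (Nat.cast_nonneg B : (0 : ℝ) ≤ B)
  have M0 := mul_nonneg hθ.le (Nat.cast_nonneg M : (0 : ℝ) ≤ M)
  have B1 : (0 : ℝ) ≤ B := Nat.cast_nonneg B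
  have d1 : (0 : ℝ) ≤ d := Nat.cast_nonneg d
  refine ⟨d, ?_, fun hd hB => ?_⟩
  · simp only [Q, not_and_or, not_le] at q1
    rcases q1 with h | h | h
    · have h1 := Ls_ext_left K1 hV (s := -P) (r := B) (by omega) (B + M)
      have h2 : (P : ℝ) + B ≤ 2 * (d + 1) := by exact_mod_cast h.le
      push_cast at h1
      linarith
    · have h1 := Ls_ext_right K1 hV (-P) (r := 0) (t := B + M) (by omega)
      have h2 : (B : ℝ) + M ≤ 2 * (d + 1) := by exact_mod_cast h.le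
      push_cast at h1
      linarith
    · have h1 := det_three (θ := θ) hK hv hw v1 w1 (by simpa using l1) (by simpa using l2) h.le
      push_cast at h1
      linarith
  · obtain ⟨h1, h2, h3⟩ := q2 hd
    have hBd : B ≤ d := by
      have : (B : ℝ) ≤ d := by nlinarith
      exact_mod_cast this
    exact ⟨det_wd hK hθ hθ' h11 hV hv hw hd hB (by omega) (by omega) hL hR v0 v1 w0 w1 h3, by omega⟩

theorem det_ind (p : Prop) : 0 ≤ ind p := by
  unfold ind
  split_ifs <;> norm_num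

theorem det_ind_or (p q : Prop) : ind (p ∨ q) ≤ ind p + ind q := by
  by_cases hp : p <;> by_cases hq : q <;> simp [ind, hp, hq]

theorem det_cnt {n a b : ℕ} {p : ℕ → Prop} (hb : b ≤ n) (h : ∀ i, a ≤ i → i < b → p i) :
    (b : ℝ) - a ≤ ∑ i ∈ Finset.range n, ind (p i) := by
  rcases le_total a b with hab | hab
  · rw [← Nat.cast_sub hab, ← Nat.card_Ico, Finset.card_eq_sum_ones, Nat.cast_sum]
    refine le_trans (Finset.sum_le_sum fun i hi => ?_) (Finset.sum_le_sum_of_subset_of_nonneg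
      (fun i hi => Finset.mem_range.2 ((Finset.mem_Ico.1 hi).2.trans_le hb))
      fun i _ _ => det_ind (p i))
    rw [ind, if_pos (h i (Finset.mem_Ico.1 hi).1 (Finset.mem_Ico.1 hi).2), Nat.cast_one]
  · exact le_trans (sub_nonpos.2 (by exact_mod_cast hab)) (Finset.sum_nonneg fun i _ => det_ind _)

theorem det_pq {K θ : ℝ} (hK : 2 ≤ K) (hθ : 0 < θ) (hθ' : θ ≤ 1 / 100) (h11 : 11 ≤ K ^ θ)
    {V : Seq} (hV : Bdd K V) (s : ℤ) {R n : ℕ} (hn : n ≤ R) : ∃ B d : ℕ,
      (B : ℝ) - 1 ≤ ∑ i ∈ Finset.range n, ind (LB K θ R (sh (s + i) V) ∧ RB K θ R (sh (s + i) V)) ∧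
      Ls K V s (s + n) ≤ θ * n + B + 4 * d + 4 ∧
      (1 ≤ d → 2 * (B : ℝ) ≤ θ * d → ∃ P < n, d ≤ n ∧ Wd K (5 * θ) d (sh (s + P) V)) := by
  obtain ⟨P, p1, p2, p3⟩ : ∃ P ≤ n, LG K θ P (sh (s + P) V) ∧
      ∀ i, P < i → i ≤ n → LB K θ R (sh (s + i) V) := by
    refine ⟨_, Nat.findGreatest_le (P := fun i => ¬ LB K θ R (sh (s + i) V)) n, ?_,
      fun i i1 i2 => not_not.1 (Nat.findGreatest_is_greatest i1 i2)⟩
    by_cases h : Nat.findGreatest (fun i => ¬ LB K θ R (sh (s + i) V)) n = 0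
    · rw [h]
      exact fun i i1 i2 => by omega
    · exact LG_of_not_LB (Nat.findGreatest_of_ne_zero rfl h) ((Nat.findGreatest_le n).trans hn)
  have ex : ∃ B : ℕ, P + B = n ∨ ¬ RB K θ R (sh (s + (P + B : ℕ)) V) := ⟨n - P, Or.inl (by omega)⟩
  have q1 := Nat.find_spec ex
  have q2 : Nat.find ex ≤ n - P := Nat.find_min' ex (Or.inl (by omega))
  have q3 : ∀ b < Nat.find ex, RB K θ R (sh (s + (P + b : ℕ)) V) := fun b hb =>
    not_not.1 fun h => Nat.find_min ex hb (Or.inr h)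
  generalize Nat.find ex = B at q1 q2 q3
  obtain ⟨M, rfl⟩ : ∃ M, n = P + B + M := ⟨n - P - B, by omega⟩
  obtain ⟨d, e1, e2⟩ := det_core hK hθ hθ' h11 (hV.sh (s + P)) p2 (B := B) (M := M) (by
    rcases q1 with h | h
    · exact fun i i1 i2 => by omega
    · rw [sh_sh, show (B : ℤ) + (s + P) = s + (P + B : ℕ) by push_cast; ring]
      exact LG_of_not_LB (mt (RB_iff _ _ _ _).2 h) (by omega))
  refine ⟨B, d, le_trans (le_of_eq (by push_cast; ring)) (det_cnt (a := P + 1) (b := P + B)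
    (by omega) fun i i1 i2 => ⟨p3 i i1 (by omega), ?_⟩), ?_, fun hd hB =>
      ⟨P, by have := (e2 hd hB).2; omega, by have := (e2 hd hB).2; omega, (e2 hd hB).1⟩⟩
  · obtain ⟨b, rfl⟩ : ∃ b, i = P + b := ⟨i - P, by omega⟩
    exact q3 b (by omega)
  · rw [Ls_sh, show -(P : ℤ) + (s + P) = s by ring,
      show (B : ℤ) + M + (s + P) = s + (P + B + M : ℕ) by push_cast; ring] at e1
    push_cast at e1 ⊢
    exact e1

theorem det {θs θc : ℝ} (hs : 0 < θs) (hs' : θs ≤ 1 / 100) (hc : 0 < θc) (hc' : θc ≤ 1 / 4)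
    {d0 : ℕ} (hd : 1 ≤ d0) : ∃ C1 K0 : ℝ, 0 ≤ C1 ∧ ∀ K, K0 ≤ K → ∀ V, Bdd K V → ∀ (R n : ℕ) (s : ℤ),
      1 ≤ n → n ≤ R → Ls K V s (s + n) ≤
        ∑ i ∈ Finset.range n, cost K θs θc C1 d0 R (sh (s + i) V) := by
  obtain ⟨K1, hsp⟩ := split
  obtain ⟨K0, hK0⟩ := eventually_atTop.1 ((eventually_ge_atTop K1).and
    ((eventually_ge_atTop (2 : ℝ)).and (((tendsto_rpow_atTop hs).eventually_ge_atTop 11).and
    (((tendsto_rpow_atTop hc).eventually_ge_atTop 2).and
    (Real.tendsto_log_atTop.eventually_ge_atTop (5 / θc))))))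
  have hC : (0 : ℝ) ≤ 10 / θs + 4 * d0 + 5 := by positivity
  refine ⟨10 / θs + 4 * d0 + 5, K0, hC, fun K hK V hV R n s n1 n2 => ?_⟩
  obtain ⟨k1, k2, k3, k4, k5⟩ := hK0 K hK
  have k6 : 5 / Real.log K ≤ θc := by
    rw [div_le_iff₀ (Real.log_pos (by linarith))]
    rwa [div_le_iff₀ hc, mul_comm] at k5
  refine le_trans (le_add_of_nonneg_right hc.le) ?_
  induction n using Nat.strong_induction_on generalizing s with
  | _ n ih =>
  by_cases hA : ∃ m : ℕ, 1 ≤ m ∧ m < n ∧ ¬ LB K (1 / 10) R (sh (s + m) V) ∧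
      ¬ RB K (1 / 10) R (sh (s + m) V)
  · obtain ⟨m, m1, m2, m3, m4⟩ := hA
    obtain ⟨l, rfl⟩ : ∃ l, n = m + l := ⟨n - m, by omega⟩
    have h1 := hsp K k1 _ (hV.sh (s + m)) m l m1 (by omega) (LG_of_not_LB m3 (by omega))
      (LG_of_not_LB (mt (RB_iff _ _ _ _).2 m4) (by omega))
    have h2 := ih m (by omega) s m1 (by omega)
    have h3 := ih l (by omega) (s + m) (by omega) (by omega)
    simp only [Ls_sh, zero_add] at h1
    rw [show -(m : ℤ) + (s + m) = s by ring, add_comm (l : ℤ)] at h1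
    rw [Finset.sum_range_add]
    simp only [Nat.cast_add, ← add_assoc]
    linarith
  have a1 : (n : ℝ) - (1 : ℕ) ≤ ∑ i ∈ Finset.range n, (ind (LB K (1 / 10) R (sh (s + i) V)) +
      ind (RB K (1 / 10) R (sh (s + i) V))) :=
    (det_cnt (p := fun i => LB K (1 / 10) R (sh (s + i) V) ∨ RB K (1 / 10) R (sh (s + i) V))
      le_rfl fun i i1 i2 => by
        by_contra h'
        exact hA ⟨i, i1, i2, fun h => h' (Or.inl h), fun h => h' (Or.inr h)⟩).trans
      (Finset.sum_le_sum fun i _ => det_ind_or _ _)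
  have a2 := Finset.sum_nonneg fun i (_ : i ∈ Finset.range n) =>
    det_ind (LB K θs R (sh (s + i) V) ∧ RB K θs R (sh (s + i) V))
  have a3 := Finset.sum_nonneg fun i (_ : i ∈ Finset.range n) => det_ind (Crit K θc (sh (s + i) V))
  have a4 : ∀ i : ℕ, 0 ≤ ∑ d ∈ Finset.Icc d0 R,
      4 * (d : ℝ) * ind (Wd K (5 * θs) d (sh (s + i) V)) := fun i =>
    Finset.sum_nonneg fun d _ => mul_nonneg (by positivity) (det_ind _)
  have a5 := Finset.sum_nonneg fun i (_ : i ∈ Finset.range n) => a4 i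
  have n3 : (1 : ℝ) ≤ n := by exact_mod_cast n1
  simp only [cost, Finset.sum_add_distrib (f := fun i => _ + _ + _ + _),
    Finset.sum_add_distrib (f := fun i => _ + _ + _), Finset.sum_add_distrib (f := fun _ => 3 * θc),
    Finset.sum_add_distrib (f := fun i => 3 * θc + _), ← Finset.mul_sum, Finset.sum_const,
    Finset.card_range, nsmul_eq_mul]
  rw [Nat.cast_one] at a1
  have b1 := mul_le_mul_of_nonneg_left a1 (show 0 ≤ 2 * θs by positivity)
  have b2 := mul_nonneg (show 0 ≤ 10 / θs by positivity) a2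
  by_cases hB : ∃ i < n, Crit K θc (sh (s + i) V)
  swap
  · have h1 := noncrit (by linarith) hc' k4 (V := V) (s := s) (t := s + n) (by omega)
      fun j j1 j2 => by
        obtain ⟨i, rfl⟩ : ∃ i : ℕ, j = s + i := ⟨(j - s).toNat, by omega⟩
        by_contra h'
        exact hB ⟨i, by omega, by simpa [Crit, sh] using h'⟩
    have b3 := mul_nonneg hC a3
    push_cast at h1
    nlinarith
  obtain ⟨c, c1, c2⟩ := hB
  have b3 := mul_le_mul_of_nonneg_left (det_cnt (p := fun i => Crit K θc (sh (s + i) V))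
    (a := c) (b := c + 1) c1 fun i i1 i2 => by rwa [show i = c by omega]) hC
  rw [Nat.cast_succ, add_sub_cancel_left, mul_one] at b3
  have b4 : θc ≤ n * θc := le_mul_of_one_le_left hc.le n3
  have b5 : (1 : ℝ) ≤ 2 / θs := by
    rw [le_div_iff₀ hs]
    linarith
  have b6 : (0 : ℝ) ≤ d0 := Nat.cast_nonneg _
  rcases n1.eq_or_lt with rfl | n4
  · have h1 := Ls_le (by linarith : 1 < K) V s (s + (1 : ℕ))
    have : (0 : ℝ) ≤ 10 / θs := by positivity
    push_cast at h1 b1 ⊢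
    linarith
  have n5 : (2 : ℝ) ≤ n := by exact_mod_cast n4
  have b7 : θs * n ≤ 2 * θs * (n - 1) := by nlinarith
  obtain ⟨B, d, e1, e2, e3⟩ := det_pq k2 hs hs' k3 hV s n2
  have b8 := mul_le_mul_of_nonneg_left e1 (show 0 ≤ 10 / θs by positivity)
  have b9 : (B : ℝ) ≤ 2 / θs * B := le_mul_of_one_le_left (Nat.cast_nonneg _) b5
  by_cases hW : d0 ≤ d ∧ 2 * (B : ℝ) ≤ θs * d
  · obtain ⟨P, p1, p2, p3⟩ := e3 (hd.trans hW.1) hW.2
    have h1 : 4 * (d : ℝ) * ind (Wd K (5 * θs) d (sh (s + P) V)) ≤ _ :=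
      (Finset.single_le_sum (f := fun d : ℕ => 4 * (d : ℝ) * ind (Wd K (5 * θs) d (sh (s + P) V)))
        (fun d _ => mul_nonneg (by positivity) (det_ind _))
        (Finset.mem_Icc.2 ⟨hW.1, p2.trans n2⟩)).trans
        (Finset.single_le_sum (fun i _ => a4 i) (Finset.mem_range.2 p1))
    rw [ind, if_pos p3, mul_one] at h1
    have h2 : 2 / θs * B ≤ 10 / θs * B := by gcongr; norm_num
    linarith
  · have h1 : 4 * (d : ℝ) ≤ 4 * d0 + 8 / θs * B := by
      rcases not_and_or.1 hW with h | h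
      · have : (d : ℝ) ≤ d0 := by exact_mod_cast (not_le.1 h).le
        have : (0 : ℝ) ≤ 8 / θs * B := by positivity
        linarith
      · have : 4 * (d : ℝ) ≤ 8 / θs * B := by
          rw [div_mul_eq_mul_div, le_div_iff₀ hs]
          linarith
        linarith
    have h2 : 10 / θs * B = 2 / θs * B + 8 / θs * B := by ring
    linarith

end Vale.Agent.P108
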