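import Vale.Agent.P108.Pair

/-! Positive entropy: the partition, the entropy increment, the sliding inequality. -/

namespace Vale.Agent.P108

open MeasureTheory Filter
open scoped Classical

theorem ent_nml {p q : ℝ} (hp : 0 ≤ p) (hq : 0 ≤ q) :
    Real.negMulLog (p + q) + Real.log 2 * min p q ≤ Real.negMulLog p + Real.negMulLog q := by
  have key : ∀ p q : ℝ, 0 ≤ p → p ≤ q →
      Real.negMulLog (p + q) + Real.log 2 * p ≤ Real.negMulLog p + Real.negMulLog q := by
    intro p q hp h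
    rcases hp.eq_or_lt with rfl | hp
    · simp
    have hq : 0 < q := hp.trans_le h
    have a : Real.log 2 + Real.log p ≤ Real.log (p + q) := by
      rw [← Real.log_mul (by norm_num) hp.ne']
      exact Real.log_le_log (by positivity) (by linarith)
    have b : Real.log q ≤ Real.log (p + q) := Real.log_le_log hq (by linarith)
    simp only [Real.negMulLog]
    nlinarith [mul_le_mul_of_nonneg_left a hp.le, mul_le_mul_of_nonneg_left b hq.le]
  rcases le_total p q with h | h
  · rw [min_eq_left h]; exact key p q hp h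
  · rw [min_eq_right h, add_comm p q, add_comm (Real.negMulLog p)]; exact key q p hq h

/-- The entropy increment when a two-valued observable is added. -/
theorem ent_incr {X W : Type} [MeasurableSpace X] [Fintype W] (μ : Measure X) [IsFiniteMeasure μ]
    {A : W → Set X} (hc : ∀ x, ∃ w, x ∈ A w) {B Z : Set X}
    (hB : MeasurableSet B) {C : ℝ} (hC : 1 ≤ C)
    (h : ∀ w, μ.real (Z ∩ B ∩ A w) ≤ C * μ.real (A w ∩ Bᶜ)) :
    ∑ w, Real.negMulLog (μ.real (A w)) + Real.log 2 * (μ.real (Z ∩ B) / C) ≤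
      ∑ w, (Real.negMulLog (μ.real (A w ∩ B)) + Real.negMulLog (μ.real (A w ∩ Bᶜ))) := by
  have l2 : 0 ≤ Real.log 2 := Real.log_nonneg (by norm_num)
  have h1 : μ.real (Z ∩ B) ≤ ∑ w, μ.real (Z ∩ B ∩ A w) := by
    refine le_trans (measureReal_mono ?_) (measureReal_iUnion_fintype_le _)
    intro x hx
    obtain ⟨w, hw⟩ := hc x
    exact Set.mem_iUnion.2 ⟨w, hx, hw⟩
  have h2 : μ.real (Z ∩ B) / C ≤ ∑ w, min (μ.real (A w ∩ B)) (μ.real (A w ∩ Bᶜ)) := by
    rw [div_le_iff₀ (by linarith), Finset.sum_mul]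
    refine h1.trans (Finset.sum_le_sum fun w _ => ?_)
    rw [min_mul_of_nonneg _ _ (by linarith)]
    refine le_min ?_ (by rw [mul_comm]; exact h w)
    have : μ.real (Z ∩ B ∩ A w) ≤ μ.real (A w ∩ B) :=
      measureReal_mono fun x hx => ⟨hx.2, hx.1.2⟩
    nlinarith [measureReal_nonneg (μ := μ) (s := A w ∩ B)]
  refine le_trans (add_le_add le_rfl (mul_le_mul_of_nonneg_left h2 l2)) ?_
  rw [Finset.mul_sum, ← Finset.sum_add_distrib]
  refine Finset.sum_le_sum fun w _ => ?_
  have e : μ.real (A w) = μ.real (A w ∩ B) + μ.real (A w ∩ Bᶜ) := by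
    rw [← Set.sdiff_eq, measureReal_inter_add_sdiff hB]
  rw [e]
  exact ent_nml measureReal_nonneg measureReal_nonneg

theorem ent_cont_sn : Continuous sn := by
  unfold sn
  exact Complex.continuous_im.comp (continuous_subtype_val.comp AddCircle.continuous_toCircle)

theorem ent_sn_half (x : UnitAddCircle) : sn (x + ((1 / 2 : ℝ) : UnitAddCircle)) = -sn x := by
  induction x using QuotientAddGroup.induction_on with
  | H x =>
    rw [← AddCircle.coe_add, sn_coe, sn_coe, show 2 * Real.pi * (x + 1 / 2) =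
      2 * Real.pi * x + Real.pi by ring, Real.sin_add_pi]

/-- The two cells of the circle. -/
noncomputable def entCel (x : UnitAddCircle) : Fin 2 := if 0 < sn x then 0 else 1

theorem ent_meas_pos : MeasurableSet {x : UnitAddCircle | 0 < sn x} :=
  measurableSet_lt measurable_const ent_cont_sn.measurable

theorem ent_meas_cel : Measurable entCel :=
  Measurable.ite ent_meas_pos measurable_const measurable_const

/-- The neighbourhood of the boundary of the cells. -/
def entBad (δ : ℝ) : Set UnitAddCircle :=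
  Metric.closedBall 0 δ ∪ Metric.closedBall ((1 / 2 : ℝ) : UnitAddCircle) δ

theorem ent_meas_bad (δ : ℝ) : MeasurableSet (entBad δ) :=
  Metric.isClosed_closedBall.measurableSet.union Metric.isClosed_closedBall.measurableSet

theorem ent_vol_bad {δ : ℝ} (hδ : 0 ≤ δ) : volume.real (entBad δ) ≤ 4 * δ := by
  have a : ∀ x : UnitAddCircle, volume.real (Metric.closedBall x δ) ≤ 2 * δ := fun x => by
    rw [Measure.real, AddCircle.volume_closedBall, ENNReal.toReal_ofReal (le_min zero_le_one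
      (by positivity))]
    exact min_le_right _ _
  refine (measureReal_union_le _ _).trans ?_
  linarith [a 0, a ((1 / 2 : ℝ) : UnitAddCircle)]

theorem ent_cel_eq {x x' δ : ℝ} (h : |x' - x| ≤ δ) (hx : (x : UnitAddCircle) ∉ entBad δ) :
    entCel (x' : UnitAddCircle) = entCel (x : UnitAddCircle) := by
  have key : ∀ t : ℝ, |t - x| ≤ δ → Real.sin (2 * Real.pi * t) ≠ 0 := by
    intro t ht h0
    obtain ⟨m, hm⟩ := Real.sin_eq_zero_iff.1 h0
    have hm' : t = m / 2 := by
      have := Real.pi_pos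
      field_simp
      nlinarith
    have hd : dist (x : UnitAddCircle) (t : UnitAddCircle) ≤ δ := by
      rw [dist_eq_norm, ← AddCircle.coe_sub]
      refine (QuotientAddGroup.norm_mk_le_norm).trans ?_
      rwa [Real.norm_eq_abs, abs_sub_comm]
    have z : ∀ j : ℤ, ((j : ℝ) : UnitAddCircle) = 0 := fun j =>
      (AddCircle.coe_eq_zero_iff _).2 ⟨j, by simp⟩
    apply hx
    rcases Int.even_or_odd' m with ⟨j, rfl | rfl⟩
    · left
      rw [Metric.mem_closedBall, ← z j]
      rwa [hm', show ((2 * j : ℤ) : ℝ) / 2 = j by push_cast; ring] at hd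
    · right
      rw [Metric.mem_closedBall]
      rwa [hm', show ((2 * j + 1 : ℤ) : ℝ) / 2 = j + 1 / 2 by push_cast; ring, AddCircle.coe_add,
        z j, zero_add] at hd
  have cont : Continuous fun t : ℝ => Real.sin (2 * Real.pi * t) := by fun_prop
  have mem : ∀ t ∈ Set.uIcc x x', |t - x| ≤ δ := fun t ht =>
    (Set.abs_sub_left_of_mem_uIcc ht).trans h
  have iv : (0 : ℝ) ∉ Set.uIcc (Real.sin (2 * Real.pi * x)) (Real.sin (2 * Real.pi * x')) :=
    fun h0 => by
      obtain ⟨t, ht, e⟩ := intermediate_value_uIcc cont.continuousOn h0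
      exact key t (mem t ht) e
  unfold entCel
  rw [sn_coe, sn_coe]
  rw [Set.mem_uIcc, not_or] at iv
  by_cases a : 0 < Real.sin (2 * Real.pi * x)
  · rw [if_pos a, if_pos]
    by_contra b
    exact iv.2 ⟨not_lt.1 b, a.le⟩
  · rw [if_neg a, if_neg]
    intro b
    exact iv.1 ⟨not_lt.1 a, b.le⟩

theorem ent_vol_pos : 1 / 2 ≤ volume.real {x : UnitAddCircle | 0 < sn x} := by
  rw [← (UnitAddCircle.measurePreserving_mk 0).measureReal_preimage
    ent_meas_pos.nullMeasurableSet]
  have : (volume.restrict (Set.Ioc (0 : ℝ) (0 + 1))).real (Set.Ioo (0 : ℝ) (1 / 2)) = 1 / 2 := by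
    rw [measureReal_restrict_apply measurableSet_Ioo,
      Set.inter_eq_left.2 (Set.Ioo_subset_Ioc_self.trans (Set.Ioc_subset_Ioc_right (by norm_num)))]
    simp
  rw [← this]
  refine measureReal_mono fun t ht => ?_
  show 0 < sn (t : UnitAddCircle)
  rw [sn_coe]
  have := Real.pi_pos
  exact Real.sin_pos_of_pos_of_lt_pi (by nlinarith [ht.1]) (by nlinarith [ht.2])

/-- Atoms of the past. -/
def entAt (k : ℝ) (n : ℕ) (s : ℤ) (w : Fin n → Fin 2) : Set T2 :=
  {z | ∀ i : Fin n, entCel (XT k z (i + s)) = w i}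

theorem ent_meas_at (k : ℝ) (n : ℕ) (s : ℤ) (w : Fin n → Fin 2) :
    MeasurableSet (entAt k n s w) := by
  unfold entAt
  rw [Set.ofPred_forall]
  exact MeasurableSet.iInter fun i =>
    (ent_meas_cel.comp (continuous_XT k _).measurable) (measurableSet_singleton _)

/-- Good points. -/
def entZ (k : ℝ) (n : ℕ) : Set T2 := {z | ¬ LB (KK k) (1 / 20) n (vT k z) ∧
  ∀ i : ℕ, 1 ≤ i → i ≤ n → XT k z (-i) ∉ entBad (4 * om k ^ i)}

theorem ent_slide : ∀ᶠ k in atTop, ∀ n : ℕ, 1 ≤ n → ∀ w : Fin n → Fin 2,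
    volume.real (entZ k n ∩ {z : T2 | 0 < sn z.2} ∩ entAt k n (-n) w) ≤
      24 * volume.real (entAt k n (-n) w ∩ {z : T2 | 0 < sn z.2}ᶜ) := by
  filter_upwards [lg_good, slide, anti, om_small (show (0 : ℝ) < 1 / 8 by norm_num),
    eventually_ge_atTop (0 : ℝ)] with k hg hs ha ho hk n hn w
  obtain ⟨η, hη, ha⟩ := ha n hn
  have mB : MeasurableSet {z : T2 | 0 < sn z.2} := measurable_snd ent_meas_pos
  have mZ : MeasurableSet (entZ k n) := by
    refine ((continuous_vT k).measurable (measurableSet_LB _ _ _)).compl.inter ?_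
    change MeasurableSet {z : T2 | ∀ i : ℕ, 1 ≤ i → i ≤ n → XT k z (-i) ∉ entBad (4 * om k ^ i)}
    simp only [Set.ofPred_forall]
    exact MeasurableSet.iInter fun i => MeasurableSet.iInter fun _ => MeasurableSet.iInter fun _ =>
      ((continuous_XT k _).measurable (ent_meas_bad _)).compl
  set S := entAt k n (-n) w ∩ {z : T2 | 0 < sn z.2}ᶜ with hS
  have mS : MeasurableSet S := (ent_meas_at _ _ _ _).inter mB.compl
  set S' : Set (ℝ × ℝ) := {z | ((z.1 : UnitAddCircle), (z.2 : UnitAddCircle)) ∈ S} with hS'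
  have mS' : MeasurableSet S' :=
    ((AddCircle.measurable_mk'.comp measurable_fst).prodMk
      (AddCircle.measurable_mk'.comp measurable_snd)) mS
  set Y : Set (ℝ × ℝ) := S' ∩ Set.Ioc (-1 : ℝ) 2 ×ˢ Set.Ioc (1 / 2 : ℝ) (1 / 2 + 1) with hY
  have mY : MeasurableSet Y := mS'.inter (measurableSet_Ioc.prod measurableSet_Ioc)
  have vY : volume Y ≤ 3 * volume S := by
    have : Y ⊆ (S' ∩ Set.Ioc (-1 : ℝ) (-1 + 1) ×ˢ Set.Ioc (1 / 2 : ℝ) (1 / 2 + 1) ∪
        S' ∩ Set.Ioc (0 : ℝ) (0 + 1) ×ˢ Set.Ioc (1 / 2 : ℝ) (1 / 2 + 1)) ∪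
        S' ∩ Set.Ioc (1 : ℝ) (1 + 1) ×ˢ Set.Ioc (1 / 2 : ℝ) (1 / 2 + 1) := by
      rintro z ⟨h1, h2, h3⟩
      by_cases a : z.1 ≤ 0
      · exact Or.inl (Or.inl ⟨h1, ⟨h2.1, by linarith⟩, h3⟩)
      by_cases b : z.1 ≤ 1
      · exact Or.inl (Or.inr ⟨h1, ⟨by linarith, by linarith⟩, h3⟩)
      · exact Or.inr ⟨h1, ⟨by linarith, by linarith [h2.2]⟩, h3⟩
    refine (measure_mono this).trans ((measure_union_le _ _).trans ?_)
    refine (add_le_add (measure_union_le _ _) le_rfl).trans ?_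
    rw [← vol_T2 _ _ mS, ← vol_T2 _ _ mS, ← vol_T2 _ _ mS]
    exact le_of_eq (by ring)
  set X0 := entZ k n ∩ {z : T2 | 0 < sn z.2} ∩ entAt k n (-n) w with hX0
  have mX0 : MeasurableSet X0 := (mZ.inter mB).inter (ent_meas_at _ _ _ _)
  set X : Set (ℝ × ℝ) := {z : ℝ × ℝ | ((z.1 : UnitAddCircle), (z.2 : UnitAddCircle)) ∈ X0} ∩
    Set.Ioc (0 : ℝ) (0 + 1) ×ˢ Set.Ioc (0 : ℝ) (0 + 1) with hX
  have key : ∀ p : ℤ, volume (X ∩ {z | GoodL k n p (Vs k (XR k z))}) ≤ 4 * volume Y := by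
    intro p
    have ex : ∀ z : ℝ × ℝ, ∃ x' : Seq, GoodL k n p (Vs k (XR k z)) →
        Sl k n p (XR k z) x' ∧ x' 0 = z.2 + 1 / 2 := fun z => by
      by_cases h : GoodL k n p (Vs k (XR k z))
      · obtain ⟨x', h'⟩ := hs n p _ hn (isOrb_XR k z) h (z.2 + 1 / 2) (by norm_num [abs_of_pos])
        exact ⟨x', fun _ => h'⟩
      · exact ⟨0, fun h' => absurd h' h⟩
    choose x' hx' using ex
    have := locLip (X := X ∩ {z | GoodL k n p (Vs k (XR k z))}) mY
      (Ψ := fun z => (x' z (-1), x' z 0)) (C := 2) hη ?_ ?_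
    · refine this.trans (le_of_eq ?_)
      norm_num
    · rintro z ⟨⟨⟨⟨hz, hp⟩, hw⟩, h1, h2⟩, hG⟩
      obtain ⟨⟨-, o', -, -, cl⟩, e⟩ := hx' z hG
      have c1 := (cl 1 le_rfl hn).1
      simp only [Nat.cast_one, XR_neg_one, pow_one] at c1
      rw [abs_le] at c1
      refine ⟨⟨fun i => ?_, ?_⟩, ⟨by linarith [h1.1], by linarith [h1.2]⟩,
        by rw [e]; exact ⟨by linarith [h2.1], by linarith [h2.2]⟩⟩
      · have hi := i.2
        have e1 : (i : ℤ) + -n = -((n - i : ℕ) : ℤ) := by omega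
        rw [XT_coe, ← o'.eq_XR, ← hw i, XT_coe, e1]
        refine ent_cel_eq (cl _ (by omega) (by omega)).1 ?_
        have := hz.2 (n - i) (by omega) (by omega)
        rwa [XT_coe] at this
      · show ¬ 0 < sn ((x' z 0 : ℝ) : UnitAddCircle)
        rw [e, AddCircle.coe_add, ent_sn_half]
        have : 0 < sn (z.2 : UnitAddCircle) := hp
        linarith
    · rintro z ⟨-, hz⟩ y ⟨-, hy⟩ hd
      obtain ⟨s1, e1⟩ := hx' z hz
      obtain ⟨s2, e2⟩ := hx' y hy
      rw [Prod.dist_eq, max_le_iff, Real.dist_eq, Real.dist_eq] at hd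
      have := ha p _ _ _ _ s1 s2 hd.2 hd.1
      simp only [XR_zero, XR_neg_one] at this
      have e3 : x' z 0 - x' y 0 = z.2 - y.2 := by rw [e1, e2]; ring
      simp only [Prod.dist_eq, Real.dist_eq]
      have a := le_max_left |x' z (-1) - x' y (-1)| |x' z 0 - x' y 0|
      have b := le_max_right |x' z (-1) - x' y (-1)| |x' z 0 - x' y 0|
      rw [e3] at this a b ⊢
      have c := abs_nonneg (z.2 - y.2)
      push_cast
      exact max_le (by linarith) (by linarith)
  have cov : X ⊆ X ∩ {z | GoodL k n (-n) (Vs k (XR k z))} ∪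
      X ∩ {z | GoodL k n (-n - 1) (Vs k (XR k z))} := by
    intro z hz
    have h1 : ¬ LB (KK k) (1 / 20) n (vT k ((z.1 : UnitAddCircle), (z.2 : UnitAddCircle))) :=
      hz.1.1.1.1
    rw [vT_coe] at h1
    obtain ⟨p, hp⟩ := hg n _ hn (bdd_Vs hk _) (LG_of_not_LB h1 le_rfl)
    rcases hp.1 with rfl | rfl
    · exact Or.inl ⟨hz, hp⟩
    · exact Or.inr ⟨hz, hp⟩
  have fin : volume X0 ≤ 24 * volume S := by
    rw [vol_T2 0 0 mX0]
    refine (measure_mono cov).trans ((measure_union_le _ _).trans ?_)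
    refine (add_le_add (key _) (key _)).trans ?_
    calc 4 * volume Y + 4 * volume Y = 8 * volume Y := by ring
      _ ≤ 8 * (3 * volume S) := by gcongr
      _ = 24 * volume S := by ring
  have := ENNReal.toReal_mono (ENNReal.mul_ne_top (by norm_num) (measure_ne_top _ _)) fin
  rwa [ENNReal.toReal_mul] at this

end Vale.Agent.P108
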