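import Vale.Agent.P108.Boot
import Vale.Agent.P108.EntA

/-! Positive entropy. -/

namespace Vale.Agent.P108

open MeasureTheory Filter
open scoped Classical

theorem ent_prob : IsProbabilityMeasure (volume : Measure UnitAddCircle) :=
  ⟨UnitAddCircle.measure_univ⟩

theorem ent_prob2 : IsProbabilityMeasure (volume : Measure T2) := by
  have := ent_prob
  rw [Measure.volume_eq_prod]
  infer_instance

theorem ent_geom {x : ℝ} (h0 : 0 ≤ x) (h1 : x ≤ 1 / 2) (n : ℕ) :
    ∑ i ∈ Finset.range n, x ^ (i + 1) ≤ 2 * x - 2 * x ^ (n + 1) := by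
  induction n with
  | zero => simp
  | succ n ih =>
    rw [Finset.sum_range_succ, pow_succ x (n + 1)]
    nlinarith [pow_nonneg h0 (n + 1)]

theorem ent_good : ∀ᶠ k in atTop, ∀ n : ℕ,
    1 / 4 ≤ volume.real (entZ k n ∩ {z : T2 | 0 < sn z.2}) := by
  filter_upwards [boot (show (0 : ℝ) < 1 / 20 by norm_num) (show (0 : ℝ) < 1 / 8 by norm_num),
    om_small (show (0 : ℝ) < 1 / 256 by norm_num)] with k hb ho n
  have := ent_prob
  have h1 : 1 / 2 ≤ volume.real {z : T2 | 0 < sn z.2} := by
    have := (measurePreserving_snd (μ := (volume : Measure UnitAddCircle))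
      (ν := (volume : Measure UnitAddCircle))).measureReal_preimage ent_meas_pos.nullMeasurableSet
    exact ent_vol_pos.trans (le_of_eq this.symm)
  have h2 : volume.real (vT k ⁻¹' {V | LB (KK k) (1 / 20) n V}) ≤ 1 / 8 := by
    have := hb n
    rwa [nu, map_measureReal_apply (continuous_vT k).measurable (measurableSet_LB _ _ _)] at this
  have h3 : volume.real (⋃ i ∈ Finset.range n,
      (fun z => XT k z (-((i + 1 : ℕ) : ℤ))) ⁻¹' entBad (4 * om k ^ (i + 1))) ≤ 1 / 8 := by
    refine (measureReal_biUnion_finset_le _ _).trans ?_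
    have : ∀ i ∈ Finset.range n, volume.real ((fun z => XT k z (-((i + 1 : ℕ) : ℤ))) ⁻¹'
        entBad (4 * om k ^ (i + 1))) ≤ 16 * om k ^ (i + 1) := fun i _ => by
      rw [(mp_XT_one k _).measureReal_preimage (ent_meas_bad _).nullMeasurableSet]
      have := ent_vol_bad (δ := 4 * om k ^ (i + 1)) (by have := ho.1; positivity)
      linarith
    refine (Finset.sum_le_sum this).trans ?_
    rw [← Finset.mul_sum]
    have := ent_geom ho.1.le (by linarith [ho.2]) n
    have := pow_nonneg ho.1.le (n + 1)
    linarith [ho.2]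
  have h4 : {z : T2 | 0 < sn z.2} ⊆ (entZ k n ∩ {z : T2 | 0 < sn z.2} ∪
      vT k ⁻¹' {V | LB (KK k) (1 / 20) n V}) ∪ ⋃ i ∈ Finset.range n,
      (fun z => XT k z (-((i + 1 : ℕ) : ℤ))) ⁻¹' entBad (4 * om k ^ (i + 1)) := by
    intro z hz
    by_contra h
    simp only [Set.mem_union, not_or, Set.mem_iUnion, not_exists, Set.mem_preimage,
      Finset.mem_range] at h
    refine h.1.1 ⟨⟨h.1.2, fun i hi hn => ?_⟩, hz⟩
    obtain ⟨j, rfl⟩ := Nat.exists_eq_add_of_le' hi
    exact h.2 j (by omega)
  have := (measureReal_mono h4).trans ((measureReal_union_le (μ := volume) _ _).trans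
    (add_le_add (measureReal_union_le _ _) le_rfl))
  linarith

/-- Entropy of the names read from time s on. -/
noncomputable def entH (k : ℝ) (n : ℕ) (s : ℤ) : ℝ :=
  ∑ w : Fin n → Fin 2, Real.negMulLog (volume.real (entAt k n s w))

theorem ent_H_shift (k : ℝ) (n : ℕ) (s : ℤ) : entH k n s = entH k n 0 := by
  refine Finset.sum_congr rfl fun w _ => ?_
  rw [← (mp_XT k s).measureReal_preimage (ent_meas_at k n 0 w).nullMeasurableSet]
  congr 2
  ext z
  simp only [entAt, Set.mem_ofPred_eq, Set.mem_preimage, XT_XT, sh, add_zero]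

theorem ent_H_succ : ∀ᶠ k in atTop, ∀ n : ℕ, 1 ≤ n →
    entH k n 0 + Real.log 2 / 96 ≤ entH k (n + 1) 0 := by
  filter_upwards [ent_good, ent_slide] with k hg hs n hn
  have mB : MeasurableSet {z : T2 | 0 < sn z.2} := measurable_snd ent_meas_pos
  have := ent_incr volume (A := entAt k n (-n)) (fun z => ⟨fun i => entCel (XT k z (i + -n)),
    fun _ => rfl⟩) mB (by norm_num) (hs n hn)
  have l2 : 0 ≤ Real.log 2 := Real.log_nonneg (by norm_num)
  rw [← ent_H_shift k n (-n), ← ent_H_shift k (n + 1) (-n)]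
  refine le_trans (add_le_add le_rfl (by nlinarith [hg n])) (this.trans (le_of_eq ?_))
  rw [entH, ← (Fin.snocEquiv fun _ => Fin 2).sum_comp, Fintype.sum_prod_type_right]
  refine Finset.sum_congr rfl fun w _ => ?_
  have x0 : ∀ z : T2, XT k z 0 = z.2 := fun z => bi_zero _ _ _
  rw [Fin.sum_univ_two]
  congr 3 <;> ext z <;>
    simp [entAt, Fin.forall_fin_succ', Fin.snocEquiv, x0, entCel]

theorem ent_iter (k : ℝ) (p : T2) (i : ℕ) : (stdMap k)^[i] p =
    (XT k (p.1 - p.2, p.1) i, XT k (p.1 - p.2, p.1) i - XT k (p.1 - p.2, p.1) (i - 1)) := by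
  induction i with
  | zero => simp [XT]
  | succ i ih =>
    have := eq_sub_of_add_eq (rec_bi (fun _ => gT k) p.1 (p.1 - p.2) i)
    rw [Function.iterate_succ_apply', ih]
    simp only [XT, stdMap, Nat.cast_succ, add_sub_cancel_right, this, gT]
    refine Prod.ext ?_ ?_ <;> simp only [] <;> abel

theorem ent_mp : MeasurePreserving (fun p : T2 => ((p.1 - p.2, p.1) : T2)) volume volume := by
  have := (measurePreserving_add_prod (volume : Measure UnitAddCircle) volume).comp
    (((Measure.measurePreserving_neg volume).prod (MeasurePreserving.id volume)).comp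
      (Measure.measurePreserving_swap (μ := (volume : Measure UnitAddCircle))
        (ν := (volume : Measure UnitAddCircle))))
  have e : (fun p : T2 => ((p.1 - p.2, p.1) : T2)) = (fun z : T2 => (z.1 + z.2, z.2)) ∘
      (Prod.map Neg.neg id) ∘ Prod.swap := by
    funext p
    simp [neg_add_eq_sub]
  rw [e]
  exact this

theorem ent_block (k : ℝ) (n : ℕ) :
    blockEntropy volume (stdMap k) (fun p : T2 => entCel p.1) n = entH k n 0 := by
  refine Finset.sum_congr rfl fun w _ => ?_
  rw [← ent_mp.measureReal_preimage (ent_meas_at k n 0 w).nullMeasurableSet]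
  congr 2
  ext z
  simp only [entAt, Set.mem_ofPred_eq, Set.mem_preimage, ent_iter, add_zero]

theorem ent_pos : ∀ᶠ k in atTop, 0 < ksEntropy volume (stdMap k) := by
  filter_upwards [ent_H_succ] with k hk
  have := ent_prob2
  have l2 : 0 < Real.log 2 := Real.log_pos (by norm_num)
  have h : ∀ n : ℕ, n * (Real.log 2 / 96) ≤ entH k (n + 1) 0 := fun n => by
    induction n with
    | zero =>
      rw [Nat.cast_zero, zero_mul]
      exact Finset.sum_nonneg fun w _ => Real.negMulLog_nonneg measureReal_nonneg measureReal_le_one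
    | succ n ih =>
      have := hk (n + 1) (by omega)
      push_cast
      linarith
  refine lt_of_lt_of_le ?_ (le_iSup_of_le 2 (le_iSup_of_le (fun p : T2 => entCel p.1)
    (le_iSup_of_le (ent_meas_cel.comp measurable_fst) le_rfl)))
  refine lt_of_lt_of_le (ENNReal.ofReal_pos.2 (show 0 < Real.log 2 / 192 by positivity)) ?_
  refine le_liminf_of_le (by isBoundedDefault) ?_
  filter_upwards [eventually_ge_atTop 2] with n hn
  refine ENNReal.ofReal_le_ofReal ?_
  obtain ⟨m, rfl⟩ := Nat.exists_eq_add_of_le' (show 1 ≤ n by omega)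
  have hm : (1 : ℝ) ≤ m := by exact_mod_cast (show 1 ≤ m by omega)
  rw [ent_block, le_div_iff₀ (by positivity)]
  push_cast
  nlinarith [h m]

theorem ent_neg (k : ℝ) (h : 0 < ksEntropy volume (stdMap k)) :
    0 < ksEntropy volume (stdMap (-k)) := by
  refine h.trans_le (iSup_le fun N => iSup_le fun P => iSup_le fun hP => ?_)
  set c : T2 := (((1 / 2 : ℝ) : UnitAddCircle), 0) with hc
  have sc : Function.Semiconj (fun p : T2 => p + c) (stdMap (-k)) (stdMap k) := fun p => by
    simp only [stdMap, hc, Prod.fst_add, Prod.snd_add, ent_sn_half, add_zero, Prod.mk_add_mk,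
      neg_mul, mul_neg]
    refine Prod.ext ?_ rfl
    simp only []
    abel
  refine le_iSup_of_le N (le_iSup_of_le (fun p => P (p + c))
    (le_iSup_of_le (hP.comp (measurable_add_const c)) (le_of_eq ?_)))
  congr 1
  funext n
  congr 2
  refine Finset.sum_congr rfl fun w _ => ?_
  congr 1
  have : (volume : Measure T2).IsAddRightInvariant := by
    rw [Measure.volume_eq_prod]
    infer_instance
  rw [Measure.real, Measure.real, ← measure_preimage_add_right volume c]
  congr 2
  ext p
  simp only [Set.mem_preimage, Set.mem_ofPred_eq, (sc.iterate_right _).eq]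

end Vale.Agent.P108
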