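import Vale.Agent.P108.Rec

/-! Holomorphic functions: cubic remainders, differences, extrapolation. -/

namespace Vale.Agent.P108

open MeasureTheory Filter
open scoped Classical

theorem ext_ds {f : ℂ → ℂ} {c : ℂ} {ρ A : ℝ} (hρ : 0 < ρ)
    (hf : DifferentiableOn ℂ f (Metric.ball c ρ)) (hA : ∀ z ∈ Metric.ball c ρ, ‖f z‖ ≤ A) :
    DifferentiableOn ℂ (dslope f c) (Metric.ball c ρ) ∧
      ∀ z ∈ Metric.ball c ρ, ‖dslope f c z‖ ≤ 2 * A / ρ := by
  refine ⟨(Complex.differentiableOn_dslope (Metric.ball_mem_nhds c hρ)).2 hf, fun z hz =>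
    Complex.norm_dslope_le_div_of_mapsTo_ball hf (fun w hw => ?_) hz⟩
  rw [mem_closedBall_iff_norm]
  linarith [norm_sub_le (f w) (f c), hA w hw, hA c (Metric.mem_ball_self hρ)]

theorem ext_lip {f : ℂ → ℂ} {c : ℂ} {ρ A : ℝ} (hf : DifferentiableOn ℂ f (Metric.ball c ρ))
    (hA : ∀ z ∈ Metric.ball c ρ, ‖f z‖ ≤ A) {z w : ℂ} {r : ℝ} (hw : ‖w - c‖ + r ≤ ρ)
    (hz : ‖z - w‖ < r) : ‖f z - f w‖ ≤ 2 * A / r * ‖z - w‖ := by
  have hr : 0 < r := (norm_nonneg _).trans_lt hz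
  have hs : Metric.ball w r ⊆ Metric.ball c ρ :=
    Metric.ball_subset_ball' (by rw [dist_eq_norm]; linarith)
  have h := Complex.dist_le_div_mul_dist_of_mapsTo_ball (R₂ := 2 * A) (hf.mono hs)
    (fun x hx => ?_) (mem_ball_iff_norm.2 hz)
  · rwa [dist_eq_norm, dist_eq_norm] at h
  · rw [mem_closedBall_iff_norm]
    linarith [norm_sub_le (f x) (f w), hA x (hs hx), hA w (hs (Metric.mem_ball_self hr))]

theorem ext_term {p z : ℂ} {s s' d μ : ℝ} (hp : ‖p‖ ≤ μ) (hs : |s| ≤ 1) (hs' : |s'| ≤ 1)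
    (hd : 1 / 100 ≤ d) : ‖p * ((z - s) * (z - s')) / d‖ ≤ 100 * (1 + ‖z‖) ^ 2 * μ := by
  have h1 : ∀ t : ℝ, |t| ≤ 1 → ‖z - t‖ ≤ 1 + ‖z‖ := fun t ht => by
    have := norm_sub_le z t
    rw [Complex.norm_real, Real.norm_eq_abs] at this
    linarith
  have h0 := (norm_nonneg p).trans hp
  have h2 := mul_le_mul hp (mul_le_mul (h1 s hs) (h1 s' hs') (norm_nonneg _) (by positivity))
    (by positivity) h0
  rw [norm_div, norm_mul, norm_mul, Complex.norm_real, Real.norm_eq_abs,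
    abs_of_pos (by linarith), div_le_iff₀ (by linarith)]
  have h3 : 0 ≤ (1 + ‖z‖) ^ 2 * μ := by positivity
  nlinarith

/-- Twisted difference operator. -/
def extD (z : ℂ) (u : ℕ → ℂ) : ℕ → ℂ := fun j => u (j + 1) - z * u j

theorem ext_perm {L L' : List ℂ} (h : L.Perm L') (u : ℕ → ℂ) :
    L.foldr extD u = L'.foldr extD u := by
  have : LeftCommutative extD := ⟨fun a b u => by funext j; simp only [extD]; ring⟩
  exact h.foldr_eq u

theorem ext_sup (L : List ℂ) (hL : ∀ z ∈ L, ‖z‖ = 1) (u : ℕ → ℂ) {B : ℝ} :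
    ∀ i, (∀ j, i ≤ j → j ≤ i + L.length → ‖u j‖ ≤ B) → ‖L.foldr extD u i‖ ≤ 2 ^ L.length * B := by
  induction L with
  | nil => intro i h; simpa using h i le_rfl le_rfl
  | cons z L ih =>
    intro i h
    have ih' := ih fun w hw => hL w (List.mem_cons_of_mem _ hw)
    rw [List.length_cons] at h ⊢
    have h1 := ih' (i + 1) fun j a b => h j (by omega) (by omega)
    have h2 := ih' i fun j a b => h j a (by omega)
    have h3 := norm_sub_le (L.foldr extD u (i + 1)) (z * L.foldr extD u i)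
    rw [norm_mul, hL z List.mem_cons_self, one_mul] at h3
    rw [pow_succ]
    exact h3.trans (by linarith)

theorem ext_first (L : List ℂ) (hL : ∀ z ∈ L, ‖z‖ = 1) (u : ℕ → ℂ) {ε : ℝ}
    (h : ∀ j, 1 ≤ j → j ≤ L.length → ‖u j‖ ≤ ε) :
    ‖u 0‖ ≤ ‖L.foldr extD u 0‖ + (2 ^ L.length - 1) * ε := by
  induction L with
  | nil => simp
  | cons z L ih =>
    have hL' : ∀ w ∈ L, ‖w‖ = 1 := fun w hw => hL w (List.mem_cons_of_mem _ hw)
    rw [List.length_cons] at h ⊢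
    have h1 := ih hL' fun j a b => h j a (by omega)
    have h2 := ext_sup L hL' u 1 fun j a b => h j a (by omega)
    have h3 := norm_sub_le (L.foldr extD u 1) ((z :: L).foldr extD u 0)
    have e : L.foldr extD u 1 - (z :: L).foldr extD u 0 = z * L.foldr extD u 0 := by
      simp [extD]
    rw [e, norm_mul, hL z List.mem_cons_self, one_mul] at h3
    rw [pow_succ]
    linarith

theorem ext_sum {ι : Type} [Fintype ι] (L : List ℂ) (u : ι → ℕ → ℂ) :
    L.foldr extD (fun j => ∑ i, u i j) = fun j => ∑ i, L.foldr extD (u i) j := by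
  induction L with
  | nil => rfl
  | cons z L ih =>
    funext j
    simp only [List.foldr_cons, ih, extD, Finset.mul_sum, Finset.sum_sub_distrib]

theorem ext_twist {z : ℂ} {e : ℕ → ℂ} (he : ∀ j, e (j + 1) = z * e j) (g : ℂ → ℂ) (s τ : ℝ)
    (n : ℕ) : (List.replicate n z).foldr extD (fun j => e j * g (s + j * τ : ℝ)) = fun j =>
      z ^ n * e j * (fun (h : ℂ → ℂ) w => h (w + τ) - h w)^[n] g (s + j * τ : ℝ) := by
  induction n with
  | zero => funext j; simp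
  | succ n ih =>
    funext j
    rw [List.replicate_succ, List.foldr_cons, ih, Function.iterate_succ_apply']
    simp only [extD, he]
    rw [show ((s + (j + 1 : ℕ) * τ : ℝ) : ℂ) = (s + j * τ : ℝ) + τ by push_cast; ring]
    ring

theorem ext_diff {g : ℂ → ℂ} {c : ℂ} {ρ M τ δ : ℝ} (hτ : 0 < τ) (hδ : τ < δ)
    (hg : DifferentiableOn ℂ g (Metric.ball c ρ)) (hM : ∀ z ∈ Metric.ball c ρ, ‖g z‖ ≤ M)
    (m : ℕ) : DifferentiableOn ℂ ((fun (h : ℂ → ℂ) w => h (w + τ) - h w)^[m] g)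
      (Metric.ball c (ρ - m * δ)) ∧ ∀ z ∈ Metric.ball c (ρ - m * δ),
        ‖(fun (h : ℂ → ℂ) w => h (w + τ) - h w)^[m] g z‖ ≤ M * (2 * τ / δ) ^ m := by
  induction m with
  | zero => simpa using ⟨hg, hM⟩
  | succ m ih =>
    obtain ⟨h1, h2⟩ := ih
    rw [Function.iterate_succ_apply']
    generalize (fun (h : ℂ → ℂ) w => h (w + τ) - h w)^[m] g = h at h1 h2
    have e : ∀ w : ℂ, ‖w + τ - w‖ = τ := fun w => by
      rw [add_sub_cancel_left, Complex.norm_real, Real.norm_eq_abs, abs_of_pos hτ]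
    push_cast
    refine ⟨DifferentiableOn.fun_sub (h1.comp (by fun_prop) fun w hw => ?_)
      (h1.mono (Metric.ball_subset_ball (by linarith))), fun w hw => ?_⟩
    · rw [mem_ball_iff_norm] at hw ⊢
      linarith [norm_sub_le_norm_sub_add_norm_sub (w + τ) w c, e w]
    · rw [mem_ball_iff_norm] at hw
      have h3 := ext_lip h1 h2 (z := w + τ) (w := w) (r := δ) (by linarith) (by rwa [e])
      rw [e] at h3
      refine h3.trans (le_of_eq ?_)
      ring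

theorem cubic {f : ℂ → ℂ} {c : ℂ} {ρ A : ℝ} (hρ : 0 < ρ) (hf : DifferentiableOn ℂ f (Metric.ball c ρ))
    (hA : ∀ z ∈ Metric.ball c ρ, ‖f z‖ ≤ A) : ∃ c0 c1 c2 : ℂ, ∀ z ∈ Metric.ball c ρ,
      ‖f z - (c0 + c1 * (z - c) + c2 * (z - c) ^ 2)‖ ≤ 8 * A * (‖z - c‖ / ρ) ^ 3 := by
  obtain ⟨a1, b1⟩ := ext_ds hρ hf hA
  obtain ⟨a2, b2⟩ := ext_ds hρ a1 b1
  obtain ⟨-, b3⟩ := ext_ds hρ a2 b2
  refine ⟨f c, dslope f c c, dslope (dslope f c) c c, fun z hz => ?_⟩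
  have e1 := sub_smul_dslope f c z
  have e2 := sub_smul_dslope (dslope f c) c z
  have e3 := sub_smul_dslope (dslope (dslope f c) c) c z
  rw [smul_eq_mul] at e1 e2 e3
  have e : f z - (f c + dslope f c c * (z - c) + dslope (dslope f c) c c * (z - c) ^ 2) =
      (z - c) ^ 3 * dslope (dslope (dslope f c) c) c z := by
    linear_combination -e1 - (z - c) * e2 - (z - c) ^ 2 * e3
  rw [e, norm_mul, norm_pow]
  refine (mul_le_mul_of_nonneg_left (b3 z hz) (by positivity)).trans (le_of_eq ?_)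
  field_simp
  ring
theorem lip_of_bdd {f : ℂ → ℂ} {c : ℂ} {ρ A : ℝ} (hρ : 0 < ρ)
    (hf : DifferentiableOn ℂ f (Metric.ball c ρ)) (hA : ∀ z ∈ Metric.ball c ρ, ‖f z‖ ≤ A)
    {z w : ℂ} (hz : ‖z - c‖ ≤ ρ / 4) (hw : ‖w - c‖ ≤ ρ / 4) :
    ‖f z - f w‖ ≤ 4 * A / ρ * ‖z - w‖ := by
  have h0 : 0 ≤ A := (norm_nonneg _).trans (hA c (Metric.mem_ball_self hρ))
  have h1 : ‖z - w‖ < 3 * ρ / 4 := by
    have := norm_sub_le_norm_sub_add_norm_sub z c w
    rw [norm_sub_rev c w] at this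
    linarith
  refine (ext_lip hf hA (by linarith) h1).trans (mul_le_mul_of_nonneg_right ?_ (norm_nonneg _))
  rw [div_le_div_iff₀ (by positivity) hρ]
  nlinarith [mul_nonneg h0 hρ.le]
theorem quad_bound {c0 c1 c2 : ℂ} {s1 s2 s3 μ : ℝ} (h1 : |s1| ≤ 1) (h3 : |s3| ≤ 1)
    (h12 : s1 + 1 / 10 ≤ s2) (h23 : s2 + 1 / 10 ≤ s3)
    (b1 : ‖c0 + c1 * s1 + c2 * s1 ^ 2‖ ≤ μ) (b2 : ‖c0 + c1 * s2 + c2 * s2 ^ 2‖ ≤ μ)
    (b3 : ‖c0 + c1 * s3 + c2 * s3 ^ 2‖ ≤ μ) (z : ℂ) :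
    ‖c0 + c1 * z + c2 * z ^ 2‖ ≤ 300 * (1 + ‖z‖) ^ 2 * μ := by
  rw [abs_le] at h1 h3
  have h2 : |s2| ≤ 1 := by rw [abs_le]; constructor <;> linarith [h1.1, h3.2]
  have t1 := ext_term (z := z) (d := (s2 - s1) * (s3 - s1)) b1 h2 (abs_le.2 h3) (by nlinarith)
  have t2 := ext_term (z := z) (d := (s2 - s1) * (s3 - s2)) b2 (abs_le.2 h1) (abs_le.2 h3)
    (by nlinarith)
  have t3 := ext_term (z := z) (d := (s3 - s1) * (s3 - s2)) b3 (abs_le.2 h1) h2 (by nlinarith)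
  have n1 : (s2 : ℂ) - s1 ≠ 0 := by exact_mod_cast (by linarith : 0 < s2 - s1).ne'
  have n2 : (s3 : ℂ) - s1 ≠ 0 := by exact_mod_cast (by linarith : 0 < s3 - s1).ne'
  have n3 : (s3 : ℂ) - s2 ≠ 0 := by exact_mod_cast (by linarith : 0 < s3 - s2).ne'
  have e : c0 + c1 * z + c2 * z ^ 2 =
      (c0 + c1 * s1 + c2 * s1 ^ 2) * ((z - s2) * (z - s3)) / (((s2 - s1) * (s3 - s1) : ℝ) : ℂ) -
      (c0 + c1 * s2 + c2 * s2 ^ 2) * ((z - s1) * (z - s3)) / (((s2 - s1) * (s3 - s2) : ℝ) : ℂ) +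
      (c0 + c1 * s3 + c2 * s3 ^ 2) * ((z - s1) * (z - s2)) / (((s3 - s1) * (s3 - s2) : ℝ) : ℂ) := by
    push_cast
    field_simp
    ring
  rw [e]
  refine (norm_add_le _ _).trans ((add_le_add_left (norm_sub_le _ _) _).trans ?_)
  linarith
theorem quad_alt {c0 c1 c2 s1 s2 s3 s4 : ℝ} (h12 : s1 < s2) (h23 : s2 < s3) (h34 : s3 < s4)
    (b1 : 0 < c0 + c1 * s1 + c2 * s1 ^ 2) (b2 : c0 + c1 * s2 + c2 * s2 ^ 2 < 0)
    (b3 : 0 < c0 + c1 * s3 + c2 * s3 ^ 2) (b4 : c0 + c1 * s4 + c2 * s4 ^ 2 < 0) : False := by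
  have a12 := sub_pos.2 h12
  have a23 := sub_pos.2 h23
  have a34 := sub_pos.2 h34
  have a13 := sub_pos.2 (h12.trans h23)
  have a24 := sub_pos.2 (h23.trans h34)
  have a14 := sub_pos.2 (h12.trans (h23.trans h34))
  have t1 := mul_pos b1 (mul_pos a23 (mul_pos a24 a34))
  have t2 := mul_pos (neg_pos.2 b2) (mul_pos a13 (mul_pos a14 a34))
  have t3 := mul_pos b3 (mul_pos a12 (mul_pos a14 a24))
  have t4 := mul_pos (neg_pos.2 b4) (mul_pos a12 (mul_pos a13 a23))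
  have := add_pos (add_pos t1 t2) (add_pos t3 t4)
  exact this.ne' (by ring)
/-- Extrapolation for approximate exponential polynomials. -/
theorem extrap {ι : Type} [Fintype ι] (n : ℕ) (ω : ι → ℝ) {g : ι → ℂ → ℂ} {c : ℂ}
    {ρ M τ ε s : ℝ} (hτ : 0 < τ) (hρ : 2 * n * τ < ρ) (hε : 0 ≤ ε)
    (hg : ∀ i, DifferentiableOn ℂ (g i) (Metric.ball c ρ))
    (hM : ∀ i, ∀ z ∈ Metric.ball c ρ, ‖g i z‖ ≤ M)
    (hs : ∀ j : ℕ, j ≤ n * Fintype.card ι → ‖((s + j * τ : ℝ) : ℂ) - c‖ < ρ / 2)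
    {f : ℝ → ℂ} (hf : ∀ j : ℕ, j ≤ n * Fintype.card ι → f (s + j * τ) =
      ∑ i, Complex.exp (Complex.I * (ω i * (s + j * τ) : ℝ)) * g i (s + j * τ : ℝ))
    (hb : ∀ j : ℕ, 1 ≤ j → j ≤ n * Fintype.card ι → ‖f (s + j * τ)‖ ≤ ε) :
    ‖f s‖ ≤ 2 ^ (n * Fintype.card ι) * (Fintype.card ι * M * (4 * n * τ / ρ) ^ n + ε) := by
  have hρ0 : 0 < ρ := lt_of_le_of_lt (by positivity) hρ
  have hΔ : ∀ i, ∀ z ∈ Metric.ball c (ρ / 2),
      ‖(fun (h : ℂ → ℂ) w => h (w + τ) - h w)^[n] (g i) z‖ ≤ M * (4 * n * τ / ρ) ^ n := by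
    intro i z hz
    rcases Nat.eq_zero_or_pos n with rfl | hn
    · simpa using hM i z (Metric.ball_subset_ball (by linarith) hz)
    · have n0 : (0 : ℝ) < n := by exact_mod_cast hn
      have h1 := (ext_diff (δ := ρ / (2 * n)) hτ
        (by rw [lt_div_iff₀ (by positivity)]; linarith) (hg i) (hM i) n).2 z
        (by rwa [show ρ - n * (ρ / (2 * n)) = ρ / 2 by field_simp; ring])
      rwa [show 2 * τ / (ρ / (2 * n)) = 4 * n * τ / ρ by field_simp; ring] at h1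
  obtain ⟨zz, hzz⟩ : ∃ zz : ι → ℂ, ∀ i, zz i = Complex.exp (Complex.I * (ω i * τ : ℝ)) :=
    ⟨_, fun _ => rfl⟩
  have hz1 : ∀ i, ‖zz i‖ = 1 := fun i => by rw [hzz, Complex.norm_exp_I_mul_ofReal]
  have hLn : ∀ l : List ι, ∀ z ∈ l.flatMap fun i => List.replicate n (zz i), ‖z‖ = 1 := by
    intro l z hz
    obtain ⟨i, -, hi⟩ := List.mem_flatMap.1 hz
    rw [List.eq_of_mem_replicate hi, hz1]
  obtain ⟨L, hL⟩ : ∃ L, L = (Finset.univ : Finset ι).toList.flatMap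
    fun i => List.replicate n (zz i) := ⟨_, rfl⟩
  have hlen : L.length = n * Fintype.card ι := by
    rw [hL, List.length_flatMap]
    simp [mul_comm]
  have h1 := ext_first L (hL ▸ hLn _) (fun j => ∑ i,
    Complex.exp (Complex.I * (ω i * (s + j * τ) : ℝ)) * g i (s + j * τ : ℝ)) (ε := ε)
    fun j a b => by rw [← hf j (hlen ▸ b)]; exact hb j a (hlen ▸ b)
  have h2 : ∀ i, ‖L.foldr extD (fun j => Complex.exp (Complex.I * (ω i * (s + j * τ) : ℝ)) *
      g i (s + j * τ : ℝ)) 0‖ ≤ 2 ^ (n * Fintype.card ι) * (M * (4 * n * τ / ρ) ^ n) := by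
    intro i
    have hp : L.Perm ((((Finset.univ : Finset ι).toList.erase i).flatMap
        fun i => List.replicate n (zz i)) ++ List.replicate n (zz i)) := by
      rw [hL]
      exact ((List.perm_cons_erase (Finset.mem_toList.2 (Finset.mem_univ i))).flatMap_right
        _).trans List.perm_append_comm
    have hl := hp.length_eq
    rw [hlen, List.length_append, List.length_replicate] at hl
    rw [ext_perm hp, List.foldr_append, ext_twist (z := zz i) fun j => by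
      rw [hzz, ← Complex.exp_add]; congr 1; push_cast; ring]
    refine (ext_sup _ (hLn _) _ (B := M * (4 * n * τ / ρ) ^ n) 0 fun j _ b => ?_).trans ?_
    · rw [norm_mul, norm_mul, norm_pow, hz1, Complex.norm_exp_I_mul_ofReal, one_pow, one_mul,
        one_mul]
      exact hΔ i _ (mem_ball_iff_norm.2 (hs j (by omega)))
    · refine mul_le_mul_of_nonneg_right (pow_le_pow_right₀ one_le_two (by omega)) ?_
      exact (norm_nonneg _).trans (hΔ i c (Metric.mem_ball_self (by linarith)))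
  have h3 := hf 0 (Nat.zero_le _)
  rw [← h3, ext_sum, hlen] at h1
  have h4 := (norm_sum_le _ _).trans (Finset.sum_le_sum fun i (_ : i ∈ Finset.univ) => h2 i)
  rw [Finset.sum_const, Finset.card_univ, nsmul_eq_mul] at h4
  simp only [Nat.cast_zero, zero_mul, add_zero] at h1
  linarith
/-- A step avoiding a small set of indices. -/
theorem exists_step {N M : ℕ} (hN : 1 ≤ N) (H : Finset ℕ) (hH : (H.card + 1) * (8 * N ^ 2) ≤ M)
    (i : ℕ) : ∃ q : ℕ, 1 ≤ q ∧ 4 * N * q ≤ M ∧ ∀ j, 1 ≤ j → j ≤ N → i + j * q ∉ H := by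
  by_contra hno
  push Not at hno
  have hsub : Finset.Icc 1 (N * H.card + 1) ⊆
      (Finset.Icc 1 N ×ˢ H).image fun p => (p.2 - i) / p.1 := by
    intro q hq
    rw [Finset.mem_Icc] at hq
    obtain ⟨j, h1, h2, h3⟩ := hno q hq.1 (by
      refine le_trans (Nat.mul_le_mul_left _ hq.2) (le_trans ?_ hH)
      nlinarith)
    refine Finset.mem_image.2 ⟨(j, i + j * q), Finset.mem_product.2
      ⟨Finset.mem_Icc.2 ⟨h1, h2⟩, h3⟩, ?_⟩
    simp only [Nat.add_sub_cancel_left]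
    exact Nat.mul_div_cancel_left q h1
  have h := (Finset.card_le_card hsub).trans Finset.card_image_le
  simp at h

end Vale.Agent.P108
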