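import Vale.Agent.P108.Rec

/-! Linear theory: transfer matrices, loss, decay lemma. -/

namespace Vale.Agent.P108

open MeasureTheory Filter
open scoped Classical

theorem lin_mink (a b c d : ℝ) :
    √((a + c) ^ 2 + (b + d) ^ 2) ≤ √(a ^ 2 + b ^ 2) + √(c ^ 2 + d ^ 2) := by
  have h := norm_add_le (⟨a, b⟩ : ℂ) ⟨c, d⟩
  simpa only [Complex.norm_eq_sqrt_sq_add_sq, Complex.add_re, Complex.add_im] using h

theorem lin_sqrt_smul (c a b : ℝ) : √((c * a) ^ 2 + (c * b) ^ 2) = |c| * √(a ^ 2 + b ^ 2) := by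
  rw [mul_pow, mul_pow, ← mul_add, Real.sqrt_mul (sq_nonneg c), Real.sqrt_sq_eq_abs]

theorem Wr_const {V φ ψ : Seq} (h1 : IsSol V φ) (h2 : IsSol V ψ) (i j : ℤ) :
    Wr φ ψ i = Wr φ ψ j := by
  have step : ∀ j, Wr φ ψ (j + 1) = Wr φ ψ j := fun j => by
    simp only [Wr, add_sub_cancel_right]
    linear_combination ψ j * h1 j - φ j * h2 j
  have key : ∀ j, Wr φ ψ j = Wr φ ψ 0 := fun j => by
    induction j using Int.induction_on with
    | zero => rfl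
    | succ n ih => rw [step, ih]
    | pred n ih => rw [← step, sub_add_cancel, ih]
  rw [key i, key j]
theorem sq_Wr_le (φ ψ : Seq) (j : ℤ) : Wr φ ψ j ^ 2 ≤ nq φ j * nq ψ j := by
  unfold Wr nq
  nlinarith [sq_nonneg (φ j * ψ j + φ (j - 1) * ψ (j - 1))]
theorem nq_nonneg (ψ : Seq) (j : ℤ) : 0 ≤ nq ψ j := by
  unfold nq; positivity
theorem nq_rf (ψ : Seq) (j : ℤ) : nq (rf ψ) j = nq ψ (-j) := by
  simp only [nq, rf]
  rw [show -1 - j = -j - 1 by ring, show -1 - (j - 1) = -j by ring, add_comm]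
theorem nq_sh (c : ℤ) (ψ : Seq) (j : ℤ) : nq (sh c ψ) j = nq ψ (j + c) := by
  simp only [nq, sh]
  rw [show j - 1 + c = j + c - 1 by ring]
theorem Bdd.rf {K : ℝ} {V : Seq} (h : Bdd K V) : Bdd K (rf V) := by
  exact fun j => h _
theorem Bdd.sh {K : ℝ} {V : Seq} (h : Bdd K V) (c : ℤ) : Bdd K (sh c V) := by
  exact fun j => h _
theorem lin_rep {V ψ : Seq} (h : IsSol V ψ) (s t : ℤ) :
    ψ t = T V t (s - 1) * ψ s - T V t s * ψ (s - 1) := by
  have h1 := Wr_const h (isSol_gs V 0 1) s 0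
  have h2 := Wr_const (isSol_gs V 1 0) h s 0
  have h3 : ψ = fun j => ψ 0 * gs V 1 0 j + ψ (-1) * gs V 0 1 j :=
    h.ext ((isSol_gs V 1 0).lin (isSol_gs V 0 1) _ _) (s := 0) (by simp) (by simp)
  have h4 := congrFun h3 t
  simp only [Wr, zero_sub, gs_zero, gs_neg_one] at h1 h2
  unfold T
  linear_combination h4 - gs V 1 0 t * h1 - gs V 0 1 t * h2
theorem lin_F_eq {V φ ψ : Seq} (h1 : IsSol V φ) (h2 : IsSol V ψ) {s : ℤ} (a : φ s = 1)
    (b : φ (s - 1) = 0) (c : ψ s = 0) (d : ψ (s - 1) = 1) (t : ℤ) :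
    F V s t = nq φ t + nq ψ t := by
  unfold nq F
  rw [lin_rep h1 s t, lin_rep h1 s (t - 1), lin_rep h2 s t, lin_rep h2 s (t - 1), a, b, c, d]
  ring
theorem nq_le_F {V ψ : Seq} (h : IsSol V ψ) (s t : ℤ) : nq ψ t ≤ F V s t * nq ψ s := by
  unfold nq F
  rw [lin_rep h s t, lin_rep h s (t - 1)]
  nlinarith [sq_nonneg (T V t (s - 1) * ψ (s - 1) + T V t s * ψ s),
    sq_nonneg (T V (t - 1) (s - 1) * ψ (s - 1) + T V (t - 1) s * ψ s)]
theorem F_symm (V : Seq) (s t : ℤ) : F V s t = F V t s := by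
  unfold F T; ring
theorem F_tri (V : Seq) (s r t : ℤ) : F V s t ≤ F V s r * F V r t := by
  obtain ⟨φ, h1, a, b⟩ := exists_sol V s 1 0
  obtain ⟨ψ, h2, c, d⟩ := exists_sol V s 0 1
  rw [lin_F_eq h1 h2 a b c d t, lin_F_eq h1 h2 a b c d r]
  linarith [nq_le_F h1 r t, nq_le_F h2 r t]
theorem two_le_F (V : Seq) (s t : ℤ) : 2 ≤ F V s t := by
  obtain ⟨φ, h1, a, b⟩ := exists_sol V s 1 0
  obtain ⟨ψ, h2, c, d⟩ := exists_sol V s 0 1
  have h := Wr_const h1 h2 t s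
  rw [lin_F_eq h1 h2 a b c d t]
  simp only [Wr, a, b, c, d] at h
  unfold nq
  nlinarith [sq_nonneg (φ t - ψ (t - 1)), sq_nonneg (φ (t - 1) + ψ t)]
theorem F_succ (V : Seq) (j : ℤ) : F V j (j + 1) = V j ^ 2 + 2 := by
  obtain ⟨φ, h1, a, b⟩ := exists_sol V j 1 0
  obtain ⟨ψ, h2, c, d⟩ := exists_sol V j 0 1
  have e1 := h1 j
  have e2 := h2 j
  rw [a, b, add_zero, mul_one] at e1
  rw [c, d, mul_zero, add_eq_zero_iff_eq_neg] at e2
  rw [lin_F_eq h1 h2 a b c d]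
  simp only [nq, add_sub_cancel_right, a, c, e1, e2]
  ring
/-- The value of F from the two basis solutions at time s. -/
theorem F_eq {V φ ψ : Seq} (h1 : IsSol V φ) (h2 : IsSol V ψ) {s : ℤ} (a : φ s = 1)
    (b : φ (s - 1) = 0) (c : ψ s = 0) (d : ψ (s - 1) = 1) (t : ℤ) :
    F V s t = nq φ t + nq ψ t := by
  exact lin_F_eq h1 h2 a b c d t
theorem F_sh (c : ℤ) (V : Seq) (s t : ℤ) : F (sh c V) s t = F V (s + c) (t + c) := by
  obtain ⟨φ, h1, a, b⟩ := exists_sol V (s + c) 1 0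
  obtain ⟨ψ, h2, e, d⟩ := exists_sol V (s + c) 0 1
  rw [show s + c - 1 = s - 1 + c by ring] at b d
  rw [F_eq (h1.sh c) (h2.sh c) a b e d, nq_sh, nq_sh,
    F_eq h1 h2 a (by rwa [show s + c - 1 = s - 1 + c by ring]) e
      (by rwa [show s + c - 1 = s - 1 + c by ring])]
theorem F_rf (V : Seq) (s t : ℤ) : F (rf V) s t = F V (-s) (-t) := by
  obtain ⟨φ, h1, a, b⟩ := exists_sol V (-s) 1 0
  obtain ⟨ψ, h2, e, d⟩ := exists_sol V (-s) 0 1
  have r1 : -1 - s = -s - 1 := by ring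
  have r2 : -1 - (s - 1) = -s := by ring
  rw [F_eq h2.rf h1.rf (by simp only [rf, r1, d]) (by simp only [rf, r2, e])
    (by simp only [rf, r1, b]) (by simp only [rf, r2, a]), nq_rf, nq_rf, F_eq h1 h2 a b e d,
    add_comm]
theorem F_le_pow {K : ℝ} {V : Seq} (h : Bdd K V) (s : ℤ) {n : ℕ} (hn : 1 ≤ n) :
    F V s (s + n) ≤ K ^ (2 * n) := by
  induction n, hn using Nat.le_induction with
  | base => simpa [F_succ] using h s
  | succ n _ ih =>
    refine (F_tri V s (s + n) _).trans ?_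
    rw [Nat.cast_succ, ← add_assoc, F_succ, show 2 * (n + 1) = 2 * n + 2 by ring, pow_add]
    exact mul_le_mul ih (h _) (by positivity) (by rw [pow_mul]; positivity)
theorem nq_add_le {K : ℝ} {V ψ : Seq} (h : Bdd K V) (hψ : IsSol V ψ) (s : ℤ) (n : ℕ) :
    nq ψ (s + n) ≤ K ^ (2 * n) * nq ψ s ∧ nq ψ s ≤ K ^ (2 * n) * nq ψ (s + n) := by
  rcases Nat.eq_zero_or_pos n with rfl | hn
  · simp
  · have h1 := F_le_pow h s hn
    refine ⟨(nq_le_F hψ s _).trans (mul_le_mul_of_nonneg_right h1 (nq_nonneg _ _)),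
      (nq_le_F hψ (s + n) s).trans (mul_le_mul_of_nonneg_right ?_ (nq_nonneg _ _))⟩
    rwa [F_symm]
/-- One of the two basis solutions at time s expands almost maximally. -/
theorem exists_exp (V : Seq) (s t : ℤ) : ∃ (φ : Seq) (p : ℤ), (p = s ∨ p = s - 1) ∧ IsSol V φ ∧
    φ p = 0 ∧ nq φ s = 1 ∧ F V s t ≤ 2 * nq φ t := by
  obtain ⟨φ, h1, a, b⟩ := exists_sol V s 1 0
  obtain ⟨ψ, h2, c, d⟩ := exists_sol V s 0 1
  have h := F_eq h1 h2 a b c d t
  rcases le_total (nq φ t) (nq ψ t) with h3 | h3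
  · exact ⟨ψ, s, Or.inl rfl, h2, c, by simp [nq, c, d], by linarith⟩
  · exact ⟨φ, s - 1, Or.inr rfl, h1, b, by simp [nq, a, b], by linarith⟩
theorem decomp {V v w : Seq} (hv : IsSol V v) (hw : IsSol V w) {q : ℤ} (h : nq w q = 1) (j : ℤ) :
    √(nq v j) ≤ √(nq v q) * √(nq w j) + |Wr v w q| * √(F V q j) := by
  obtain ⟨u, hu, a, b⟩ := exists_sol V q (-w (q - 1)) (w q)
  have h' : w q ^ 2 + w (q - 1) ^ 2 = 1 := h
  have e : v = fun j => (v q * w q + v (q - 1) * w (q - 1)) * w j + (-Wr v w q) * u j := by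
    refine hv.ext (hw.lin hu _ _) (s := q) ?_ ?_
    · simp only [a, Wr]
      linear_combination (-v q) * h'
    · simp only [b, Wr]
      linear_combination (-v (q - 1)) * h'
  have h1 : |v q * w q + v (q - 1) * w (q - 1)| ≤ √(nq v q) := by
    refine Real.abs_le_sqrt ?_
    have : nq v q = (v q ^ 2 + v (q - 1) ^ 2) * (w q ^ 2 + w (q - 1) ^ 2) := by
      rw [h', mul_one]; rfl
    rw [this]
    nlinarith [sq_nonneg (v q * w (q - 1) - v (q - 1) * w q)]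
  have h2 : √(nq u j) ≤ √(F V q j) := by
    refine Real.sqrt_le_sqrt ?_
    have h3 := nq_le_F hu q j
    have h4 : nq u q = 1 := by rw [nq, a, b]; linarith
    rwa [h4, mul_one] at h3
  have h5 := lin_mink ((v q * w q + v (q - 1) * w (q - 1)) * w j)
    ((v q * w q + v (q - 1) * w (q - 1)) * w (j - 1)) (-Wr v w q * u j) (-Wr v w q * u (j - 1))
  rw [lin_sqrt_smul, lin_sqrt_smul, abs_neg, ← congrFun e j, ← congrFun e (j - 1)] at h5
  exact h5.trans (add_le_add (mul_le_mul_of_nonneg_right h1 (Real.sqrt_nonneg _))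
    (mul_le_mul_of_nonneg_left h2 (abs_nonneg _)))

theorem lin_F_pos (V : Seq) (s t : ℤ) : 0 < F V s t := by linarith [two_le_F V s t]

theorem lin_log_tri (V : Seq) (s r t : ℤ) :
    Real.log (F V s t) ≤ Real.log (F V s r) + Real.log (F V r t) := by
  rw [← Real.log_mul (lin_F_pos _ _ _).ne' (lin_F_pos _ _ _).ne']
  exact Real.log_le_log (lin_F_pos _ _ _) (F_tri V s r t)

theorem lin_log_F {K : ℝ} (hK : 1 < K) {V : Seq} (h : Bdd K V) {s t : ℤ} (hst : s < t) :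
    Real.log (F V s t) ≤ (t - s) * (2 * Real.log K) := by
  have _ := hK
  obtain ⟨n, rfl⟩ := Int.le.dest hst.le
  have h1 := Real.log_le_log (lin_F_pos _ _ _) (F_le_pow h s (n := n) (by omega))
  rw [Real.log_pow] at h1
  push_cast at h1 ⊢
  linarith

theorem Ls_sh (K : ℝ) (c : ℤ) (V : Seq) (s t : ℤ) :
    Ls K (sh c V) s t = Ls K V (s + c) (t + c) := by
  simp only [Ls, F_sh]
  push_cast
  ring
theorem Ls_rf (K : ℝ) (V : Seq) (s t : ℤ) : Ls K (rf V) s t = Ls K V (-t) (-s) := by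
  simp only [Ls, F_rf, F_symm V (-s)]
  push_cast
  ring
theorem RB_iff (K θ : ℝ) (R : ℕ) (V : Seq) : RB K θ R V ↔ LB K θ R (rf V) := by
  simp only [RB, LB, Ls_rf, neg_zero, neg_neg]
theorem Wd_rf (K θ : ℝ) (d : ℕ) (V : Seq) : Wd K θ d (rf V) ↔ Wd K θ d V := by
  have key : ∀ V : Seq, Wd K θ d V → Wd K θ d (rf V) := by
    rintro V ⟨ψ, h1, h2, h3, h4⟩
    exact ⟨rf ψ, h1.rf, by rw [nq_rf, neg_zero, h2], by rwa [nq_rf, neg_neg], by rwa [nq_rf]⟩
  exact ⟨fun h => by simpa using key _ h, key V⟩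
theorem Wd.mono {K θ θ' : ℝ} (hK : 1 ≤ K) (h : θ ≤ θ') {d : ℕ} {V : Seq} (hW : Wd K θ d V) :
    Wd K θ' d V := by
  obtain ⟨ψ, h1, h2, h3, h4⟩ := hW
  have h5 : K ^ (-(2 * (1 - θ) * d)) ≤ K ^ (-(2 * (1 - θ') * d)) :=
    Real.rpow_le_rpow_of_exponent_le hK (by nlinarith [Nat.cast_nonneg (α := ℝ) d])
  exact ⟨ψ, h1, h2, h3.trans h5, h4.trans h5⟩
theorem LG_of_not_LB {K θ : ℝ} {R N : ℕ} {V : Seq} (h : ¬ LB K θ R V) (hN : N ≤ R) :
    LG K θ N V := by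
  intro i h1 h2
  by_contra h3
  exact h ⟨i, h1, h2.trans hN, (not_le.1 h3).le⟩
theorem Ls_le {K : ℝ} (hK : 1 < K) (V : Seq) (s t : ℤ) : Ls K V s t ≤ t - s := by
  have h1 := Real.log_pos hK
  have h2 := Real.log_nonneg (show 1 ≤ F V s t by linarith [two_le_F V s t])
  have h3 : 0 ≤ Real.log (F V s t) / (2 * Real.log K) := by positivity
  unfold Ls
  linarith
theorem Ls_nonneg {K : ℝ} (hK : 1 < K) {V : Seq} (h : Bdd K V) {s t : ℤ} (hst : s < t) :
    0 ≤ Ls K V s t := by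
  have h1 := Real.log_pos hK
  have h2 := lin_log_F hK h hst
  unfold Ls
  rw [sub_nonneg, div_le_iff₀ (by positivity)]
  linarith
theorem Ls_ext_left {K : ℝ} (hK : 1 < K) {V : Seq} (h : Bdd K V) {s r : ℤ} (hsr : s ≤ r) (t : ℤ) :
    Ls K V s t ≤ Ls K V r t + 2 * (r - s) := by
  rcases hsr.eq_or_lt with rfl | hlt
  · simp
  · have h1 := Real.log_pos hK
    have h2 := lin_log_F hK h hlt
    have h3 := lin_log_tri V r s t
    rw [F_symm V r s] at h3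
    have h4 : Real.log (F V r t) / (2 * Real.log K) ≤
        Real.log (F V s t) / (2 * Real.log K) + (r - s) := by
      rw [div_add' _ _ _ (by positivity)]
      exact div_le_div_of_nonneg_right (by linarith) (by positivity)
    unfold Ls
    linarith
theorem Ls_ext_right {K : ℝ} (hK : 1 < K) {V : Seq} (h : Bdd K V) (s : ℤ) {r t : ℤ} (hrt : r ≤ t) :
    Ls K V s t ≤ Ls K V s r + 2 * (t - r) := by
  rcases hrt.eq_or_lt with rfl | hlt
  · simp
  · have h1 := Real.log_pos hK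
    have h2 := lin_log_F hK h hlt
    have h3 := lin_log_tri V s t r
    rw [F_symm V t r] at h3
    have h4 : Real.log (F V s r) / (2 * Real.log K) ≤
        Real.log (F V s t) / (2 * Real.log K) + (t - r) := by
      rw [div_add' _ _ _ (by positivity)]
      exact div_le_div_of_nonneg_right (by linarith) (by positivity)
    unfold Ls
    linarith
/-- Translation between loss and norm. -/
theorem Ls_le_iff {K : ℝ} (hK : 1 < K) (V : Seq) (s t : ℤ) (x : ℝ) :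
    Ls K V s t ≤ x ↔ K ^ (2 * ((t - s : ℝ) - x)) ≤ F V s t := by
  have h1 := Real.log_pos hK
  rw [Real.rpow_le_iff_le_log (by linarith) (lin_F_pos V s t), Ls, sub_le_comm,
    le_div_iff₀ (by positivity)]
  constructor <;> intro h <;> linarith

theorem lin_abs_Wr {φ ψ : Seq} {j : ℤ} {x y : ℝ} (hx : 0 ≤ x) (hy : 0 ≤ y) (h1 : nq φ j ≤ x ^ 2)
    (h2 : nq ψ j ≤ y ^ 2) : |Wr φ ψ j| ≤ x * y := by
  refine abs_le_of_sq_le_sq ((sq_Wr_le φ ψ j).trans ?_) (mul_nonneg hx hy)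
  rw [mul_pow]
  exact mul_le_mul h1 h2 (nq_nonneg _ _) (sq_nonneg _)

theorem lin_wedge {a b c : Seq} {B : ℝ} (hB : 0 ≤ B) (ha : nq a 0 = 1) (hb : nq b 0 = 1)
    (hc : nq c 0 ≤ B ^ 2) : |Wr a c 0| ≤ |Wr a b 0| * B + |Wr b c 0| := by
  have e : Wr a c 0 = Wr a b 0 * (b 0 * c 0 + b (0 - 1) * c (0 - 1)) +
      Wr b c 0 * (a 0 * b 0 + a (0 - 1) * b (0 - 1)) := by
    unfold nq at hb
    unfold Wr
    linear_combination (-(a 0 * c (0 - 1) - a (0 - 1) * c 0)) * hb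
  have h1 : |b 0 * c 0 + b (0 - 1) * c (0 - 1)| ≤ B := by
    refine abs_le_of_sq_le_sq (le_trans ?_ hc) hB
    have : nq c 0 = nq b 0 * nq c 0 := by rw [hb, one_mul]
    rw [this]
    unfold nq
    nlinarith [sq_nonneg (b 0 * c (0 - 1) - b (0 - 1) * c 0)]
  have h2 : |a 0 * b 0 + a (0 - 1) * b (0 - 1)| ≤ 1 := by
    unfold nq at ha hb
    rw [abs_le]
    constructor <;> nlinarith [sq_nonneg (a 0 - b 0), sq_nonneg (a (0 - 1) - b (0 - 1)),
      sq_nonneg (a 0 + b 0), sq_nonneg (a (0 - 1) + b (0 - 1))]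
  rw [e]
  refine (abs_add_le _ _).trans ?_
  rw [abs_mul, abs_mul]
  exact add_le_add (mul_le_mul_of_nonneg_left h1 (abs_nonneg _))
    (mul_le_of_le_one_right (abs_nonneg _) h2)

theorem lin_unit (V : Seq) (s : ℤ) {a : ℝ} (h : 1 ≤ F V s 0 * a ^ 2) :
    ∃ φ, IsSol V φ ∧ nq φ 0 = 1 ∧ nq φ s ≤ (3 / 2 * a) ^ 2 := by
  obtain ⟨φ, -, -, h1, -, h2, h3⟩ := exists_exp V s 0
  have h4 : 0 < nq φ 0 := by linarith [lin_F_pos V s 0]
  have h5 : ∀ j, nq (fun j => (√(nq φ 0))⁻¹ * φ j) j = (nq φ 0)⁻¹ * nq φ j := fun j => by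
    simp only [nq, mul_pow, inv_pow]
    rw [Real.sq_sqrt (by positivity)]
    ring
  refine ⟨_, h1.smul (√(nq φ 0))⁻¹, by rw [h5, inv_mul_cancel₀ h4.ne'], ?_⟩
  rw [h5, h2, mul_one, inv_le_iff_one_le_mul₀ h4]
  nlinarith [mul_le_mul_of_nonneg_right h3 (sq_nonneg a), mul_nonneg h4.le (sq_nonneg a)]

/-- The decay lemma. -/
theorem decay {K θ B : ℝ} (hK : 2 ≤ K) (hθ : 0 ≤ θ) (hθ' : θ ≤ 1 / 10) {V v : Seq} (hV : Bdd K V)
    {m : ℕ} (hL : LG K θ m V) (hv : IsSol V v) (h0 : nq v 0 ≤ B ^ 2)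
    (hm : nq v (-m) * F V (-m) 0 ≤ 2 * B ^ 2) {i : ℕ} (h1 : 1 ≤ i) (hi : i ≤ m) :
    nq v (-i) ≤ 100 * B ^ 2 * K ^ (2 * θ - 2 * (1 - 2 * θ) * i) := by
  have K0 : 0 < K := by linarith
  have K1 : 1 < K := by linarith
  obtain ⟨w, hw⟩ : ∃ w, w = K ^ (-(1 - θ)) := ⟨_, rfl⟩
  obtain ⟨u, hu⟩ : ∃ u, u = K ^ θ := ⟨_, rfl⟩
  have w0 : 0 < w := by rw [hw]; positivity
  have u1 : 1 ≤ u := by rw [hu]; exact Real.one_le_rpow K1.le hθ
  have huw : K * w = u := by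
    rw [hw, hu, mul_comm, ← Real.rpow_add_one K0.ne']
    congr 1
    ring
  have w2 : w ^ 2 ≤ 1 / 2 := by
    rw [hw, ← Real.rpow_natCast, ← Real.rpow_mul K0.le]
    refine (Real.rpow_le_rpow_of_exponent_le K1.le (z := -1) (by push_cast; linarith)).trans ?_
    rw [Real.rpow_neg_one, one_div]
    exact inv_anti₀ (by norm_num) hK
  have hF : ∀ i : ℕ, 1 ≤ i → i ≤ m → 1 ≤ F V (-i) 0 * (w ^ i) ^ 2 := by
    intro i h1 hi
    have h2 := (Ls_le_iff K1 V _ _ _).1 (hL i h1 hi)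
    refine le_trans (le_of_eq ?_) (mul_le_mul_of_nonneg_right h2 (sq_nonneg _))
    rw [hw, ← pow_mul, ← Real.rpow_natCast, ← Real.rpow_mul K0.le, ← Real.rpow_add K0]
    refine (Real.rpow_zero K).symm.trans ?_
    congr 1
    push_cast
    ring
  have hS := fun (i : ℕ) (h : 1 ≤ i ∧ i ≤ m) => lin_unit V (-i) (hF i h.1 h.2)
  choose! s s1 s2 s3 using hS
  have hB := abs_nonneg B
  rw [← sq_abs B] at h0 hm ⊢
  generalize |B| = b at hB h0 hm ⊢
  have key : ∀ i : ℕ, i ≤ m → 1 ≤ i → |Wr (s i) v 0| ≤ 6 * b * u * (w ^ i) ^ 2 := by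
    intro i hi
    induction hi using Nat.decreasingInduction with
    | self =>
      intro h1
      have h2 : nq v (-m) ≤ (3 / 2 * b * w ^ m) ^ 2 := by
        have h3 := mul_le_mul_of_nonneg_left (hF m h1 le_rfl) (nq_nonneg v (-m))
        have h4 := mul_le_mul_of_nonneg_right hm (sq_nonneg (w ^ m))
        nlinarith [sq_nonneg (b * w ^ m)]
      have h5 := lin_abs_Wr (by positivity) (by positivity) (s3 m ⟨h1, le_rfl⟩) h2
      rw [Wr_const (s1 m ⟨h1, le_rfl⟩) hv _ 0] at h5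
      have h6 : 0 ≤ b * (w ^ m) ^ 2 := by positivity
      nlinarith [mul_le_mul_of_nonneg_left u1 h6]
    | of_succ i hlt ih =>
      intro h1
      have j1 : 1 ≤ i ∧ i ≤ m := ⟨h1, hlt.le⟩
      have j2 : 1 ≤ i + 1 ∧ i + 1 ≤ m := ⟨by omega, hlt⟩
      have h2 : nq (s (i + 1)) (-i) ≤ (3 / 2 * u * w ^ i) ^ 2 := by
        have h3 := (nq_add_le hV (s1 _ j2) (-((i + 1 : ℕ) : ℤ)) 1).1
        rw [show -((i + 1 : ℕ) : ℤ) + (1 : ℕ) = -i by push_cast; ring] at h3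
        refine h3.trans ((mul_le_mul_of_nonneg_left (s3 _ j2) (by positivity)).trans (le_of_eq ?_))
        rw [← huw]
        ring
      have h5 := lin_abs_Wr (by positivity) (by positivity) (s3 i j1) h2
      rw [Wr_const (s1 i j1) (s1 _ j2) _ 0] at h5
      have h6 := lin_wedge hB (s2 i j1) (s2 _ j2) h0
      have h7 := ih j2.1
      have h8 : 0 ≤ b * u * (w ^ i) ^ 2 := by positivity
      have h9 := mul_le_mul_of_nonneg_right h5 hB
      have h10 := mul_le_mul_of_nonneg_left w2 h8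
      rw [pow_succ w i, mul_pow] at h7
      nlinarith
  have d1 := decomp hv (s1 i ⟨h1, hi⟩) (s2 i ⟨h1, hi⟩) (-i)
  have d2 : |Wr v (s i) 0| = |Wr (s i) v 0| := by
    rw [← abs_neg]; congr 1; unfold Wr; ring
  have d3 : √(nq v 0) ≤ b := Real.sqrt_le_iff.2 ⟨hB, h0⟩
  have d4 : √(nq (s i) (-i)) ≤ 3 / 2 * w ^ i := Real.sqrt_le_iff.2 ⟨by positivity, s3 i ⟨h1, hi⟩⟩
  have d5 : √(F V 0 (-i)) ≤ K ^ i := by
    refine Real.sqrt_le_iff.2 ⟨by positivity, ?_⟩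
    have := F_le_pow hV (-i) h1
    rwa [neg_add_cancel, F_symm, mul_comm, pow_mul] at this
  have d6 := mul_le_mul d3 d4 (Real.sqrt_nonneg _) hB
  have d7 := mul_le_mul (d2.le.trans (key i hi h1)) d5 (Real.sqrt_nonneg _) (by positivity)
  have d8 : w ^ i ≤ u * (w ^ i) ^ 2 * K ^ i := by
    have e : u * (w ^ i) ^ 2 * K ^ i = w ^ i * (u * u ^ i) := by rw [← huw]; ring
    rw [e]
    exact le_mul_of_one_le_right (by positivity) (one_le_mul_of_one_le_of_one_le u1 (one_le_pow₀ u1))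
  have d9 : √(nq v (-i)) ≤ 10 * b * (u * (w ^ i) ^ 2 * K ^ i) := by
    have := mul_le_mul_of_nonneg_left d8 hB
    have h3 : 0 ≤ b * (u * (w ^ i) ^ 2 * K ^ i) := by positivity
    linarith
  have d10 : K ^ (2 * θ - 2 * (1 - 2 * θ) * i) = (u * (w ^ i) ^ 2 * K ^ i) ^ 2 := by
    rw [hu, hw, ← pow_mul, ← Real.rpow_natCast (K ^ (-(1 - θ))), ← Real.rpow_mul K0.le,
      ← Real.rpow_natCast K i, ← Real.rpow_add K0, ← Real.rpow_add K0, ← Real.rpow_natCast,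
      ← Real.rpow_mul K0.le]
    congr 1
    push_cast
    ring
  have d11 := (Real.sqrt_le_iff.1 d9).2
  rw [d10]
  linarith
/-- No critical site: small loss. -/
theorem noncrit {K θ : ℝ} (hK : 1 < K) (hθ : θ ≤ 1 / 4) (h2 : 2 ≤ K ^ θ) {V : Seq} {s t : ℤ}
    (hst : s < t) (h : ∀ j, s ≤ j → j < t → K ^ (1 - θ) ≤ |V j|) :
    Ls K V s t ≤ 2 * θ * (t - s) := by
  have K0 : 0 < K := by linarith
  obtain ⟨g, hg⟩ : ∃ g, g = K ^ (1 - 2 * θ) := ⟨_, rfl⟩
  have g1 : 1 ≤ g := by rw [hg]; exact Real.one_le_rpow hK.le (by linarith)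
  have g2 : g + 1 ≤ K ^ (1 - θ) := by
    rw [show 1 - θ = θ + (1 - 2 * θ) by ring, Real.rpow_add K0, ← hg]
    nlinarith
  obtain ⟨φ, h1, a, b⟩ := exists_sol V s 1 0
  have key : ∀ n : ℕ, s + n ≤ t → g ^ n ≤ |φ (s + n)| ∧ |φ (s + n - 1)| ≤ |φ (s + n)| := by
    intro n
    induction n with
    | zero => intro _; simp [a, b]
    | succ n ih =>
      intro hn
      push_cast at hn ⊢
      obtain ⟨i1, i2⟩ := ih (by omega)
      have e := h1 (s + n)
      have h3 := h (s + n) (by omega) (by omega)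
      have h4 : |V (s + n)| * |φ (s + n)| ≤ |φ (s + n + 1)| + |φ (s + n - 1)| := by
        rw [← abs_mul, ← e]; exact abs_add_le _ _
      have h5 := mul_le_mul_of_nonneg_right (g2.trans h3) (abs_nonneg (φ (s + n)))
      have h6 := mul_le_mul_of_nonneg_left i1 (zero_le_one.trans g1)
      have h7 := mul_le_mul_of_nonneg_right g1 (abs_nonneg (φ (s + n)))
      rw [← add_assoc, add_sub_cancel_right, pow_succ]
      constructor <;> linarith
  obtain ⟨n, rfl⟩ := Int.le.dest hst.le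
  rw [Ls_le_iff hK]
  have h8 := nq_le_F h1 s (s + n)
  have h9 : nq φ s = 1 := by simp [nq, a, b]
  have h10 := pow_le_pow_left₀ (by positivity) (key n le_rfl).1 2
  rw [sq_abs] at h10
  have h11 : K ^ (2 * ((((s + n : ℤ) : ℝ) - s) - 2 * θ * (((s + n : ℤ) : ℝ) - s))) =
      (g ^ n) ^ 2 := by
    rw [hg, ← pow_mul, ← Real.rpow_natCast, ← Real.rpow_mul K0.le]
    congr 1
    push_cast
    ring
  rw [h11]
  rw [h9, mul_one, nq] at h8
  linarith [sq_nonneg (φ (s + n - 1))]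
theorem lin_half {K : ℝ} (hK : 1000 ≤ K) {V : Seq} (hV : Bdd K V) {m : ℕ} (hm : 1 ≤ m)
    (hL : LG K (1 / 10) m V) : ∃ v, IsSol V v ∧ nq v (-m) = 1 ∧ F V (-m) 0 ≤ 2 * nq v 0 ∧
      v (-1) ^ 2 ≤ nq v 0 / 10 := by
  obtain ⟨v, -, -, h1, -, h2, h3⟩ := exists_exp V (-m) 0
  refine ⟨v, h1, h2, h3, ?_⟩
  have e := Real.sq_sqrt (nq_nonneg v 0)
  have h4 := decay (B := √(nq v 0)) (by linarith) (by norm_num) le_rfl hV hL h1 e.ge
    (by rw [h2, e]; linarith) le_rfl hm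
  rw [e] at h4
  have h5 : K ^ (2 * (1 / 10 : ℝ) - 2 * (1 - 2 * (1 / 10)) * ((1 : ℕ) : ℝ)) ≤ 1 / 1000 := by
    refine (Real.rpow_le_rpow_of_exponent_le (by linarith) (z := -1) (by norm_num)).trans ?_
    rw [Real.rpow_neg_one, one_div]
    exact inv_anti₀ (by norm_num) hK
  have h6 := mul_le_mul_of_nonneg_left h5 (mul_nonneg (by norm_num : (0 : ℝ) ≤ 100) (nq_nonneg v 0))
  have h7 : v (-1) ^ 2 ≤ nq v (-((1 : ℕ) : ℤ)) := by
    simp only [nq, Nat.cast_one]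
    linarith [sq_nonneg (v (-1 - 1))]
  exact h7.trans (h4.trans (h6.trans (le_of_eq (by ring))))
/-- Splitting at a perfect time. -/
theorem split : ∃ K0 : ℝ, ∀ K, K0 ≤ K → ∀ V, Bdd K V → ∀ m n : ℕ, 1 ≤ m → 1 ≤ n →
    LG K (1 / 10) m V → LG K (1 / 10) n (rf V) →
    Ls K V (-m) n ≤ Ls K V (-m) 0 + Ls K V 0 n + 5 / Real.log K := by
  refine ⟨1000, fun K hK V hV m n hm hn h1 h2 => ?_⟩
  obtain ⟨v, a1, a2, a3, a4⟩ := lin_half hK hV hm h1
  obtain ⟨w, b1, b2, b3, b4⟩ := lin_half hK hV.rf hn h2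
  have b5 : IsSol V (rf w) := by simpa using b1.rf
  rw [F_rf, neg_neg, neg_zero, F_symm] at b3
  have c1 := sq_Wr_le v (rf w) n
  rw [nq_rf, b2, mul_one, Wr_const a1 b5 n 0] at c1
  have c2 := nq_le_F a1 (-m) n
  rw [a2, mul_one] at c2
  have c3 : nq v 0 * nq w 0 / 4 ≤ Wr v (rf w) 0 ^ 2 := by
    have e1 : Wr v (rf w) 0 = v 0 * w 0 - v (-1) * w (-1) := by simp [Wr, rf]
    have e2 : v 0 ^ 2 = nq v 0 - v (-1) ^ 2 := by simp [nq]
    have e3 : w 0 ^ 2 = nq w 0 - w (-1) ^ 2 := by simp [nq]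
    have p1 := nq_nonneg v 0
    have p2 := nq_nonneg w 0
    have d1 : 9 / 10 * nq v 0 * (9 / 10 * nq w 0) ≤ v 0 ^ 2 * w 0 ^ 2 :=
      mul_le_mul (by linarith) (by linarith) (by positivity) (sq_nonneg _)
    have d2 : v (-1) ^ 2 * w (-1) ^ 2 ≤ nq v 0 / 10 * (nq w 0 / 10) :=
      mul_le_mul a4 b4 (sq_nonneg _) (by positivity)
    have d3 := mul_nonneg p1 p2
    rw [e1]
    nlinarith [sq_nonneg (v 0 * w 0 - 2 * (v (-1) * w (-1)))]
  have c4 : F V (-m) 0 * F V 0 n ≤ 2 ^ 4 * F V (-m) n := by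
    have := mul_le_mul a3 b3 (lin_F_pos _ _ _).le (by linarith [nq_nonneg v 0])
    linarith
  have c5 := Real.log_le_log (mul_pos (lin_F_pos _ _ _) (lin_F_pos _ _ _)) c4
  rw [Real.log_mul (lin_F_pos _ _ _).ne' (lin_F_pos _ _ _).ne',
    Real.log_mul (by norm_num) (lin_F_pos _ _ _).ne', Real.log_pow] at c5
  have c6 := Real.log_le_sub_one_of_pos (show (0 : ℝ) < 2 by norm_num)
  have c7 := Real.log_pos (show 1 < K by linarith)
  have c8 : Real.log (F V (-m) 0) / (2 * Real.log K) + Real.log (F V 0 n) / (2 * Real.log K) ≤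
      Real.log (F V (-m) n) / (2 * Real.log K) + 5 / Real.log K := by
    rw [show 5 / Real.log K = 10 / (2 * Real.log K) by field_simp; norm_num, ← add_div, ← add_div]
    refine div_le_div_of_nonneg_right ?_ (by positivity)
    push_cast at c5
    linarith
  unfold Ls
  push_cast
  linarith

end Vale.Agent.P108
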