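import Vale.Agent.P108.Lin

/-! Sliding along curves with one site fixed. -/

namespace Vale.Agent.P108

open MeasureTheory Filter
open scoped Classical

/-- Discrete Gronwall lemma, run downwards in i. -/
theorem gron {K B l : ℝ} (hK : 0 < K) (hB : 0 ≤ B) (hl : 0 ≤ l) (hl' : l ≤ 1 / 2) {e : ℕ → ℝ}
    {M j : ℕ} (hM : e M ≤ 0)
    (h : ∀ i, j ≤ i → i < M → e (i + 1) ≤ 2 * B / K ^ (i + 1) * l ^ (i + 2) →
      e i ≤ K * e (i + 1) + B / K ^ i * l ^ (i + 1)) :
    ∀ i, j ≤ i → i ≤ M → e i ≤ 2 * B / K ^ i * l ^ (i + 1) := by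
  intro i hj hi
  induction hi using Nat.decreasingInduction with
  | self => exact hM.trans (by positivity)
  | of_succ i hlt ih =>
    have h1 := ih (by omega)
    have h2 := h i hj hlt h1
    have h3 := mul_le_mul_of_nonneg_left h1 hK.le
    have h4 : K * (2 * B / K ^ (i + 1) * l ^ (i + 1 + 1)) = 2 * l * (B / K ^ i * l ^ (i + 1)) := by
      field_simp
      ring
    have h5 : 0 ≤ B / K ^ i * l ^ (i + 1) := by positivity
    have h6 := mul_le_mul_of_nonneg_right hl' h5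
    have h7 : 2 * B / K ^ i * l ^ (i + 1) = 2 * (B / K ^ i * l ^ (i + 1)) := by ring
    linarith

theorem slide_gron {K o c : ℝ} (hK : 0 < K) (hc : 0 ≤ c) (hl : K * o ^ 2 ≤ 1 / 2) {e : ℕ → ℝ}
    {M : ℕ} (hM : e M ≤ 0)
    (h : ∀ i, i < M → e (i + 1) ≤ 2 * c * (K * o ^ 2) * (o ^ (i + 1)) ^ 2 →
      e i ≤ K * e (i + 1) + c * K * (o ^ (i + 1)) ^ 2) :
    ∀ i, i ≤ M → e i ≤ 2 * c * (K * o ^ 2) * (o ^ i) ^ 2 := by
  intro i hi
  induction hi using Nat.decreasingInduction with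
  | self => exact hM.trans (by positivity)
  | of_succ i hlt ih =>
    have h2 := h i hlt ih
    have h3 := mul_le_mul_of_nonneg_left ih hK.le
    have h5 : 0 ≤ c * (K * o ^ 2) * (o ^ i) ^ 2 := by positivity
    have h6 := mul_le_mul_of_nonneg_left hl h5
    rw [pow_succ o i] at h2 h3
    nlinarith

theorem slide_step {K U : ℝ} (hK : 0 ≤ K) (hU : U ^ 2 + 2 ≤ K ^ 2) {E : Seq} {j : ℤ} {r : ℝ}
    (h : E (j + 1) + E (j - 1) = U * E j + r) : √(nq E (j + 1)) ≤ K * √(nq E j) + |r| := by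
  have h1 := lin_mink (U * E j - E (j - 1)) (E j) r 0
  have h2 : √((U * E j - E (j - 1)) ^ 2 + E j ^ 2) ≤ K * √(nq E j) := by
    refine Real.sqrt_le_iff.2 ⟨by positivity, ?_⟩
    rw [mul_pow, Real.sq_sqrt (nq_nonneg _ _)]
    refine le_trans ?_ (mul_le_mul_of_nonneg_right hU (nq_nonneg _ _))
    unfold nq
    nlinarith [sq_nonneg (E j + U * E (j - 1)), sq_nonneg (E (j - 1))]
  rw [show U * E j - E (j - 1) + r = E (j + 1) by linarith, add_zero, zero_pow two_ne_zero,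
    add_zero, Real.sqrt_sq_eq_abs] at h1
  rw [nq, add_sub_cancel_right]
  linarith

theorem slide_abs {E : Seq} {j : ℤ} {b : ℝ} (h : √(nq E j) ≤ b) : |E j| ≤ b ∧ |E (j - 1)| ≤ b :=
  ⟨(Real.abs_le_sqrt (by unfold nq; linarith [sq_nonneg (E (j - 1))])).trans h,
    (Real.abs_le_sqrt (by unfold nq; linarith [sq_nonneg (E j)])).trans h⟩

theorem slide_abs' {E : Seq} {j : ℤ} {b : ℝ} (hb : 0 ≤ b) (h : nq E j ≤ b ^ 2) :
    |E j| ≤ b ∧ |E (j - 1)| ≤ b :=
  slide_abs (Real.sqrt_le_iff.2 ⟨hb, h⟩)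

theorem slide_ev : ∀ᶠ k in atTop, 0 ≤ k ∧ 0 < om k ∧ om k ≤ 1 / 100 ∧
    KK k * om k ^ 2 ≤ 1 / 10000 ∧ ∀ i : ℕ, 1 ≤ i →
      200 * KK k ^ (2 * (1 / 20 : ℝ) - 2 * (1 - 2 * (1 / 20)) * i) ≤ (om k ^ i) ^ 2 := by
  filter_upwards [eventually_ge_atTop 0, ev_rpow 100 (a := 4 / 5) (by norm_num),
    ev_rpow 10000 (a := 3 / 5) (by norm_num), ev_rpow 200 (a := 1 / 10) (by norm_num)]
    with k hk h1 h2 h3
  have K4 := four_le_KK hk
  have K0 : 0 < KK k := by linarith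
  refine ⟨hk, Real.rpow_pos_of_pos K0 _, ?_, ?_, fun i hi => ?_⟩
  · rw [om, Real.rpow_neg K0.le, one_div]
    exact inv_anti₀ (by norm_num) h1
  · have : KK k * om k ^ 2 = (KK k ^ (3 / 5 : ℝ))⁻¹ := by
      rw [om, ← Real.rpow_natCast, ← Real.rpow_mul K0.le, mul_comm, ← Real.rpow_add_one K0.ne',
        ← Real.rpow_neg K0.le]
      norm_num
    rw [this, one_div]
    exact inv_anti₀ (by norm_num) h2
  · refine (mul_le_mul_of_nonneg_right h3 (by positivity)).trans ?_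
    rw [← Real.rpow_add K0, om, ← pow_mul, ← Real.rpow_natCast, ← Real.rpow_mul K0.le]
    refine Real.rpow_le_rpow_of_exponent_le (by linarith) ?_
    have : (1 : ℝ) ≤ i := by exact_mod_cast hi
    push_cast
    linarith

theorem slide_nq_smul (c : ℝ) (φ : Seq) (j : ℤ) : nq (fun j => c * φ j) j = c ^ 2 * nq φ j := by
  simp only [nq]; ring

theorem slide_wr {K o : ℝ} (hK : 0 < K) (ho : 0 < o) (hl : K * o ^ 2 ≤ 1 / 2) {V U φ D : Seq}
    (hφ : IsSol V φ) (hD : IsSol U D) (hU : Bdd K U) {N : ℕ}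
    (h1 : ∀ i : ℕ, 1 ≤ i → i ≤ N → |φ (-i)| ≤ o ^ i)
    (h2 : ∀ i : ℕ, 1 ≤ i → i ≤ N → |U (-i) - V (-i)| ≤ 7 * K * (9 * o ^ i)) :
    |Wr φ D 0 - Wr φ D (-N)| ≤ 126 * (K * o ^ 2) * (|D 0| + |D (-1)|) := by
  obtain ⟨S, hS⟩ : ∃ S, S = |D 0| + |D (-1)| := ⟨_, rfl⟩
  have S0 : 0 ≤ S := by rw [hS]; positivity
  have hq : nq D 0 ≤ S ^ 2 := by
    rw [hS, nq, zero_sub, ← sq_abs (D 0), ← sq_abs (D (-1))]
    nlinarith [abs_nonneg (D 0), abs_nonneg (D (-1))]
  have key : ∀ n : ℕ, n ≤ N → |Wr φ D 0 - Wr φ D (-n)| ≤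
      126 * (K * o ^ 2) * S - 126 * (K * o ^ 2) ^ (n + 1) * S := by
    intro n
    induction n with
    | zero => intro _; simp
    | succ n ih =>
      intro hn
      have i1 := ih (by omega)
      have a1 := h1 (n + 1) (by omega) hn
      have a2 := h2 (n + 1) (by omega) hn
      have e : -((n + 1 : ℕ) : ℤ) = -n - 1 := by push_cast; ring
      rw [e] at a1 a2 ⊢
      have a3 : |D (-n - 1)| ≤ K ^ n * S := by
        refine (slide_abs' (by positivity) ?_).2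
        have := (nq_add_le hU hD (-n) n).2
        rw [neg_add_cancel] at this
        refine this.trans ?_
        rw [mul_pow, ← pow_mul, mul_comm n 2]
        exact mul_le_mul_of_nonneg_left hq (by positivity)
      have a4 : Wr φ D (-n) - Wr φ D (-n - 1) =
          -(φ (-n - 1) * (U (-n - 1) - V (-n - 1)) * D (-n - 1)) := by
        have b1 := hφ (-n - 1)
        have b2 := hD (-n - 1)
        rw [sub_add_cancel] at b1 b2
        unfold Wr
        linear_combination D (-n - 1) * b1 - φ (-n - 1) * b2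
      have a5 : |Wr φ D (-n) - Wr φ D (-n - 1)| ≤ 63 * (K * o ^ 2) ^ (n + 1) * S := by
        rw [a4, abs_neg, abs_mul, abs_mul]
        refine (mul_le_mul (mul_le_mul a1 a2 (abs_nonneg _) (by positivity)) a3 (abs_nonneg _)
          (by positivity)).trans (le_of_eq ?_)
        ring
      have a6 := abs_sub_le (Wr φ D 0) (Wr φ D (-n)) (Wr φ D (-n - 1))
      have a7 : 0 ≤ (K * o ^ 2) ^ (n + 1) * S := by positivity
      have a8 := mul_le_mul_of_nonneg_left hl a7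
      rw [pow_succ _ (n + 1)]
      nlinarith
  have := key N le_rfl
  have a7 : 0 ≤ (K * o ^ 2) ^ (N + 1) * S := by positivity
  rw [← hS]
  linarith

theorem slide_mean {k : ℝ} (hk : 0 ≤ k) {a b : Seq} (ha : IsOrb k a) (hb : IsOrb k b) (x : Seq) :
    ∃ U : Seq, IsSol U (fun j => a j - b j) ∧ Bdd (KK k) U ∧
      ∀ j w, |a j - x j| ≤ w → |b j - x j| ≤ w → |U j - Vs k x j| ≤ 7 * KK k * w := by
  have K4 := four_le_KK hk
  choose U h1 h2 h3 using fun j => exists_mean hk (x := a j) (x' := b j) (y := x j)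
    (le_max_left _ |b j - x j|) (le_max_right _ _)
  refine ⟨U, fun j => by linear_combination ha j - hb j + h1 j, fun j => ?_,
    fun j w c1 c2 => (h2 j).trans (mul_le_mul_of_nonneg_left (max_le c1 c2) (by linarith))⟩
  have := pow_le_pow_left₀ (abs_nonneg _) (h3 j) 2
  rw [sq_abs] at this
  nlinarith

theorem lg_good : ∀ᶠ k in atTop, ∀ (N : ℕ) (V : Seq), 1 ≤ N → Bdd (KK k) V →
    LG (KK k) (1 / 20) N V → ∃ p, GoodL k N p V := by
  filter_upwards [slide_ev] with k ⟨hk, o0, o1, _, hd⟩ N V hN hV hL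
  have K4 := four_le_KK hk
  obtain ⟨φ, p, hp, h1, h2, h3, h4⟩ := exists_exp V (-N) 0
  have e := Real.sq_sqrt (nq_nonneg φ 0)
  have q0 : 0 < nq φ 0 := by linarith [two_le_F V (-N) 0]
  have key : ∀ i : ℕ, 1 ≤ i → i ≤ N → nq φ (-i) ≤ nq φ 0 / 2 * (om k ^ i) ^ 2 := by
    intro i a b
    have h5 := decay (B := √(nq φ 0)) (by linarith) (by norm_num) (by norm_num) hV hL h1 e.ge
      (by rw [h3, e]; linarith) a b
    rw [e] at h5
    have h6 := mul_le_mul_of_nonneg_left (hd i a) q0.le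
    linarith
  have h5 : nq φ 0 / 2 ≤ φ 0 ^ 2 := by
    have h6 := key 1 le_rfl hN
    have h7 : (om k ^ 1) ^ 2 ≤ 1 := pow_le_one₀ (by positivity) (by linarith)
    have h8 := mul_le_mul_of_nonneg_left h7 (by linarith : 0 ≤ nq φ 0 / 2)
    have h9 : nq φ 0 = φ 0 ^ 2 + φ (-1) ^ 2 := by simp [nq]
    have h10 : φ (-1) ^ 2 ≤ nq φ (-((1 : ℕ) : ℤ)) := by
      simp only [nq, Nat.cast_one]
      linarith [sq_nonneg (φ (-1 - 1))]
    have h11 := h10.trans (h6.trans h8)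
    linarith
  have h6 : 0 < φ 0 ^ 2 := by linarith
  have h7 : φ 0 ≠ 0 := fun h => by simp [h] at h6
  refine ⟨p, hp, _, h1.smul (φ 0)⁻¹, by simp [h2], by simp [h7], fun i a b => ?_⟩
  rw [slide_nq_smul, inv_pow, inv_mul_le_iff₀ h6, mul_comm 2 i, pow_mul]
  exact (key i a b).trans (mul_le_mul_of_nonneg_right h5 (sq_nonneg _))
theorem slide : ∀ᶠ k in atTop, ∀ (N : ℕ) (p : ℤ) (x : Seq), 1 ≤ N → IsOrb k x →
    GoodL k N p (Vs k x) → ∀ v : ℝ, |v - x 0| ≤ 1 → ∃ x', Sl k N p x x' ∧ x' 0 = v := by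
  filter_upwards [slide_ev] with k ⟨hk, o0, o1, hl, _⟩ N p x hN hx hG v hv
  have K4 := four_le_KK hk
  obtain ⟨hp, φ, h1, h2, h3, h4⟩ := id hG
  obtain ⟨X, hX⟩ : ∃ X : ℝ → Seq, ∀ a, X a =
      sh N (XR k (x (-N - 1) + a * φ (-N - 1), x (-N) + a * φ (-N))) := ⟨_, fun _ => rfl⟩
  have X1 : ∀ a, IsOrb k (X a) := fun a => by rw [hX]; exact (isOrb_XR _ _).sh _
  have X2 : ∀ a, X a (-N) = x (-N) + a * φ (-N) := fun a => by simp [hX, sh]
  have X3 : ∀ a, X a (-N - 1) = x (-N - 1) + a * φ (-N - 1) := fun a => by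
    rw [hX, sh, show -(N : ℤ) - 1 + N = -1 by ring, XR_neg_one]
  have X4 : Continuous fun a => X a 0 := by
    simp only [hX, sh]
    exact (continuous_XR k _).comp (by fun_prop)
  have hφ : ∀ i : ℕ, 1 ≤ i → i ≤ N → |φ (-i)| ≤ om k ^ i ∧ |φ (-i - 1)| ≤ om k ^ i :=
    fun i a b => slide_abs' (by positivity) (by rw [← pow_mul, mul_comm]; exact h4 i a b)
  have small : ∀ i : ℕ, 2 * 112 * (KK k * om k ^ 2) * (om k ^ i) ^ 2 ≤ 1 / 2 * om k ^ i := by
    intro i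
    have b1 : om k ^ i ≤ 1 := pow_le_one₀ o0.le (by linarith)
    have b2 : 0 < om k ^ i := by positivity
    have b3 : (om k ^ i) ^ 2 ≤ om k ^ i := by nlinarith
    have b4 := mul_le_mul hl b3 (by positivity) (by norm_num)
    linarith
  have key : ∀ a : ℝ, |a| ≤ 2 → ∀ i : ℕ, i ≤ N →
      √(nq (fun j => X a j - x j - a * φ j) (-i)) ≤ 1 / 2 * om k ^ i := by
    intro a ha i hi
    obtain ⟨U, u1, -, u3⟩ := slide_mean hk (X1 a) hx x
    refine le_trans (slide_gron (K := KK k) (o := om k) (c := 112) (by linarith) (by norm_num)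
      (by linarith) (e := fun i => √(nq (fun j => X a j - x j - a * φ j) (-i))) (M := N) ?_ ?_
      i hi) (small i)
    · simp [nq, X2, X3]
    · intro i hi hb
      have c1 := (slide_abs (hb.trans (small _))).1
      have c2 := (hφ (i + 1) (by omega) hi).1
      have e : -((i + 1 : ℕ) : ℤ) = -i - 1 := by push_cast; ring
      simp only [e] at c1 c2 ⊢
      have c3 : |X a (-i - 1) - x (-i - 1)| ≤ 4 * om k ^ (i + 1) := by
        have d1 := abs_add_le (X a (-i - 1) - x (-i - 1) - a * φ (-i - 1)) (a * φ (-i - 1))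
        rw [sub_add_cancel, abs_mul] at d1
        have d2 := mul_le_mul ha c2 (abs_nonneg _) (by norm_num)
        have d3 : 0 < om k ^ (i + 1) := by positivity
        linarith
      have c4 := u3 (-i - 1) _ c3 (by rw [sub_self, abs_zero]; positivity)
      have c5 := slide_step (by linarith) (bdd_Vs hk x (-i - 1))
        (E := fun j => X a j - x j - a * φ j) (j := -i - 1)
        (r := (U (-i - 1) - Vs k x (-i - 1)) * (X a (-i - 1) - x (-i - 1)))
        (by linear_combination u1 (-i - 1) - a * h1 (-i - 1))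
      rw [sub_add_cancel, abs_mul] at c5
      have c6 := mul_le_mul c4 c3 (abs_nonneg _) (by positivity)
      linarith
  have k0 : ∀ a : ℝ, |a| ≤ 2 → |X a 0 - x 0 - a| ≤ 1 / 2 := fun a ha => by
    simpa [h3] using (slide_abs (key a ha 0 (Nat.zero_le _))).1
  have m1 := abs_le.1 (k0 (-2) (by norm_num))
  have m2 := abs_le.1 (k0 2 (by norm_num))
  rw [abs_le] at hv
  obtain ⟨a, ha, hav⟩ := intermediate_value_Icc (show (-2 : ℝ) ≤ 2 by norm_num) X4.continuousOn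
    (show v ∈ Set.Icc (X (-2) 0) (X 2 0) from ⟨by linarith [m1.2, hv.1], by linarith [m2.1, hv.2]⟩)
  have ha' : |a| ≤ 2 := abs_le.2 ha
  refine ⟨X a, ⟨hx, X1 a, hG, ?_, fun i b c => ?_⟩, hav⟩
  · rcases hp with rfl | rfl
    · rw [X2, h2, mul_zero, add_zero]
    · rw [X3, h2, mul_zero, add_zero]
  · obtain ⟨c1, c2⟩ := slide_abs (key a ha' i c)
    obtain ⟨c3, c4⟩ := hφ i b c
    have d1 := abs_add_le (X a (-i) - x (-i) - a * φ (-i)) (a * φ (-i))
    have d2 := abs_add_le (X a (-i - 1) - x (-i - 1) - a * φ (-i - 1)) (a * φ (-i - 1))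
    rw [sub_add_cancel, abs_mul] at d1 d2
    have d3 := mul_le_mul ha' c3 (abs_nonneg _) (by norm_num)
    have d4 := mul_le_mul ha' c4 (abs_nonneg _) (by norm_num)
    have d5 : 0 < om k ^ i := by positivity
    constructor <;> linarith
theorem anti : ∀ᶠ k in atTop, ∀ N : ℕ, 1 ≤ N → ∃ η : ℝ, 0 < η ∧ ∀ (p : ℤ) (x x' y y' : Seq),
    Sl k N p x x' → Sl k N p y y' → |x' 0 - y' 0| ≤ η → |x' (-1) - y' (-1)| ≤ η →
    |x (-1) - y (-1)| ≤ 1 / 10 * (|x 0 - y 0| + |x (-1) - y (-1)| + |x' 0 - y' 0| +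
      |x' (-1) - y' (-1)|) + |x' (-1) - y' (-1)| := by
  filter_upwards [slide_ev] with k ⟨hk, o0, o1, hl, _⟩ N hN
  have K4 := four_le_KK hk
  have K0 : 0 < KK k := by linarith
  refine ⟨om k ^ N / (2 * KK k ^ N), by positivity, ?_⟩
  rintro p x x' y y' ⟨x1, x2, ⟨hp, φ, h1, h2, h3, h4⟩, x4, x5⟩ ⟨y1, y2, -, y4, y5⟩ e0 e1
  obtain ⟨U, u1, u2, u3⟩ := slide_mean hk x1 y1 x
  obtain ⟨U', v1, v2, v3⟩ := slide_mean hk x2 y2 x
  have hφ : ∀ i : ℕ, 1 ≤ i → i ≤ N → |φ (-i)| ≤ om k ^ i := fun i a b =>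
    (slide_abs' (by positivity) (by rw [← pow_mul, mul_comm]; exact h4 i a b)).1
  have hD : ∀ i : ℕ, i ≤ N → |x' (-i) - y' (-i)| ≤ om k ^ i := by
    intro i hi
    refine (slide_abs' (E := fun j => x' j - y' j) (by positivity) ?_).1
    have a1 := (nq_add_le v2 v1 (-i) i).2
    rw [neg_add_cancel] at a1
    have a2 : nq (fun j => x' j - y' j) 0 ≤ (om k ^ N / KK k ^ N) ^ 2 := by
      have b1 := pow_le_pow_left₀ (abs_nonneg _) e0 2
      have b2 := pow_le_pow_left₀ (abs_nonneg _) e1 2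
      have b3 : (om k ^ N / (2 * KK k ^ N)) ^ 2 = (om k ^ N / KK k ^ N) ^ 2 / 4 := by
        field_simp; ring
      rw [sq_abs, b3] at b1 b2
      simp only [nq, zero_sub]
      linarith [sq_nonneg (om k ^ N / KK k ^ N)]
    refine a1.trans ((mul_le_mul_of_nonneg_left a2 (by positivity)).trans ?_)
    rw [mul_comm 2 i, pow_mul, ← mul_pow]
    refine pow_le_pow_left₀ (by positivity) ?_ 2
    rw [← mul_div_assoc, div_le_iff₀ (by positivity), mul_comm]
    exact mul_le_mul (pow_le_pow_of_le_one o0.le (by linarith) hi)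
      (pow_le_pow_right₀ (by linarith) hi) (by positivity) (by positivity)
  have hy : ∀ i : ℕ, 1 ≤ i → i ≤ N → |x' (-i) - x (-i)| ≤ 9 * om k ^ i ∧
      |y' (-i) - x (-i)| ≤ 9 * om k ^ i ∧ |y (-i) - x (-i)| ≤ 9 * om k ^ i := by
    intro i a b
    have c1 := abs_le.1 (x5 i a b).1
    have c2 := abs_le.1 (y5 i a b).1
    have c3 := abs_le.1 (hD i b)
    have c4 : 0 < om k ^ i := by positivity
    refine ⟨abs_le.2 ⟨?_, ?_⟩, abs_le.2 ⟨?_, ?_⟩, abs_le.2 ⟨?_, ?_⟩⟩ <;>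
      linarith [c1.1, c1.2, c2.1, c2.2, c3.1, c3.2]
  have w1 := slide_wr K0 o0 (by linarith) h1 u1 u2 hφ fun i a b =>
    u3 _ _ (by rw [sub_self, abs_zero]; positivity) (hy i a b).2.2
  have w2 := slide_wr K0 o0 (by linarith) h1 v1 v2 hφ fun i a b =>
    v3 _ _ (hy i a b).1 (hy i a b).2.1
  have w3 : Wr φ (fun j => x j - y j) (-N) = Wr φ (fun j => x' j - y' j) (-N) := by
    rcases hp with rfl | rfl <;> simp only [Wr, h2, x4, y4, zero_mul]
  have w4 := hφ 1 le_rfl hN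
  simp only [Nat.cast_one, pow_one] at w4
  rw [w3] at w1
  simp only [Wr, h3, zero_sub, one_mul] at w1 w2
  generalize φ (-N) * (x' (-N - 1) - y' (-N - 1)) - φ (-N - 1) * (x' (-N) - y' (-N)) = Z at w1 w2
  have t1 : |φ (-1) * (x 0 - y 0)| ≤ 1 / 100 * |x 0 - y 0| := by
    rw [abs_mul]; exact mul_le_mul_of_nonneg_right (w4.trans o1) (abs_nonneg _)
  have t2 : |φ (-1) * (x' 0 - y' 0)| ≤ 1 / 100 * |x' 0 - y' 0| := by
    rw [abs_mul]; exact mul_le_mul_of_nonneg_right (w4.trans o1) (abs_nonneg _)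
  have t3 := mul_le_mul_of_nonneg_right hl
    (add_nonneg (abs_nonneg (x 0 - y 0)) (abs_nonneg (x (-1) - y (-1))))
  have t4 := mul_le_mul_of_nonneg_right hl
    (add_nonneg (abs_nonneg (x' 0 - y' 0)) (abs_nonneg (x' (-1) - y' (-1))))
  have s1 := abs_le.1 w1
  have s2 := abs_le.1 w2
  have s3 := abs_le.1 t1
  have s4 := abs_le.1 t2
  have s5 := le_abs_self (x' (-1) - y' (-1))
  have s6 := neg_abs_le (x' (-1) - y' (-1))
  have s7 := abs_nonneg (x 0 - y 0)
  have s8 := abs_nonneg (x (-1) - y (-1))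
  have s9 := abs_nonneg (x' 0 - y' 0)
  have s10 := abs_nonneg (x' (-1) - y' (-1))
  refine abs_le.2 ⟨?_, ?_⟩ <;> linarith [s1.1, s1.2, s2.1, s2.2, s3.1, s3.2, s4.1, s4.2]
theorem cmp : ∀ᶠ k in atTop, ∀ (N : ℕ) (x x' : Seq), LG (KK k) (1 / 20) N (Vs k x) →
    Cl k N 4 x x' → ∀ m : ℕ, 1 ≤ m → m ≤ N →
    |Ls (KK k) (Vs k x') (-m) 0 - Ls (KK k) (Vs k x) (-m) 0| ≤ 1 := by
  filter_upwards [slide_ev] with k ⟨hk, o0, o1, hl, hd⟩ N x x' hL hC m hm hmN
  have K4 := four_le_KK hk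
  have F0 := lin_F_pos (Vs k x) (-m) 0
  have e := Real.sq_sqrt F0.le
  obtain ⟨b, hb⟩ : ∃ b, b = √(F (Vs k x) (-m) 0) := ⟨_, rfl⟩
  have b0 : 0 ≤ b := hb ▸ Real.sqrt_nonneg _
  rw [← hb] at e
  have key : ∀ v v' : Seq, IsSol (Vs k x) v → IsSol (Vs k x') v' → nq v (-m) = 1 →
      v' (-m) = v (-m) → v' (-m - 1) = v (-m - 1) →
      nq v' 0 ≤ 2 * nq v 0 + b ^ 2 / 50 ∧ nq v 0 ≤ 2 * nq v' 0 + b ^ 2 / 50 := by
    intro v v' h1 h2 h3 h4 h5
    have a1 : ∀ i : ℕ, 1 ≤ i → i ≤ m → |v (-i)| ≤ b * om k ^ i := by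
      intro i a c
      have a2 := decay (B := b) (by linarith) (by norm_num) (by norm_num) (bdd_Vs hk x)
        (fun i a c => hL i a (c.trans hmN)) h1
        (by have := nq_le_F h1 (-m) 0; rw [h3, mul_one] at this; linarith)
        (by rw [h3, e]; linarith) a c
      have a3 := mul_le_mul_of_nonneg_left (hd i a) (sq_nonneg b)
      refine (slide_abs' (by positivity) ?_).1
      rw [mul_pow]
      have a4 : 0 ≤ b ^ 2 * (om k ^ i) ^ 2 := by positivity
      linarith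
    have a2 := slide_gron (K := KK k) (o := om k) (c := 28 * b) (by linarith) (by positivity)
      (by linarith) (e := fun i => √(nq (fun j => v' j - v j) (-i))) (M := m)
      (by simp [nq, h4, h5]) (fun i hi _ => ?_) 0 (Nat.zero_le _)
    · have a3 : √(nq (fun j => v' j - v j) 0) ≤ b / 10 := by
        have a4 := mul_le_mul_of_nonneg_left hl b0
        simp only [Nat.cast_zero, neg_zero, pow_zero, one_pow, mul_one] at a2
        linarith
      have a5 := (Real.sqrt_le_iff.1 a3).2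
      simp only [nq, zero_sub] at a5 ⊢
      constructor
      · linarith [sq_nonneg (v' 0 - 2 * v 0), sq_nonneg (v' (-1) - 2 * v (-1))]
      · linarith [sq_nonneg (v 0 - 2 * v' 0), sq_nonneg (v (-1) - 2 * v' (-1))]
    · have c1 := a1 (i + 1) (by omega) hi
      have c2 := (hC (i + 1) (by omega) (by omega)).1
      have e : -((i + 1 : ℕ) : ℤ) = -i - 1 := by push_cast; ring
      simp only [e] at c1 c2 ⊢
      have c4 : |Vs k x' (-i - 1) - Vs k x (-i - 1)| ≤ 7 * KK k * (4 * om k ^ (i + 1)) :=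
        (abs_Vr_sub_le hk _ _).trans (mul_le_mul_of_nonneg_left c2 (by linarith))
      have c5 := slide_step (by linarith) (bdd_Vs hk x' (-i - 1))
        (E := fun j => v' j - v j) (j := -i - 1)
        (r := (Vs k x' (-i - 1) - Vs k x (-i - 1)) * v (-i - 1))
        (by linear_combination h2 (-i - 1) - h1 (-i - 1))
      rw [sub_add_cancel, abs_mul] at c5
      have c6 := mul_le_mul c4 c1 (abs_nonneg _) (by positivity)
      linarith
  obtain ⟨φ, p1, p2, p3⟩ := exists_sol (Vs k x) (-m) 1 0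
  obtain ⟨ψ, q1, q2, q3⟩ := exists_sol (Vs k x) (-m) 0 1
  obtain ⟨φ', r1, r2, r3⟩ := exists_sol (Vs k x') (-m) 1 0
  obtain ⟨ψ', s1, s2, s3⟩ := exists_sol (Vs k x') (-m) 0 1
  obtain ⟨t1, t2⟩ := key φ φ' p1 r1 (by simp [nq, p2, p3]) (r2.trans p2.symm) (r3.trans p3.symm)
  obtain ⟨t3, t4⟩ := key ψ ψ' q1 s1 (by simp [nq, q2, q3]) (s2.trans q2.symm) (s3.trans q3.symm)
  have f1 := F_eq p1 q1 p2 p3 q2 q3 0
  have f2 := F_eq r1 s1 r2 r3 s2 s3 0
  have F1 := lin_F_pos (Vs k x') (-m) 0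
  have g1 := Real.log_le_log F1 (show _ ≤ KK k * F (Vs k x) (-m) 0 by nlinarith)
  have g2 := Real.log_le_log F0 (show _ ≤ KK k * F (Vs k x') (-m) 0 by nlinarith)
  rw [Real.log_mul (by linarith) F0.ne'] at g1
  rw [Real.log_mul (by linarith) F1.ne'] at g2
  have g3 := Real.log_pos (show 1 < KK k by linarith)
  unfold Ls
  rw [sub_sub_sub_cancel_left, ← sub_div, abs_div, abs_of_pos (by positivity : 0 < 2 * Real.log _),
    div_le_one (by positivity), abs_le]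
  constructor <;> linarith
theorem om_small {ε : ℝ} (hε : 0 < ε) : ∀ᶠ k in atTop, 0 < om k ∧ om k ≤ ε := by
  filter_upwards [eventually_ge_atTop 0, ev_rpow ε⁻¹ (a := 4 / 5) (by norm_num)] with k hk h1
  have K0 : 0 < KK k := by linarith [four_le_KK hk]
  refine ⟨Real.rpow_pos_of_pos K0 _, ?_⟩
  rw [om, Real.rpow_neg K0.le]
  exact inv_le_of_inv_le₀ hε h1

end Vale.Agent.P108
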