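import Vale.Agent.P108.Torus
import Vale.Agent.P108.Slide

/-! Product bound for one pair of classes. -/

namespace Vale.Agent.P108

open MeasureTheory Filter
open scoped Classical

theorem pair_lip {X Y : Set (ℝ × ℝ)} {Ψ : ℝ × ℝ → ℝ × ℝ} {C : NNReal} (hm : ∀ z ∈ X, Ψ z ∈ Y)
    (h : ∀ z ∈ X, ∀ w ∈ X, dist z w ≤ C * dist (Ψ z) (Ψ w)) :
    volume X ≤ (C : ENNReal) ^ 2 * volume Y := by
  have hi : Set.InjOn Ψ X := fun z hz w hw e => by
    have := h z hz w hw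
    rw [e, dist_self, mul_zero] at this
    exact dist_le_zero.1 this
  have hl : LipschitzOnWith C (Function.invFunOn Ψ X) (Ψ '' X) := by
    refine LipschitzOnWith.of_dist_le_mul ?_
    rintro _ ⟨z, hz, rfl⟩ _ ⟨w, hw, rfl⟩
    rw [hi.leftInvOn_invFunOn hz, hi.leftInvOn_invFunOn hw]
    exact h z hz w hw
  have h1 := hl.hausdorffMeasure_image_le (d := 2) (by norm_num)
  rw [hi.leftInvOn_invFunOn.image_image, hausdorffMeasure_prod_real, ENNReal.rpow_two] at h1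
  refine h1.trans ?_
  gcongr
  rintro _ ⟨z, hz, rfl⟩
  exact hm z hz

/-- A locally expanding map does not decrease area by more than a constant factor. -/
theorem locLip {X Y : Set (ℝ × ℝ)} (hY : MeasurableSet Y) {Ψ : ℝ × ℝ → ℝ × ℝ} {η : ℝ} {C : NNReal}
    (hη : 0 < η) (hm : ∀ z ∈ X, Ψ z ∈ Y)
    (h : ∀ z ∈ X, ∀ w ∈ X, dist (Ψ z) (Ψ w) ≤ η → dist z w ≤ C * dist (Ψ z) (Ψ w)) :
    volume X ≤ (C : ENNReal) ^ 2 * volume Y := by
  let S : ℤ × ℤ → Set (ℝ × ℝ) := fun a =>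
    Set.Ico (a.1 • η) ((a.1 + 1) • η) ×ˢ Set.Ico (a.2 • η) ((a.2 + 1) • η)
  have hS : ∀ a, MeasurableSet (S a) := fun a => measurableSet_Ico.prod measurableSet_Ico
  have hc : ∀ z : ℝ × ℝ, ∃ a, z ∈ S a := fun z => by
    obtain ⟨a, ha⟩ := Set.mem_iUnion.1 ((iUnion_Ico_zsmul hη).symm ▸ Set.mem_univ z.1)
    obtain ⟨b, hb⟩ := Set.mem_iUnion.1 ((iUnion_Ico_zsmul hη).symm ▸ Set.mem_univ z.2)
    exact ⟨(a, b), ha, hb⟩
  have hd : Pairwise (Function.onFun Disjoint fun a => Y ∩ S a) := fun a b hab => by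
    refine Disjoint.mono Set.inter_subset_right Set.inter_subset_right ?_
    rw [Set.disjoint_prod]
    by_cases h1 : a.1 = b.1
    · exact Or.inr (Set.pairwise_disjoint_Ico_zsmul η fun h2 => hab (Prod.ext h1 h2))
    · exact Or.inl (Set.pairwise_disjoint_Ico_zsmul η h1)
  have hη' : ∀ a, ∀ z ∈ S a, ∀ w ∈ S a, dist z w ≤ η := by
    rintro a z ⟨h1, h2⟩ w ⟨h3, h4⟩
    simp only [Set.mem_Ico, add_smul, one_smul] at h1 h2 h3 h4
    rw [Prod.dist_eq, max_le_iff, Real.dist_eq, Real.dist_eq, abs_le, abs_le]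
    refine ⟨⟨?_, ?_⟩, ?_, ?_⟩ <;> linarith [h1.1, h1.2, h2.1, h2.2, h3.1, h3.2, h4.1, h4.2]
  calc volume X ≤ volume (⋃ a, X ∩ Ψ ⁻¹' S a) := measure_mono fun z hz => by
        obtain ⟨a, ha⟩ := hc (Ψ z)
        exact Set.mem_iUnion.2 ⟨a, hz, ha⟩
    _ ≤ ∑' a, volume (X ∩ Ψ ⁻¹' S a) := measure_iUnion_le _
    _ ≤ ∑' a, (C : ENNReal) ^ 2 * volume (Y ∩ S a) := ENNReal.tsum_le_tsum fun a =>
        pair_lip (fun z hz => ⟨hm z hz.1, hz.2⟩)
          fun z hz w hw => h z hz.1 w hw.1 (hη' a _ hz.2 _ hw.2)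
    _ = (C : ENNReal) ^ 2 * volume (⋃ a, Y ∩ S a) := by
        rw [ENNReal.tsum_mul_left, measure_iUnion hd fun a => hY.inter (hS a)]
    _ ≤ _ := by
        gcongr
        exact Set.iUnion_subset fun a => Set.inter_subset_left

theorem pair : ∃ C : ℝ, 0 ≤ C ∧ ∀ᶠ k in atTop, ∀ (N N' : ℕ) (A B X : Set Seq), 1 ≤ N → 1 ≤ N' →
    MeasurableSet A → MeasurableSet B → MeasurableSet X →
    (∀ x, IsOrb k x → Vs k x ∈ X → LG (KK k) (1 / 20) N (Vs k x) ∧
      LG (KK k) (1 / 20) N' (Vs k (rf x)) ∧ (∀ x', IsOrb k x' → Cl k N 4 x x' → Vs k x' ∈ A) ∧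
      (∀ x', IsOrb k x' → Cl k N' 4 (rf x) x' → Vs k x' ∈ B)) →
    (nu k).real X ≤ C * (nu k).real A * (nu k).real B := by
  refine ⟨324, by norm_num, ?_⟩
  filter_upwards [lg_good, slide, anti, om_small (ε := 1 / 8) (by norm_num),
    eventually_ge_atTop (0 : ℝ)] with k hg hs ha ho hk N N' A B X hN hN' hA hB hX H
  obtain ⟨v', hv, hv'⟩ := exists_slice k hA
  obtain ⟨u', hu, hu'⟩ := exists_slice k hB
  obtain ⟨η₁, h1, h1'⟩ := ha N hN
  obtain ⟨η₂, h2, h2'⟩ := ha N' hN'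
  let Z := {z : ℝ × ℝ | Vs k (XR k z) ∈ X} ∩ Set.Ioc (0 : ℝ) (0 + 1) ×ˢ Set.Ioc (0 : ℝ) (0 + 1)
  have hm : ∀ {A : Set Seq}, MeasurableSet A → ∀ v : ℝ,
      MeasurableSet {u | u ∈ Set.Ioc (-1 : ℝ) 2 ∧ Vs k (XR k (u, v)) ∈ A} := fun hA v =>
    measurableSet_Ioc.inter
      (((continuous_VsXR k).comp (continuous_id.prodMk continuous_const)).measurable hA)
  have near : ∀ {N : ℕ} {x x' : Seq}, 1 ≤ N → Cl k N 4 x x' → x (-1) ∈ Set.Ioc (0 : ℝ) (0 + 1) →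
      x' (-1) ∈ Set.Ioc (-1 : ℝ) 2 := fun hN hc hx => by
    have h3 := (hc 1 le_rfl hN).1
    rw [Nat.cast_one, pow_one, abs_le] at h3
    constructor <;> linarith [h3.1, h3.2, hx.1, hx.2, ho.2]
  have key : ∀ p p' : ℤ, volume {z | z ∈ Z ∧ GoodL k N p (Vs k (XR k z)) ∧
      GoodL k N' p' (Vs k (rf (XR k z)))} ≤ 81 * (nu k A * nu k B) := fun p p' => by
    have ex : ∀ z ∈ {z | z ∈ Z ∧ GoodL k N p (Vs k (XR k z)) ∧
        GoodL k N' p' (Vs k (rf (XR k z)))}, ∃ x' x'' : Seq, (Sl k N p (XR k z) x' ∧ x' 0 = v') ∧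
          Sl k N' p' (rf (XR k z)) x'' ∧ x'' 0 = u' := by
      rintro z ⟨⟨-, hz1, hz2⟩, g1, g2⟩
      obtain ⟨x', hx'⟩ := hs N p _ hN (isOrb_XR k z) g1 v' (by
        rw [XR_zero, abs_le]
        constructor <;> linarith [hv.1, hv.2, hz2.1, hz2.2])
      obtain ⟨x'', hx''⟩ := hs N' p' _ hN' (isOrb_XR k z).rf g2 u' (by
        rw [rf, sub_zero, XR_neg_one, abs_le]
        constructor <;> linarith [hu.1, hu.2, hz1.1, hz1.2])
      exact ⟨x', x'', hx', hx''⟩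
    choose! x' x'' e1 e2 using ex
    refine (locLip ((hm hA v').prod (hm hB u')) (Ψ := fun z => (x' z (-1), x'' z (-1))) (C := 3)
      (lt_min h1 h2) (fun z hz => ?_) fun z hz w hw hd => ?_).trans ?_
    · obtain ⟨⟨-, o1, -, -, c1⟩, a1⟩ := e1 z hz
      obtain ⟨⟨-, o2, -, -, c2⟩, a2⟩ := e2 z hz
      obtain ⟨-, -, t1, t2⟩ := H _ (isOrb_XR k z) hz.1.1
      refine ⟨⟨near hN c1 (by simpa using hz.1.2.1), ?_⟩, near hN' c2 (by
        simpa [rf] using hz.1.2.2), ?_⟩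
      · rw [← a1, ← o1.eq_XR]
        exact t1 _ o1 c1
      · rw [← a2, ← o2.eq_XR]
        exact t2 _ o2 c2
    · rw [Prod.dist_eq, max_le_iff, Real.dist_eq, Real.dist_eq, le_min_iff, le_min_iff] at hd
      have b1 := h1' p _ _ _ _ (e1 z hz).1 (e1 w hw).1
        (by rw [(e1 z hz).2, (e1 w hw).2, sub_self, abs_zero]; exact h1.le) hd.1.1
      have b2 := h2' p' _ _ _ _ (e2 z hz).1 (e2 w hw).1
        (by rw [(e2 z hz).2, (e2 w hw).2, sub_self, abs_zero]; exact h2.le) hd.2.2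
      rw [(e1 z hz).2, (e1 w hw).2] at b1
      rw [(e2 z hz).2, (e2 w hw).2] at b2
      simp only [rf, sub_self, abs_zero, sub_zero, XR_zero, XR_neg_one] at b1 b2
      simp only [Prod.dist_eq, Real.dist_eq, max_le_iff, NNReal.coe_ofNat]
      have m1 := le_max_left |x' z (-1) - x' w (-1)| |x'' z (-1) - x'' w (-1)|
      have m2 := le_max_right |x' z (-1) - x' w (-1)| |x'' z (-1) - x'' w (-1)|
      have := abs_nonneg (x' z (-1) - x' w (-1))
      constructor <;> linarith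
    · rw [Measure.volume_eq_prod, Measure.prod_prod]
      calc _ ≤ ((3 : NNReal) : ENNReal) ^ 2 * (3 * nu k A * (3 * nu k B)) := by gcongr
        _ = _ := by
          push_cast
          ring
  have tot : nu k X ≤ 324 * (nu k A * nu k B) := by
    rw [nu_eq k 0 0 hX]
    let Q : ℤ → ℤ → Set (ℝ × ℝ) := fun p p' => {z | z ∈ Z ∧ GoodL k N p (Vs k (XR k z)) ∧
      GoodL k N' p' (Vs k (rf (XR k z)))}
    calc volume Z ≤ volume ((Q (-N) (-N') ∪ Q (-N) (-N' - 1)) ∪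
          (Q (-N - 1) (-N') ∪ Q (-N - 1) (-N' - 1))) := measure_mono fun z hz => by
          obtain ⟨t1, t2, -⟩ := H _ (isOrb_XR k z) hz.1
          obtain ⟨p, hp⟩ := hg N _ hN (bdd_Vs hk _) t1
          obtain ⟨p', hp'⟩ := hg N' _ hN' (bdd_Vs hk _) t2
          rcases hp.1 with rfl | rfl <;> rcases hp'.1 with rfl | rfl
          · exact Or.inl (Or.inl ⟨hz, hp, hp'⟩)
          · exact Or.inl (Or.inr ⟨hz, hp, hp'⟩)
          · exact Or.inr (Or.inl ⟨hz, hp, hp'⟩)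
          · exact Or.inr (Or.inr ⟨hz, hp, hp'⟩)
      _ ≤ (81 * (nu k A * nu k B) + 81 * (nu k A * nu k B)) +
          (81 * (nu k A * nu k B) + 81 * (nu k A * nu k B)) :=
          (measure_union_le _ _).trans (add_le_add
            ((measure_union_le _ _).trans (add_le_add (key _ _) (key _ _)))
            ((measure_union_le _ _).trans (add_le_add (key _ _) (key _ _))))
      _ = _ := by ring
  have := ENNReal.toReal_mono (by finiteness) tot
  simpa [Measure.real, mul_assoc] using this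

end Vale.Agent.P108
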