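import Vale.Agent.P108.Ext
import Vale.Agent.P108.Slide

/-! Complex recursions. -/

namespace Vale.Agent.P108

open MeasureTheory Filter
open scoped Classical

noncomputable section

/-- The complex force. -/
def ray_g (k : ℝ) (z : ℂ) : ℂ := 2 * z + k * Complex.sin (2 * Real.pi * z)
/-- The complex potential. -/
def ray_V (k : ℝ) (z : ℂ) : ℂ := 2 + 2 * Real.pi * k * Complex.cos (2 * Real.pi * z)
/-- The complex orbit. -/
def ray_X (k : ℝ) (x : Seq) (eu ev : ℝ) (a : ℂ) : ℤ → ℂ :=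
  bi (fun _ => ray_g k) (x 0 + a * ev) (x (-1) + a * eu)
/-- Complex tangent solutions. -/
def ray_S (k : ℝ) (x : Seq) (eu ev cu cv : ℝ) (a : ℂ) : ℤ → ℂ :=
  bi (fun j y => ray_V k (ray_X k x eu ev a j) * y) cv cu

end

theorem ray_diff_bi {g : ℂ → ℤ → ℂ → ℂ}
    (hg : ∀ j (f : ℂ → ℂ), Differentiable ℂ f → Differentiable ℂ fun a => g a j (f a))
    {a b : ℂ → ℂ} (ha : Differentiable ℂ a) (hb : Differentiable ℂ b) (j : ℤ) :
    Differentiable ℂ fun z => bi (g z) (a z) (b z) j := by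
  have key : ∀ j, (Differentiable ℂ fun z => bi (g z) (a z) (b z) j) ∧
      Differentiable ℂ fun z => bi (g z) (a z) (b z) (j - 1) := fun j => by
    induction j using Int.inductionOn' (b := 0) with
    | zero => exact ⟨by simpa using ha, by simpa using hb⟩
    | succ j _ ih =>
      refine ⟨?_, by simpa using ih.1⟩
      rw [funext fun z => eq_sub_of_add_eq (rec_bi (g z) (a z) (b z) j)]
      exact (hg j _ ih.1).sub ih.2
    | pred j _ ih =>
      refine ⟨ih.2, ?_⟩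
      have := fun z => rec_bi (g z) (a z) (b z) (j - 1)
      simp only [sub_add_cancel] at this
      rw [funext fun z => eq_sub_of_add_eq' (this z)]
      exact (hg (j - 1) _ ih.2).sub ih.1
  exact (key j).1

theorem ray_X_diff (k : ℝ) (x : Seq) (eu ev : ℝ) (j : ℤ) :
    Differentiable ℂ fun a => ray_X k x eu ev a j :=
  ray_diff_bi (g := fun _ _ => ray_g k) (fun _ f hf => by unfold ray_g; fun_prop) (by fun_prop)
    (by fun_prop) j

theorem ray_S_diff (k : ℝ) (x : Seq) (eu ev cu cv : ℝ) (j : ℤ) :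
    Differentiable ℂ fun a => ray_S k x eu ev cu cv a j :=
  ray_diff_bi (g := fun a j y => ray_V k (ray_X k x eu ev a j) * y) (fun j f hf => by
    have := ray_X_diff k x eu ev j
    unfold ray_V; fun_prop) (by fun_prop) (by fun_prop) j

theorem ray_X_rec (k : ℝ) (x : Seq) (eu ev : ℝ) (a : ℂ) (j : ℤ) :
    ray_X k x eu ev a (j + 1) + ray_X k x eu ev a (j - 1) = ray_g k (ray_X k x eu ev a j) :=
  rec_bi (fun _ => ray_g k) _ _ j
theorem ray_S_rec (k : ℝ) (x : Seq) (eu ev cu cv : ℝ) (a : ℂ) (j : ℤ) :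
    ray_S k x eu ev cu cv a (j + 1) + ray_S k x eu ev cu cv a (j - 1) =
      ray_V k (ray_X k x eu ev a j) * ray_S k x eu ev cu cv a j :=
  rec_bi (fun j y => ray_V k (ray_X k x eu ev a j) * y) _ _ j
theorem ray_X_zero (k : ℝ) (x : Seq) (eu ev : ℝ) (a : ℂ) :
    ray_X k x eu ev a 0 = x 0 + a * ev := bi_zero _ _ _
theorem ray_X_neg (k : ℝ) (x : Seq) (eu ev : ℝ) (a : ℂ) :
    ray_X k x eu ev a (-1) = x (-1) + a * eu := bi_neg_one _ _ _
theorem ray_S_zero (k : ℝ) (x : Seq) (eu ev cu cv : ℝ) (a : ℂ) :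
    ray_S k x eu ev cu cv a 0 = cv := bi_zero _ _ _
theorem ray_S_neg (k : ℝ) (x : Seq) (eu ev cu cv : ℝ) (a : ℂ) :
    ray_S k x eu ev cu cv a (-1) = cu := bi_neg_one _ _ _

theorem ray_g_ofReal (k y : ℝ) : ray_g k y = (gk k y : ℝ) := by
  unfold ray_g gk; push_cast; rfl
theorem ray_V_ofReal (k y : ℝ) : ray_V k y = (Vr k y : ℝ) := by
  unfold ray_V Vr; push_cast; rfl

theorem ray_X_real {k : ℝ} {x x' : Seq} {eu ev a : ℝ} (h : IsOrb k x')
    (h0 : x' 0 = x 0 + a * ev) (h1 : x' (-1) = x (-1) + a * eu) :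
    ray_X k x eu ev a = fun j => (x' j : ℂ) := by
  refine Rec.ext (g := fun _ => ray_g k) (rec_bi _ _ _) (fun j => ?_) (s := 0) ?_ ?_
  · simp only [ray_g_ofReal]
    exact_mod_cast h j
  · rw [ray_X_zero, h0]; push_cast; rfl
  · rw [zero_sub, ray_X_neg, h1]; push_cast; rfl

theorem ray_S_real {k : ℝ} {x x' χ : Seq} {eu ev cu cv a : ℝ} (h : IsOrb k x')
    (h0 : x' 0 = x 0 + a * ev) (h1 : x' (-1) = x (-1) + a * eu) (hχ : IsSol (Vs k x') χ)
    (c0 : χ 0 = cv) (c1 : χ (-1) = cu) :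
    ray_S k x eu ev cu cv a = fun j => (χ j : ℂ) := by
  refine Rec.ext (g := fun j y => ray_V k (ray_X k x eu ev a j) * y) (rec_bi _ _ _)
    (fun j => ?_) (s := 0) ?_ ?_
  · rw [ray_X_real h h0 h1]
    simp only [ray_V_ofReal]
    exact_mod_cast hχ j
  · rw [ray_S_zero, c0]
  · rw [zero_sub, ray_S_neg, c1]

theorem ray_W (k : ℝ) (x : Seq) (eu ev cu cv : ℝ) (a : ℂ) (m : ℕ) :
    ray_S k x eu ev eu ev a m * ray_S k x eu ev cu cv a (m - 1) -
      ray_S k x eu ev eu ev a (m - 1) * ray_S k x eu ev cu cv a m = (ev * cu - eu * cv : ℝ) := by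
  induction m with
  | zero => simp [ray_S_zero, ray_S_neg]
  | succ m ih =>
    push_cast at ih ⊢
    rw [add_sub_cancel_right]
    linear_combination ih + ray_S k x eu ev cu cv a m * ray_S_rec k x eu ev eu ev a m -
      ray_S k x eu ev eu ev a m * ray_S_rec k x eu ev cu cv a m

theorem ray_trig {h : ℂ} (hh : ‖h‖ ≤ 1) : ‖Complex.cos h - 1‖ ≤ ‖h‖ ^ 2 ∧
    ‖Complex.sin h - h‖ ≤ ‖h‖ ^ 2 := by
  have a := Complex.cos_bound hh
  have b := Complex.sin_bound hh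
  have n := norm_nonneg h
  have p3 : ‖h‖ ^ 3 ≤ ‖h‖ ^ 2 := pow_le_pow_of_le_one n hh (by norm_num)
  have p4 : ‖h‖ ^ 4 ≤ ‖h‖ ^ 2 := pow_le_pow_of_le_one n hh (by norm_num)
  have p5 : ‖h‖ ^ 5 ≤ ‖h‖ ^ 2 := pow_le_pow_of_le_one n hh (by norm_num)
  have p2 := sq_nonneg ‖h‖
  constructor
  · have := norm_sub_le (Complex.cos h - (1 - h ^ 2 / 2)) (h ^ 2 / 2)
    rw [show Complex.cos h - (1 - h ^ 2 / 2) - h ^ 2 / 2 = Complex.cos h - 1 by ring,
      norm_div, norm_pow, Complex.norm_two] at this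
    linarith
  · have := norm_sub_le (Complex.sin h - (h - h ^ 3 / 6)) (h ^ 3 / 6)
    rw [show Complex.sin h - (h - h ^ 3 / 6) - h ^ 3 / 6 = Complex.sin h - h by ring,
      norm_div, norm_pow, show ‖(6 : ℂ)‖ = 6 by simp] at this
    linarith

theorem ray_rem {k : ℝ} (hk : 0 ≤ k) (y : ℝ) {z : ℂ} (hz : ‖z - y‖ ≤ 1 / 7) :
    ‖ray_g k z - (gk k y : ℝ) - (Vr k y : ℝ) * (z - y)‖ ≤ 14 * KK k * ‖z - y‖ ^ 2 ∧
      ‖ray_V k z - (Vr k y : ℝ)‖ ≤ 21 * KK k * ‖z - y‖ := by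
  obtain ⟨δ, rfl⟩ : ∃ δ, z = y + δ := ⟨z - y, by ring⟩
  rw [add_sub_cancel_left] at hz ⊢
  set h : ℂ := 2 * Real.pi * δ with hh
  have p := Real.pi_pos
  have p7 : Real.pi ≤ 7 / 2 := by linarith [Real.pi_lt_d2]
  have n := norm_nonneg δ
  have e : ‖h‖ = 2 * Real.pi * ‖δ‖ := by
    rw [hh, norm_mul, norm_mul, Complex.norm_two, Complex.norm_real, Real.norm_of_nonneg p.le]
  have h7 : ‖h‖ ≤ 7 * ‖δ‖ := by rw [e]; nlinarith
  have h1 : ‖h‖ ≤ 1 := by linarith
  obtain ⟨a, b⟩ := ray_trig h1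
  have hs : ‖((Real.sin (2 * Real.pi * y) : ℝ) : ℂ)‖ ≤ 1 := by
    rw [Complex.norm_real]; exact Real.abs_sin_le_one _
  have hc : ‖((Real.cos (2 * Real.pi * y) : ℝ) : ℂ)‖ ≤ 1 := by
    rw [Complex.norm_real]; exact Real.abs_cos_le_one _
  have hK : 2 * Real.pi * k ≤ KK k := by unfold KK; linarith
  have pk : 0 ≤ 2 * Real.pi * k := by positivity
  have nh := norm_nonneg h
  have s : (2 * Real.pi * (y + δ) : ℂ) = 2 * Real.pi * y + h := by rw [hh]; ring
  constructor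
  · have : ray_g k (y + δ) - (gk k y : ℝ) - (Vr k y : ℝ) * δ =
        k * ((Real.sin (2 * Real.pi * y) : ℝ) * (Complex.cos h - 1) +
          (Real.cos (2 * Real.pi * y) : ℝ) * (Complex.sin h - h)) := by
      unfold ray_g gk Vr
      rw [s, Complex.sin_add]; push_cast; rw [hh]; ring
    rw [this, norm_mul, Complex.norm_real, Real.norm_of_nonneg hk]
    have t := (norm_add_le _ _).trans (add_le_add
      ((norm_mul_le _ _).trans (mul_le_mul hs a (norm_nonneg _) zero_le_one))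
      ((norm_mul_le _ _).trans (mul_le_mul hc b (norm_nonneg _) zero_le_one)))
    calc _ ≤ k * (1 * ‖h‖ ^ 2 + 1 * ‖h‖ ^ 2) := mul_le_mul_of_nonneg_left t hk
      _ = (2 * Real.pi * k) * (4 * Real.pi * ‖δ‖ ^ 2) := by rw [e]; ring
      _ ≤ KK k * (14 * ‖δ‖ ^ 2) :=
        mul_le_mul hK (by nlinarith [sq_nonneg ‖δ‖]) (by positivity) (pk.trans hK)
      _ = _ := by ring
  · have : ray_V k (y + δ) - (Vr k y : ℝ) =
        (2 * Real.pi * k : ℝ) * ((Real.cos (2 * Real.pi * y) : ℝ) * (Complex.cos h - 1) -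
          (Real.sin (2 * Real.pi * y) : ℝ) * Complex.sin h) := by
      unfold ray_V Vr
      rw [s, Complex.cos_add]; push_cast; ring
    rw [this, norm_mul, Complex.norm_real, Real.norm_of_nonneg pk]
    have b' : ‖Complex.sin h‖ ≤ 2 * ‖h‖ := by
      have := norm_add_le (Complex.sin h - h) h
      rw [sub_add_cancel] at this
      nlinarith
    have t := (norm_sub_le _ _).trans (add_le_add
      ((norm_mul_le _ _).trans (mul_le_mul hc a (norm_nonneg _) zero_le_one))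
      ((norm_mul_le _ _).trans (mul_le_mul hs b' (norm_nonneg _) zero_le_one)))
    calc _ ≤ KK k * (21 * ‖δ‖) :=
        mul_le_mul hK (t.trans (by nlinarith)) (norm_nonneg _) (pk.trans hK)
      _ = _ := by ring

theorem ray_gron {K u B : ℝ} (hu : 0 < u) (hu' : u ≤ 1 / 10) (hK : K * u ^ 100 = 1) (hB : 0 ≤ B)
    {E : ℤ → ℂ} {V : Seq} {r i0 : ℕ} (hV : ∀ j, |V j| ≤ K - 2) (h0 : E 0 = 0) (h1 : E (-1) = 0)
    (h : ∀ m i : ℕ, i0 ≤ i → m + (i + 1) = r → ‖E m‖ ≤ 2 * B * u ^ (198 * (i + 1) + 98) →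
      ‖E (m + 1) + E (m - 1) - V m * E m‖ ≤ B * u ^ (198 * i + 98)) :
    ∀ m i : ℕ, i0 ≤ i → m + i = r →
      ‖E m‖ ≤ 2 * B * u ^ (198 * i + 98) ∧ ‖E (m - 1)‖ ≤ 2 * B * u ^ (198 * i + 98) := by
  intro m
  induction m with
  | zero =>
    intro i _ _
    simp only [Nat.cast_zero, zero_sub, h0, h1, norm_zero, and_self]
    positivity
  | succ m ih =>
    intro i hi hm
    obtain ⟨a, b⟩ := ih (i + 1) (by omega) (by omega)
    have c := h m i hi (by omega) a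
    push_cast
    rw [add_sub_cancel_right]
    set w := B * u ^ (198 * i + 98) with hw
    have w0 : 0 ≤ w := by positivity
    have e : 2 * B * u ^ (198 * (i + 1) + 98) = 2 * w * (u ^ 100 * u ^ 98) := by rw [hw]; ring
    rw [e] at a b
    have u98 : u ^ 98 ≤ 1 / 10 := (pow_le_of_le_one hu.le (by linarith) (by norm_num)).trans hu'
    have u100 : u ^ 100 ≤ 1 := pow_le_one₀ hu.le (by linarith)
    have q0 : 0 ≤ u ^ 98 := by positivity
    have q1 : 0 ≤ u ^ 100 := by positivity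
    have q2 : u ^ 100 * u ^ 98 ≤ 1 := by nlinarith
    rw [mul_assoc 2 B, ← hw]
    refine ⟨?_, a.trans (by nlinarith)⟩
    have d : ‖(V m : ℂ) * E m‖ ≤ (K - 2) * (2 * w * (u ^ 100 * u ^ 98)) := by
      rw [norm_mul, Complex.norm_real]
      exact mul_le_mul (hV m) a (norm_nonneg _) ((abs_nonneg _).trans (hV m))
    have f : ‖E (m + 1)‖ ≤ ‖E (m + 1) + E (m - 1) - V m * E m‖ + ‖(V m : ℂ) * E m‖ +
        ‖E (m - 1)‖ := by
      refine le_trans (le_of_eq ?_) ((norm_sub_le _ _).trans (add_le_add_left (norm_add_le _ _) _))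
      congr 1; ring
    have g : K * (2 * w * (u ^ 100 * u ^ 98)) = 2 * w * u ^ 98 := by
      linear_combination 2 * w * u ^ 98 * hK
    have g2 : 0 ≤ 2 * w * (u ^ 100 * u ^ 98) := mul_nonneg (by linarith) (mul_nonneg q1 q0)
    nlinarith

end Vale.Agent.P108
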