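import Vale.Agent.P108.RayA

/-! Estimates for the complex recursions. -/

namespace Vale.Agent.P108

open MeasureTheory Filter
open scoped Classical

/-- The standing hypotheses. -/
structure ray_Hyp (k u G : ℝ) (x φ : Seq) (eu ev : ℝ) (r : ℕ) : Prop where
  hk : 0 ≤ k
  hu : 0 < u
  hu' : u ≤ 1 / 10
  hK : KK k * u ^ 100 = 1
  hx : IsOrb k x
  hφ : IsSol (Vs k x) φ
  h0 : φ 0 = ev
  h1 : φ (-1) = eu
  hG : 0 < G
  up : ∀ m i : ℕ, m + i = r → |φ m| ≤ G * u ^ (99 * i)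
  lo : ∀ m i : ℕ, m + i = r → (G * u ^ (100 * i)) ^ 2 ≤ nq φ m

theorem ray_mono {u t : ℝ} (hu : 0 < u) (hu' : u ≤ 1 / 10) (ht : 0 ≤ t) {i0 i : ℕ}
    (ha : t * u ^ (98 * (i0 + 1)) ≤ u ^ 5) (hi : i0 ≤ i) :
    t * u ^ (98 * (i + 1)) ≤ 1 / 100000 := by
  have a : u ^ (98 * (i + 1)) ≤ u ^ (98 * (i0 + 1)) :=
    pow_le_pow_of_le_one hu.le (by linarith) (by omega)
  have b : u ^ 5 ≤ (1 / 10) ^ 5 := pow_le_pow_left₀ hu.le hu' 5
  have c := mul_le_mul_of_nonneg_left a ht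
  linarith

variable {k u G : ℝ} {x φ : Seq} {eu ev : ℝ} {r : ℕ}

theorem ray_small (H : ray_Hyp k u G x φ eu ev r) {i0 i : ℕ} {a : ℂ}
    (ha : ‖a‖ * G * u ^ (98 * (i0 + 1)) ≤ u ^ 5) (hi : i0 ≤ i) :
    2 * (‖a‖ * G) * u ^ (99 * (i + 1)) ≤ 1 / 50000 := by
  have t0 : 0 ≤ ‖a‖ * G := mul_nonneg (norm_nonneg _) H.hG.le
  have b := ray_mono H.hu H.hu' t0 ha hi
  have c : u ^ (99 * (i + 1)) ≤ u ^ (98 * (i + 1)) :=
    pow_le_pow_of_le_one H.hu.le (by linarith [H.hu']) (by omega)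
  have := mul_le_mul_of_nonneg_left c t0
  linarith

theorem ray_del (H : ray_Hyp k u G x φ eu ev r) {i0 m i : ℕ} {a z : ℂ}
    (ha : ‖a‖ * G * u ^ (98 * (i0 + 1)) ≤ u ^ 5) (hi : i0 ≤ i) (hm : m + i = r)
    (h : ‖z - a * φ m‖ ≤ 2 * (56 * (‖a‖ * G) ^ 2) * u ^ (198 * i + 98)) :
    ‖z‖ ≤ 2 * (‖a‖ * G) * u ^ (99 * i) := by
  have t0 : 0 ≤ ‖a‖ * G := mul_nonneg (norm_nonneg _) H.hG.le
  have b := ray_mono H.hu H.hu' t0 ha hi
  have c : ‖a * φ m‖ ≤ ‖a‖ * G * u ^ (99 * i) := by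
    rw [norm_mul, Complex.norm_real, mul_assoc]
    exact mul_le_mul_of_nonneg_left (H.up m i hm) (norm_nonneg _)
  have d := norm_add_le (z - a * φ m) (a * φ m)
  rw [sub_add_cancel] at d
  have e : 2 * (56 * (‖a‖ * G) ^ 2) * u ^ (198 * i + 98) =
      112 * (‖a‖ * G * u ^ (99 * i)) * (‖a‖ * G * u ^ (98 * (i + 1)) * u ^ i) := by ring
  have f : u ^ i ≤ 1 := pow_le_one₀ H.hu.le (by linarith [H.hu'])
  have g : ‖a‖ * G * u ^ (98 * (i + 1)) * u ^ i ≤ 1 / 100000 * 1 :=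
    mul_le_mul b f (pow_nonneg H.hu.le _) (by norm_num)
  have p : 0 ≤ ‖a‖ * G * u ^ (99 * i) := mul_nonneg t0 (pow_nonneg H.hu.le _)
  have q := mul_le_mul_of_nonneg_left g p
  rw [e] at h
  linarith

theorem ray_E (H : ray_Hyp k u G x φ eu ev r) {i0 : ℕ} {a : ℂ}
    (ha : ‖a‖ * G * u ^ (98 * (i0 + 1)) ≤ u ^ 5) {m i : ℕ} (hi : i0 ≤ i) (hm : m + i = r) :
    ‖ray_X k x eu ev a m - x m - a * φ m‖ ≤ 2 * (56 * (‖a‖ * G) ^ 2) * u ^ (198 * i + 98) ∧
      ‖ray_X k x eu ev a m - x m‖ ≤ 2 * (‖a‖ * G) * u ^ (99 * i) := by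
  have key := ray_gron H.hu H.hu' H.hK (B := 56 * (‖a‖ * G) ^ 2) (by positivity)
    (E := fun j => ray_X k x eu ev a j - x j - a * φ j) (V := Vs k x) (r := r) (i0 := i0)
    (fun j => abs_Vr_le H.hk _) (by simp [ray_X_zero, H.h0]) (by simp [ray_X_neg, H.h1])
    (fun m i hi hm h => by
      have d := ray_del H ha (hi.trans (Nat.le_add_right i 1)) hm h
      have s := ray_small H ha hi
      have t := (ray_rem H.hk (x m) (z := ray_X k x eu ev a m) (by linarith)).1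
      have e1 : ((x (m + 1) : ℂ) + x (m - 1)) = (gk k (x m) : ℝ) := by exact_mod_cast H.hx m
      have e2 : ((φ (m + 1) : ℂ) + φ (m - 1)) = (Vr k (x m) : ℝ) * φ m := by
        exact_mod_cast H.hφ m
      have K0 : 0 ≤ 14 * KK k := by linarith [four_le_KK H.hk]
      calc _ = ‖ray_g k (ray_X k x eu ev a m) - (gk k (x m) : ℝ) - (Vr k (x m) : ℝ) *
            (ray_X k x eu ev a m - x m)‖ := by
            congr 1
            simp only [Vs]
            linear_combination ray_X_rec k x eu ev a m - e1 - a * e2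
        _ ≤ 14 * KK k * (2 * (‖a‖ * G) * u ^ (99 * (i + 1))) ^ 2 :=
            t.trans (mul_le_mul_of_nonneg_left (pow_le_pow_left₀ (norm_nonneg _) d 2) K0)
        _ = 56 * (‖a‖ * G) ^ 2 * u ^ (198 * i + 98) * (KK k * u ^ 100) := by ring
        _ = _ := by rw [H.hK, mul_one])
  exact ⟨(key m i hi hm).1, ray_del H ha hi hm (key m i hi hm).1⟩

theorem ray_E'_le (H : ray_Hyp k u G x φ eu ev r) {i0 i : ℕ} {a : ℂ}
    (ha : ‖a‖ * G * u ^ (98 * (i0 + 1)) ≤ u ^ 5) (hi : i0 ≤ i) :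
    2 * (84 * (‖a‖ * G) * G) * u ^ (198 * i + 98) ≤ G * u ^ (100 * i) / 100 := by
  have t0 : 0 ≤ ‖a‖ * G := mul_nonneg (norm_nonneg _) H.hG.le
  have b := ray_mono H.hu H.hu' t0 ha hi
  have p : 0 ≤ G * u ^ (100 * i) := mul_nonneg H.hG.le (pow_nonneg H.hu.le _)
  have q := mul_le_mul_of_nonneg_left b p
  have e : 2 * (84 * (‖a‖ * G) * G) * u ^ (198 * i + 98) =
      168 * (G * u ^ (100 * i) * (‖a‖ * G * u ^ (98 * (i + 1)))) := by ring
  rw [e]
  linarith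

theorem ray_V_le (H : ray_Hyp k u G x φ eu ev r) {i0 : ℕ} {a : ℂ}
    (ha : ‖a‖ * G * u ^ (98 * (i0 + 1)) ≤ u ^ 5) {m i : ℕ} (hi : i0 ≤ i) (hm : m + (i + 1) = r) :
    ‖ray_V k (ray_X k x eu ev a m) - (Vr k (x m) : ℝ)‖ ≤
      21 * KK k * (2 * (‖a‖ * G) * u ^ (99 * (i + 1))) ∧
    ‖ray_V k (ray_X k x eu ev a m)‖ ≤ 2 * KK k := by
  have d := (ray_E H ha (hi.trans (Nat.le_add_right i 1)) hm).2
  have s := ray_small H ha hi
  have t := (ray_rem H.hk (x m) (z := ray_X k x eu ev a m) (by linarith)).2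
  have K0 : 0 ≤ 21 * KK k := by linarith [four_le_KK H.hk]
  have t2 := t.trans (mul_le_mul_of_nonneg_left d K0)
  refine ⟨t2, ?_⟩
  have a1 := norm_add_le (ray_V k (ray_X k x eu ev a m) - (Vr k (x m) : ℝ)) (Vr k (x m) : ℝ)
  rw [sub_add_cancel, Complex.norm_real, Real.norm_eq_abs] at a1
  have a2 := abs_Vr_le H.hk (x m)
  have a3 := mul_le_mul_of_nonneg_left s K0
  linarith

theorem ray_E' (H : ray_Hyp k u G x φ eu ev r) {i0 : ℕ} {a : ℂ}
    (ha : ‖a‖ * G * u ^ (98 * (i0 + 1)) ≤ u ^ 5) {m i : ℕ} (hi : i0 ≤ i) (hm : m + i = r) :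
    ‖ray_S k x eu ev eu ev a m - φ m‖ ≤ G * u ^ (100 * i) / 100 ∧
      ‖ray_S k x eu ev eu ev a (m - 1) - φ (m - 1)‖ ≤ G * u ^ (100 * i) / 100 := by
  have hG := H.hG
  have hu := H.hu
  have key := ray_gron H.hu H.hu' H.hK (B := 84 * (‖a‖ * G) * G) (by positivity)
    (E := fun j => ray_S k x eu ev eu ev a j - φ j) (V := Vs k x) (r := r) (i0 := i0)
    (fun j => abs_Vr_le H.hk _) (by simp [ray_S_zero, H.h0]) (by simp [ray_S_neg, H.h1])
    (fun m i hi hm h => by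
      have t := (ray_V_le H ha hi hm).1
      have h2 := h.trans (ray_E'_le H ha (hi.trans (Nat.le_add_right i 1)))
      have e2 : ((φ (m + 1) : ℂ) + φ (m - 1)) = (Vr k (x m) : ℝ) * φ m := by
        exact_mod_cast H.hφ m
      have c : u ^ (100 * (i + 1)) ≤ u ^ (99 * (i + 1)) :=
        pow_le_pow_of_le_one H.hu.le (by linarith [H.hu']) (by omega)
      have c2 := mul_le_mul_of_nonneg_left c hG.le
      have p : 0 ≤ G * u ^ (99 * (i + 1)) := mul_nonneg hG.le (pow_nonneg hu.le _)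
      have a1 := norm_add_le (ray_S k x eu ev eu ev a m - φ m) (φ m)
      rw [sub_add_cancel, Complex.norm_real, Real.norm_eq_abs] at a1
      have a2 := H.up m (i + 1) hm
      have a3 : ‖ray_S k x eu ev eu ev a m‖ ≤ 2 * (G * u ^ (99 * (i + 1))) := by linarith
      calc _ = ‖(ray_V k (ray_X k x eu ev a m) - (Vr k (x m) : ℝ)) *
            ray_S k x eu ev eu ev a m‖ := by
            congr 1
            simp only [Vs]
            linear_combination ray_S_rec k x eu ev eu ev a m - e2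
        _ ≤ 21 * KK k * (2 * (‖a‖ * G) * u ^ (99 * (i + 1))) * (2 * (G * u ^ (99 * (i + 1)))) :=
            (norm_mul_le _ _).trans
              (mul_le_mul t a3 (norm_nonneg _) ((norm_nonneg _).trans t))
        _ = 84 * (‖a‖ * G) * G * u ^ (198 * i + 98) * (KK k * u ^ 100) := by ring
        _ = _ := by rw [H.hK, mul_one])
  exact ⟨(key m i hi hm).1.trans (ray_E'_le H ha hi), (key m i hi hm).2.trans (ray_E'_le H ha hi)⟩

/-- The index of the larger coordinate. -/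
noncomputable def ray_ix (φ : Seq) (j : ℤ) : ℤ := if |φ (j - 1)| ≤ |φ j| then j else j - 1

theorem ray_low (H : ray_Hyp k u G x φ eu ev r) {i0 : ℕ} {a : ℂ}
    (ha : ‖a‖ * G * u ^ (98 * (i0 + 1)) ≤ u ^ 5) {m i : ℕ} (hi : i0 ≤ i) (hm : m + i = r) :
    G * u ^ (100 * i) / 2 ≤ ‖ray_S k x eu ev eu ev a (ray_ix φ m)‖ := by
  obtain ⟨b, c⟩ := ray_E' H ha hi hm
  have l := H.lo m i hm
  have p : 0 ≤ G * u ^ (100 * i) := mul_nonneg H.hG.le (pow_nonneg H.hu.le _)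
  generalize G * u ^ (100 * i) = w at *
  have key : ∀ (s : ℂ) (y y' : ℝ), ‖s - y‖ ≤ w / 100 → |y'| ≤ |y| → w ^ 2 ≤ y ^ 2 + y' ^ 2 →
      w / 2 ≤ ‖s‖ := by
    intro s y y' h1 h2 h3
    have h4 := sq_le_sq.2 h2
    have h5 : 7 / 10 * w ≤ |y| := by
      refine abs_le_of_sq_le_sq' ?_ (abs_nonneg _) |>.2
      rw [sq_abs]; nlinarith
    have h6 := norm_sub_le s (s - y)
    rw [sub_sub_cancel, Complex.norm_real, Real.norm_eq_abs] at h6
    linarith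
  unfold ray_ix
  unfold nq at l
  split_ifs with h
  · exact key _ _ _ b h l
  · exact key _ _ _ c (not_le.1 h).le (by linarith)

end Vale.Agent.P108
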