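import Vale.Agent.P108.RayB

/-! The ratio of tangent solutions is almost quadratic. -/

namespace Vale.Agent.P108

open MeasureTheory Filter
open scoped Classical

/-- The ratio at level j. -/
noncomputable def ray_th (k : ℝ) (x φ : Seq) (eu ev cu cv : ℝ) (j : ℤ) (a : ℂ) : ℂ :=
  ray_S k x eu ev cu cv a (ray_ix φ j) / ray_S k x eu ev eu ev a (ray_ix φ j)

variable {k u G : ℝ} {x φ : Seq} {eu ev cu cv : ℝ} {r : ℕ}

theorem ray_ne (H : ray_Hyp k u G x φ eu ev r) {i0 : ℕ} {a : ℂ}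
    (ha : ‖a‖ * G * u ^ (98 * (i0 + 1)) ≤ u ^ 5) {m i : ℕ} (hi : i0 ≤ i) (hm : m + i = r) :
    ray_S k x eu ev eu ev a (ray_ix φ m) ≠ 0 := by
  have := ray_low H ha hi hm
  have p : 0 < G * u ^ (100 * i) := mul_pos H.hG (pow_pos H.hu _)
  exact norm_pos_iff.1 (by linarith)

theorem ray_D (H : ray_Hyp k u G x φ eu ev r) (hW : |ev * cu - eu * cv| = 1) {m i : ℕ}
    (hm : m + (i + 1) = r) {a : ℂ} (ha : ‖a‖ * G * u ^ (98 * (i + 1)) ≤ u ^ 5) :
    ‖ray_th k x φ eu ev cu cv (m + 1 : ℕ) a - ray_th k x φ eu ev cu cv m a‖ ≤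
      8 / (G ^ 2 * u ^ (200 * i + 200)) := by
  have l1 := ray_low H ha (m := m + 1) le_rfl (by omega)
  have l2 := ray_low H ha (Nat.le_add_right i 1) hm
  have n1 := ray_ne H ha (m := m + 1) le_rfl (by omega)
  have n2 := ray_ne H ha (Nat.le_add_right i 1) hm
  have hV := (ray_V_le H ha le_rfl hm).2
  have K4 := four_le_KK H.hk
  have hG := H.hG
  have hu := H.hu
  have W0 := ray_W k x eu ev cu cv a m
  have W1 := ray_W k x eu ev cu cv a (m + 1)
  have r1 := ray_S_rec k x eu ev eu ev a m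
  have r2 := ray_S_rec k x eu ev cu cv a m
  have nW : ‖((ev * cu - eu * cv : ℝ) : ℂ)‖ = 1 := by rw [Complex.norm_real]; exact hW
  unfold ray_th
  rw [div_sub_div _ _ n1 n2, norm_div, norm_mul]
  have num : ‖ray_S k x eu ev cu cv a (ray_ix φ (m + 1 : ℕ)) * ray_S k x eu ev eu ev a (ray_ix φ m) -
      ray_S k x eu ev eu ev a (ray_ix φ (m + 1 : ℕ)) * ray_S k x eu ev cu cv a (ray_ix φ m)‖ ≤
      2 * KK k := by
    generalize ((ev * cu - eu * cv : ℝ) : ℂ) = W at W0 W1 nW
    push_cast at W1 ⊢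
    rw [add_sub_cancel_right] at W1
    unfold ray_ix
    rw [add_sub_cancel_right]
    generalize ray_S k x eu ev cu cv a = C at *
    generalize ray_S k x eu ev eu ev a = S at *
    generalize ray_V k (ray_X k x eu ev a m) = V at *
    split_ifs
    · rw [show C (m + 1) * S m - S (m + 1) * C m = -W by linear_combination -W1, norm_neg]
      linarith
    · rw [show C (m + 1) * S (m - 1) - S (m + 1) * C (m - 1) = -(V * W) by
        linear_combination S (m - 1) * r2 - C (m - 1) * r1 - V * W0, norm_neg, norm_mul, nW]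
      linarith
    · rw [show C m * S m - S m * C m = 0 by ring, norm_zero]
      linarith
    · rw [show C m * S (m - 1) - S m * C (m - 1) = -W by linear_combination -W0, norm_neg]
      linarith
  calc _ ≤ 2 * KK k / (G * u ^ (100 * i) / 2 * (G * u ^ (100 * (i + 1)) / 2)) :=
        div_le_div₀ (by linarith) num (by positivity)
          (mul_le_mul l1 l2 (by positivity) (norm_nonneg _))
    _ = 8 / (G ^ 2 * u ^ (200 * i + 200)) * (KK k * u ^ 100) := by field_simp; ring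
    _ = _ := by rw [H.hK, mul_one]

theorem ray_th_diff (H : ray_Hyp k u G x φ eu ev r) {i0 m i : ℕ} (hi : i0 ≤ i) (hm : m + i = r)
    {s : Set ℂ} (hs : ∀ a ∈ s, ‖a‖ * G * u ^ (98 * (i0 + 1)) ≤ u ^ 5) :
    DifferentiableOn ℂ (ray_th k x φ eu ev cu cv m) s :=
  (ray_S_diff k x eu ev cu cv _).differentiableOn.div
    (ray_S_diff k x eu ev eu ev _).differentiableOn fun a ha => ray_ne H (hs a ha) hi hm

theorem ray_poly (H : ray_Hyp k u G x φ eu ev r) (hW : |ev * cu - eu * cv| = 1) :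
    ∀ m i : ℕ, m + i = r → ∃ c0 c1 c2 : ℂ, ∀ a : ℂ, ‖a‖ * G * u ^ 98 < u ^ 5 →
      ‖ray_th k x φ eu ev cu cv m a - (c0 + c1 * a + c2 * a ^ 2)‖ ≤
        128 * (‖a‖ ^ 3 * G * u ^ (94 * i + 79)) := by
  have hG := H.hG
  have hu := H.hu
  intro m
  induction m with
  | zero =>
    intro i _
    refine ⟨ray_th k x φ eu ev cu cv (0 : ℕ) 0, 0, 0, fun a _ => ?_⟩
    have : ray_th k x φ eu ev cu cv (0 : ℕ) a = ray_th k x φ eu ev cu cv (0 : ℕ) 0 := by
      unfold ray_th ray_ix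
      split_ifs <;> simp [ray_S_zero, ray_S_neg]
    rw [this]
    simp only [zero_mul, add_zero, sub_self, norm_zero]
    positivity
  | succ m ih =>
    intro i hm
    obtain ⟨c0, c1, c2, hc⟩ := ih (i + 1) (by omega)
    have p : 0 < G * u ^ (98 * (i + 1)) := by positivity
    have hb : ∀ a ∈ Metric.ball (0 : ℂ) (u ^ 5 / (G * u ^ (98 * (i + 1)))),
        ‖a‖ * G * u ^ (98 * (i + 1)) ≤ u ^ 5 := fun a ha => by
      rw [mem_ball_zero_iff, lt_div_iff₀ p, ← mul_assoc] at ha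
      exact ha.le
    obtain ⟨d0, d1, d2, hd⟩ := cubic (by positivity)
      ((ray_th_diff (cu := cu) (cv := cv) H (m := m + 1) le_rfl hm hb).sub
        (ray_th_diff (cu := cu) (cv := cv) H (m := m) (Nat.le_add_right i 1) (by omega) hb))
      fun a ha => ray_D H hW (by omega) (hb a ha)
    refine ⟨c0 + d0, c1 + d1, c2 + d2, fun a ha => ?_⟩
    have c : u ^ (98 * (i + 1)) ≤ u ^ 98 :=
      pow_le_pow_of_le_one H.hu.le (by linarith [H.hu']) (by omega)
    have h1 := hc a ha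
    have h2 := hd a (by
      rw [mem_ball_zero_iff, lt_div_iff₀ p, ← mul_assoc]
      exact (mul_le_mul_of_nonneg_left c (by positivity)).trans_lt ha)
    simp only [sub_zero, Pi.sub_apply] at h2
    have e1 : 8 * (8 / (G ^ 2 * u ^ (200 * i + 200))) *
        (‖a‖ / (u ^ 5 / (G * u ^ (98 * (i + 1))))) ^ 3 =
        64 * (‖a‖ ^ 3 * G * u ^ (94 * i + 79)) := by field_simp; ring
    have e2 : ‖a‖ ^ 3 * G * u ^ (94 * (i + 1) + 79) =
        ‖a‖ ^ 3 * G * u ^ (94 * i + 79) * u ^ 94 := by ring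
    have q : 0 ≤ ‖a‖ ^ 3 * G * u ^ (94 * i + 79) :=
      mul_nonneg (mul_nonneg (pow_nonneg (norm_nonneg _) _) hG.le) (pow_nonneg hu.le _)
    have u94 : u ^ 94 ≤ 1 / 10 :=
      (pow_le_of_le_one hu.le (by linarith [H.hu']) (by norm_num)).trans H.hu'
    have q2 := mul_le_mul_of_nonneg_left u94 q
    rw [e1] at h2
    rw [e2] at h1
    refine le_trans (le_of_eq ?_) ((norm_add_le _ _).trans ((add_le_add h1 h2).trans (by linarith)))
    congr 1; ring

end Vale.Agent.P108
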