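import Vale.Agent.P108.Defs

/-! Second order recursions. -/

namespace Vale.Agent.P108

section
variable {G : Type} [AddCommGroup G]

@[simp] theorem bi_zero (g : ℤ → G → G) (a b : G) : bi g a b 0 = a := by simp [bi, fw]
@[simp] theorem bi_neg_one (g : ℤ → G → G) (a b : G) : bi g a b (-1) = b := by simp [bi, fw]

theorem bi_nat (g : ℤ → G → G) (a b : G) (n : ℕ) :
    bi g a b n = (fw g a b n).1 ∧ bi g a b (n - 1) = (fw g a b n).2 := by
  refine ⟨by simp [bi], ?_⟩
  cases n with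
  | zero => simp [fw]
  | succ n => simp [bi, fw]

theorem bi_rf (g : ℤ → G → G) (a b : G) (j : ℤ) :
    bi (fun i => g (-1 - i)) b a j = bi g a b (-1 - j) := by
  unfold bi
  by_cases h : 0 ≤ j
  · rw [if_pos h, if_neg (by omega)]; simp
  · rw [if_neg h, if_pos (by omega)]; simp

theorem rec_bi (g : ℤ → G → G) (a b : G) : Rec g (bi g a b) := by
  have key : ∀ (g : ℤ → G → G) (a b : G) (n : ℕ),
      bi g a b (n + 1) + bi g a b (n - 1) = g n (bi g a b n) := fun g a b n => by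
    have h := (bi_nat g a b (n + 1)).1
    push_cast at h
    rw [h, (bi_nat g a b n).1, (bi_nat g a b n).2, fw]; simp
  intro j
  by_cases h : 0 ≤ j
  · obtain ⟨n, rfl⟩ := Int.eq_ofNat_of_zero_le h
    exact key g a b n
  · obtain ⟨n, hn⟩ := Int.eq_ofNat_of_zero_le (show 0 ≤ -1 - j by omega)
    have := key (fun i => g (-1 - i)) b a n
    simp only [bi_rf] at this
    rw [← hn, show -1 - (-1 - j + 1) = j - 1 by ring, show -1 - (-1 - j - 1) = j + 1 by ring,
      show -1 - (-1 - j) = j by ring, add_comm] at this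
    exact this

theorem Rec.ext {g : ℤ → G → G} {x y : ℤ → G} (hx : Rec g x) (hy : Rec g y) {s : ℤ}
    (h0 : x s = y s) (h1 : x (s - 1) = y (s - 1)) : x = y := by
  have key : ∀ j, x j = y j ∧ x (j - 1) = y (j - 1) := fun j => by
    induction j using Int.inductionOn' (b := s) with
    | zero => exact ⟨h0, h1⟩
    | succ j _ ih =>
      refine ⟨?_, by simpa using ih.1⟩
      rw [eq_sub_of_add_eq (hx j), eq_sub_of_add_eq (hy j), ih.1, ih.2]
    | pred j _ ih =>
      refine ⟨ih.2, ?_⟩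
      have a := hx (j - 1)
      have b := hy (j - 1)
      rw [sub_add_cancel] at a b
      rw [eq_sub_of_add_eq' a, eq_sub_of_add_eq' b, ih.1, ih.2]
  exact funext fun j => (key j).1

theorem Rec.sh {g : ℤ → G → G} {x : ℤ → G} (hx : Rec g x) (c : ℤ) :
    Rec (fun j => g (j + c)) (sh c x) := fun j => by
  have := hx (j + c)
  simp only [Vale.Agent.P108.sh]
  rwa [show j + 1 + c = j + c + 1 by ring, show j - 1 + c = j + c - 1 by ring]

theorem Rec.rf {g : ℤ → G → G} {x : ℤ → G} (hx : Rec g x) :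
    Rec (fun j => g (-1 - j)) (rf x) := fun j => by
  have := hx (-1 - j)
  simp only [Vale.Agent.P108.rf]
  rwa [show -1 - (j + 1) = -1 - j - 1 by ring, show -1 - (j - 1) = -1 - j + 1 by ring, add_comm]

theorem Rec.eq_bi {g : ℤ → G → G} {x : ℤ → G} (hx : Rec g x) : x = bi g (x 0) (x (-1)) :=
  hx.ext (rec_bi _ _ _) (s := 0) (by simp) (by simp)

theorem exists_rec (g : ℤ → G → G) (s : ℤ) (a b : G) : ∃ x, Rec g x ∧ x s = a ∧ x (s - 1) = b := by
  refine ⟨sh (-s) (bi (fun j => g (j + s)) a b), ?_, by simp [sh], ?_⟩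
  · simpa using (rec_bi (fun j => g (j + s)) a b).sh (-s)
  · simp only [sh]; rw [show s - 1 + -s = -1 by ring, bi_neg_one]

theorem bi_map {H : Type} [AddCommGroup H] (π : G →+ H) {g : ℤ → G → G} {g' : ℤ → H → H}
    (hg : ∀ j y, π (g j y) = g' j (π y)) (a b : G) (j : ℤ) :
    π (bi g a b j) = bi g' (π a) (π b) j := by
  have h : Rec g' fun j => π (bi g a b j) := fun j => by rw [← map_add, rec_bi g a b j, hg]
  simpa using congrFun h.eq_bi j

theorem continuous_bi {Z : Type} [TopologicalSpace Z] [TopologicalSpace G] [IsTopologicalAddGroup G]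
    {g : Z → ℤ → G → G} (hg : ∀ j, Continuous fun p : Z × G => g p.1 j p.2) {a b : Z → G}
    (ha : Continuous a) (hb : Continuous b) (j : ℤ) :
    Continuous fun z => bi (g z) (a z) (b z) j := by
  have key : ∀ {g : Z → ℤ → G → G} (_ : ∀ j, Continuous fun p : Z × G => g p.1 j p.2)
      {a b : Z → G} (_ : Continuous a) (_ : Continuous b) (n : ℕ),
      Continuous fun z => fw (g z) (a z) (b z) n := by
    intro g hg a b ha hb n
    induction n with
    | zero => exact ha.prodMk hb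
    | succ n ih =>
      exact (((hg n).comp (continuous_id.prodMk ih.fst)).sub ih.snd).prodMk ih.fst
  unfold bi
  split_ifs
  · exact (key hg ha hb _).fst
  · exact (key (g := fun z i => g z (-1 - i)) (fun j => hg _) hb ha _).fst

@[simp] theorem rf_rf {G : Type} (x : ℤ → G) : rf (rf x) = x := by funext j; simp [rf]
@[simp] theorem sh_zero {G : Type} (x : ℤ → G) : sh 0 x = x := by funext j; simp [sh]
theorem sh_sh {G : Type} (c d : ℤ) (x : ℤ → G) : sh c (sh d x) = sh (c + d) x := by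
  funext j; simp [sh, add_assoc]

end

theorem isSol_gs (V : Seq) (a b : ℝ) : IsSol V (gs V a b) := rec_bi (fun j y => V j * y) a b
@[simp] theorem gs_zero (V : Seq) (a b : ℝ) : gs V a b 0 = a := bi_zero _ _ _
@[simp] theorem gs_neg_one (V : Seq) (a b : ℝ) : gs V a b (-1) = b := bi_neg_one _ _ _
theorem IsSol.ext {V φ ψ : Seq} (h1 : IsSol V φ) (h2 : IsSol V ψ) {s : ℤ} (h0 : φ s = ψ s)
    (h : φ (s - 1) = ψ (s - 1)) : φ = ψ := Rec.ext (g := fun j y => V j * y) h1 h2 h0 h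
theorem exists_sol (V : Seq) (s : ℤ) (a b : ℝ) : ∃ ψ, IsSol V ψ ∧ ψ s = a ∧ ψ (s - 1) = b :=
  exists_rec (fun j y => V j * y) s a b
theorem IsSol.sh {V ψ : Seq} (h : IsSol V ψ) (c : ℤ) : IsSol (sh c V) (sh c ψ) :=
  Rec.sh (g := fun j y => V j * y) h c
theorem IsSol.rf {V ψ : Seq} (h : IsSol V ψ) : IsSol (rf V) (rf ψ) :=
  Rec.rf (g := fun j y => V j * y) h
theorem IsSol.lin {V φ ψ : Seq} (h1 : IsSol V φ) (h2 : IsSol V ψ) (a b : ℝ) :
    IsSol V fun j => a * φ j + b * ψ j := fun j => by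
  linear_combination a * h1 j + b * h2 j
theorem IsSol.smul {V φ : Seq} (h1 : IsSol V φ) (a : ℝ) : IsSol V fun j => a * φ j := fun j => by
  linear_combination a * h1 j
theorem IsSol.eq_gs {V ψ : Seq} (h : IsSol V ψ) : ψ = gs V (ψ 0) (ψ (-1)) :=
  Rec.eq_bi (g := fun j y => V j * y) h

theorem isOrb_XR (k : ℝ) (z : ℝ × ℝ) : IsOrb k (XR k z) := rec_bi (fun _ => gk k) z.2 z.1
@[simp] theorem XR_zero (k : ℝ) (z : ℝ × ℝ) : XR k z 0 = z.2 := bi_zero _ _ _
@[simp] theorem XR_neg_one (k : ℝ) (z : ℝ × ℝ) : XR k z (-1) = z.1 := bi_neg_one _ _ _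
theorem IsOrb.ext {k : ℝ} {x y : Seq} (h1 : IsOrb k x) (h2 : IsOrb k y) {s : ℤ} (h0 : x s = y s)
    (h : x (s - 1) = y (s - 1)) : x = y := Rec.ext (g := fun _ => gk k) h1 h2 h0 h
theorem exists_orb (k : ℝ) (s : ℤ) (a b : ℝ) : ∃ x, IsOrb k x ∧ x s = a ∧ x (s - 1) = b :=
  exists_rec (fun _ => gk k) s a b
theorem IsOrb.sh {k : ℝ} {x : Seq} (h : IsOrb k x) (c : ℤ) : IsOrb k (sh c x) :=
  Rec.sh (g := fun _ => gk k) h c
theorem IsOrb.rf {k : ℝ} {x : Seq} (h : IsOrb k x) : IsOrb k (rf x) :=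
  Rec.rf (g := fun _ => gk k) h
theorem IsOrb.eq_XR {k : ℝ} {x : Seq} (h : IsOrb k x) : x = XR k (x (-1), x 0) :=
  Rec.eq_bi (g := fun _ => gk k) h
theorem XR_swap (k : ℝ) (z : ℝ × ℝ) : XR k z.swap = rf (XR k z) :=
  ((isOrb_XR k z).rf.eq_XR.trans (by simp [rf, Prod.swap])).symm
theorem Vs_rf (k : ℝ) (x : Seq) : Vs k (rf x) = rf (Vs k x) := rfl
theorem Vs_sh (k : ℝ) (c : ℤ) (x : Seq) : Vs k (sh c x) = sh c (Vs k x) := rfl
theorem continuous_XR (k : ℝ) (j : ℤ) : Continuous fun z => XR k z j :=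
  continuous_bi (g := fun _ _ => gk k) (fun _ => by unfold gk; fun_prop) continuous_snd
    continuous_fst j
theorem continuous_gs (j : ℤ) : Continuous fun p : Seq × ℝ × ℝ => gs p.1 p.2.1 p.2.2 j :=
  continuous_bi (g := fun (p : Seq × ℝ × ℝ) j y => p.1 j * y) (fun _ => by fun_prop)
    (by fun_prop) (by fun_prop) j

theorem abs_Vr_le {k : ℝ} (hk : 0 ≤ k) (x : ℝ) : |Vr k x| ≤ KK k - 2 := by
  have h := Real.abs_cos_le_one (2 * Real.pi * x)
  have p : 0 ≤ 2 * Real.pi * k := by positivity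
  rw [abs_le] at h ⊢
  unfold Vr KK
  constructor <;> nlinarith
theorem four_le_KK {k : ℝ} (hk : 0 ≤ k) : 4 ≤ KK k := by
  have p : 0 ≤ 2 * Real.pi * k := by positivity
  unfold KK; linarith
theorem bdd_Vs {k : ℝ} (hk : 0 ≤ k) (x : Seq) : Bdd (KK k) (Vs k x) := fun j => by
  have h := abs_Vr_le hk (x j)
  have := four_le_KK hk
  have h2 : Vr k (x j) ^ 2 ≤ (KK k - 2) ^ 2 := by
    rw [← sq_abs]; exact pow_le_pow_left₀ (abs_nonneg _) h 2
  simp only [Vs]; nlinarith
theorem tendsto_KK : Filter.Tendsto KK Filter.atTop Filter.atTop :=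
  Filter.tendsto_atTop_add_const_right _ _ (Filter.tendsto_id.const_mul_atTop Real.two_pi_pos)
/-- For large k any constant is below any positive power of K. -/
theorem ev_rpow (C : ℝ) {a : ℝ} (ha : 0 < a) : ∀ᶠ k in Filter.atTop, C ≤ KK k ^ a :=
  ((tendsto_rpow_atTop ha).comp tendsto_KK).eventually_ge_atTop C
theorem hasDerivAt_gk (k x : ℝ) : HasDerivAt (gk k) (Vr k x) x := by
  have h := ((hasDerivAt_id x).const_mul 2).add
    (((hasDerivAt_id x).const_mul (2 * Real.pi)).sin.const_mul k)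
  refine h.congr_deriv ?_
  simp only [Vr, id]; ring
theorem abs_Vr_sub_le {k : ℝ} (hk : 0 ≤ k) (x y : ℝ) : |Vr k x - Vr k y| ≤ 7 * KK k * |x - y| := by
  have h := Real.abs_cos_sub_cos_le (2 * Real.pi * x) (2 * Real.pi * y)
  have p : 0 ≤ 2 * Real.pi * k := by positivity
  rw [← mul_sub, abs_mul, abs_of_pos Real.two_pi_pos] at h
  rw [show Vr k x - Vr k y = 2 * Real.pi * k * (Real.cos (2 * Real.pi * x) -
    Real.cos (2 * Real.pi * y)) by unfold Vr; ring, abs_mul, abs_of_nonneg p]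
  have a := abs_nonneg (x - y)
  have q : 2 * Real.pi * |x - y| ≤ 7 * |x - y| := by nlinarith [Real.pi_lt_d2]
  calc _ ≤ 2 * Real.pi * k * (7 * |x - y|) := mul_le_mul_of_nonneg_left (h.trans q) p
    _ ≤ _ := by unfold KK; nlinarith
/-- Mean value form of the difference of forces. -/
theorem exists_mean {k : ℝ} (hk : 0 ≤ k) {x x' y w : ℝ} (h1 : |x - y| ≤ w) (h2 : |x' - y| ≤ w) :
    ∃ U : ℝ, gk k x - gk k x' = U * (x - x') ∧ |U - Vr k y| ≤ 7 * KK k * w ∧ |U| ≤ KK k - 2 := by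
  have K0 : 0 ≤ 7 * KK k := by linarith [four_le_KK hk]
  have key : ∀ a b : ℝ, a < b → |a - y| ≤ w → |b - y| ≤ w → ∃ U : ℝ,
      gk k b - gk k a = U * (b - a) ∧ |U - Vr k y| ≤ 7 * KK k * w ∧ |U| ≤ KK k - 2 := by
    intro a b hab ha hb
    obtain ⟨c, hc, e⟩ := exists_hasDerivAt_eq_slope (gk k) (Vr k) hab
      (fun t _ => (hasDerivAt_gk k t).continuousAt.continuousWithinAt) fun t _ => hasDerivAt_gk k t
    refine ⟨Vr k c, by rw [e, div_mul_cancel₀ _ (by linarith)], (abs_Vr_sub_le hk c y).trans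
      (mul_le_mul_of_nonneg_left ?_ K0), abs_Vr_le hk c⟩
    rw [abs_le] at ha hb ⊢
    constructor <;> linarith [hc.1, hc.2]
  rcases lt_trichotomy x x' with h | rfl | h
  · obtain ⟨U, e, b⟩ := key x x' h h1 h2
    exact ⟨U, by linarith, b⟩
  · exact ⟨Vr k y, by simp, by simpa using mul_nonneg K0 ((abs_nonneg _).trans h1), abs_Vr_le hk y⟩
  · exact key x' x h h2 h1

end Vale.Agent.P108
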