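import Vale.Agent.P108.Ext

/-! Real variable part of the rigidity lemma. -/

namespace Vale.Agent.P108

open Real Set

/-- The normalised potential. -/
noncomputable def Cc (ν x : ℝ) : ℝ := cos (2 * π * x) + ν

/-- Almost linear and almost quadratic functions on the unit interval. -/
structure Ap (h ν u : ℝ) (x : ℝ → ℝ) : Prop where
  cont : ContinuousOn x (Icc 0 1)
  lin : ∀ s ∈ Icc (0 : ℝ) 1, ∀ s' ∈ Icc (0 : ℝ) 1, |x s' - x s - (s' - s) * u| ≤ h ^ 40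
  quad : ∃ c0 c1 c2 : ℝ, ∀ s ∈ Icc (0 : ℝ) 1, |x s - (c0 + c1 * s + c2 * s ^ 2)| ≤ h ^ 75
  slow : |u| ≤ h ^ 2 → ∀ s ∈ Icc (0 : ℝ) 1, h ^ 5 ≤ |Cc ν (x s)|

theorem Cc_neg (ν x : ℝ) : Cc ν (-x) = Cc ν x := by simp [Cc]

theorem Ap.neg {h ν u : ℝ} {x : ℝ → ℝ} (H : Ap h ν u x) : Ap h ν (-u) fun s => -x s := by
  refine ⟨H.cont.neg, fun s hs s' hs' => ?_, ?_, fun a s hs => ?_⟩
  · have := H.lin s hs s' hs'
    rwa [← abs_neg, show -(x s' - x s - (s' - s) * u) = -x s' - -x s - (s' - s) * -u by ring] at this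
  · obtain ⟨c0, c1, c2, b⟩ := H.quad
    refine ⟨-c0, -c1, -c2, fun s hs => ?_⟩
    have := b s hs
    rwa [← abs_neg, show -(x s - (c0 + c1 * s + c2 * s ^ 2)) =
      -x s - (-c0 + -c1 * s + -c2 * s ^ 2) by ring] at this
  · rw [Cc_neg]; exact H.slow (by rwa [abs_neg] at a) s hs

theorem Ap.abs {h ν u : ℝ} {x : ℝ → ℝ} (H : Ap h ν u x) :
    ∃ x', Ap h ν |u| x' ∧ ∀ s, Cc ν (x' s) = Cc ν (x s) := by
  rcases le_total 0 u with a | a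
  · exact ⟨x, by rwa [abs_of_nonneg a], fun _ => rfl⟩
  · exact ⟨_, by rw [abs_of_nonpos a]; exact H.neg, fun _ => Cc_neg _ _⟩

theorem rig_pw {h : ℝ} (h0 : 0 < h) (h1 : h ≤ 1 / 10 ^ 20) {a b : ℕ} (hab : b < a) :
    h ^ a ≤ h ^ b / 10 ^ 20 := by
  have : h ^ a ≤ h ^ (b + 1) := pow_le_pow_of_le_one h0.le (by linarith) hab
  have p := pow_pos h0 b
  rw [pow_succ] at this
  nlinarith

theorem rig_near {e y : ℝ} (h : |cos (2 * π * y)| ≤ e) : ∃ n : ℤ, |y - 1 / 4 - n / 2| ≤ e / 4 := by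
  refine ⟨round (2 * y - 1 / 2), ?_⟩
  set n := round (2 * y - 1 / 2)
  have a : |2 * y - 1 / 2 - n| ≤ 1 / 2 := abs_sub_round _
  set t := y - 1 / 4 - n / 2 with ht
  have b : |t| ≤ 1 / 4 := by
    rw [abs_le] at a ⊢; constructor <;> linarith [a.1, a.2]
  have e1 : 2 * π * y = 2 * π * t + π / 2 + n * π := by rw [ht]; ring
  rw [e1, cos_add_int_mul_pi, cos_add_pi_div_two, abs_mul, abs_neg, abs_neg_one_zpow, one_mul] at h
  have p := pi_pos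
  have c : |2 * π * t| = 2 * π * |t| := by rw [abs_mul, abs_of_pos (by positivity)]
  have d := mul_abs_le_abs_sin (x := 2 * π * t) (by rw [c]; nlinarith)
  rw [c, show 2 / π * (2 * π * |t|) = 4 * |t| by field_simp; ring] at d
  linarith

theorem rig_sin {a t η : ℝ} (ha : 0 ≤ a) (ha' : a ≤ 1) (hη : 0 < η) (ht : |t| ≤ π)
    (h : a * sin t ≤ -η) : t ≤ -η := by
  have s0 : sin t < 0 := by
    by_contra c
    nlinarith [mul_nonneg ha (not_lt.1 c)]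
  have t0 : t ≤ 0 := by
    by_contra c
    linarith [sin_nonneg_of_nonneg_of_le_pi (not_le.1 c).le (abs_le.1 ht).2]
  nlinarith [le_sin t0]

theorem Ap.ivt {h ν u : ℝ} {x : ℝ → ℝ} (H : Ap h ν u x) (h1 : h ^ 40 ≤ 1) (hu : 100 ≤ u) {t z : ℝ}
    (t0 : 0 ≤ t) (t1 : t + 1 / 10 ≤ 1) (z0 : x t ≤ z) (z1 : z ≤ x t + 9) :
    ∃ s ∈ Icc t (t + 1 / 10), x s = z := by
  have a := abs_le.1 (H.lin t ⟨t0, by linarith⟩ (t + 1 / 10) ⟨by linarith, t1⟩)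
  exact intermediate_value_Icc (by linarith) (H.cont.mono (Icc_subset_Icc t0 t1))
    ⟨z0, by linarith [a.1]⟩

/-- One step between two points where the second cosine is small. -/
theorem rig_step {h ν u v γ : ℝ} {x y : ℝ → ℝ} (h0 : 0 < h) (h1 : h ≤ 1 / 10 ^ 20)
    (hx : Ap h ν u x) (hy : Ap h ν v y) (hu : 100 ≤ u) (hu' : u ≤ 200) (hv : h ^ 2 < v)
    (hv' : v ≤ u) {s s' : ℝ} (hs : s ∈ Icc (0 : ℝ) 1) (hs' : s' ∈ Icc (0 : ℝ) 1) (hγ : γ ≤ h ^ 3)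
    (c1 : |cos (2 * π * y s)| ≤ γ) (c2 : |cos (2 * π * y s')| ≤ γ) (d1 : 1 / 6 ≤ x s' - x s) :
    1 / 2 - γ ≤ x s' - x s + 2 * h ^ 40 - (s' - s) * (u - v) ∧ 1 / 2000 ≤ s' - s := by
  obtain ⟨n, hn⟩ := rig_near c1
  obtain ⟨n', hn'⟩ := rig_near c2
  have a := abs_le.1 (hx.lin s hs s' hs')
  have b := abs_le.1 (hy.lin s hs s' hs')
  have p1 := rig_pw h0 h1 (show 0 < 40 by norm_num)
  have p2 := rig_pw h0 h1 (show 2 < 40 by norm_num)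
  have p3 := rig_pw h0 h1 (show 2 < 3 by norm_num)
  have p4 := pow_pos h0 2
  rw [abs_le] at hn hn'
  have e : 1 / 2000 ≤ s' - s := by
    by_contra c
    nlinarith [a.2]
  have f : h ^ 2 / 2000 ≤ (s' - s) * v := by nlinarith
  have g : (0 : ℝ) < (n' - n : ℤ) := by push_cast; linarith [b.1, hn.1, hn'.2]
  have g' : (1 : ℝ) ≤ (n' - n : ℤ) := by exact_mod_cast g
  push_cast at g'
  exact ⟨by nlinarith [a.1, b.2, hn.2, hn'.1, (abs_nonneg _).trans c1], e⟩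

theorem rig_node0 {h ν u v : ℝ} {x y : ℝ → ℝ} (h0 : 0 < h) (h1 : h ≤ 1 / 10 ^ 20) (n0 : 0 ≤ ν)
    (n1 : ν ≤ 3 * h ^ 50) (hx : Ap h ν u x) (hy : Ap h ν v y) (hu : 100 ≤ u) (hu' : u ≤ 200)
    (hv0 : 0 ≤ v) (hv' : v ≤ u) {t : ℝ} (t0 : 0 ≤ t) (t1 : t + 1 / 10 ≤ 1) :
    ∃ s ∈ Icc t (t + 1 / 10), h ^ 25 ≤ |Cc ν (x s)| ∧ h ^ 25 ≤ |Cc ν (y s)| := by
  have p1 := rig_pw h0 h1 (show 0 < 40 by norm_num)
  have p2 := rig_pw h0 h1 (show 0 < 25 by norm_num)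
  have p3 := rig_pw h0 h1 (show 5 < 25 by norm_num)
  have p4 := rig_pw h0 h1 (show 3 < 25 by norm_num)
  have p5 := rig_pw h0 h1 (show 25 < 50 by norm_num)
  have p6 := rig_pw h0 h1 (show 0 < 3 by norm_num)
  have q1 := pow_pos h0 5
  have q2 := pow_pos h0 25
  have a := Int.le_ceil (x t)
  have b := Int.ceil_lt_add_one (x t)
  obtain ⟨s, hs, e⟩ := hx.ivt (by linarith) hu t0 t1 a (by linarith)
  obtain ⟨s', hs', e'⟩ := hx.ivt (z := ⌈x t⌉ + 1 / 6) (by linarith) hu t0 t1 (by linarith)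
    (by linarith)
  have i : s ∈ Icc (0 : ℝ) 1 := ⟨by linarith [hs.1], by linarith [hs.2]⟩
  have i' : s' ∈ Icc (0 : ℝ) 1 := ⟨by linarith [hs'.1], by linarith [hs'.2]⟩
  have c : h ^ 25 ≤ |Cc ν (x s)| := by
    refine le_trans ?_ (le_abs_self _)
    rw [Cc, e, mul_comm, cos_int_mul_two_pi]; linarith
  have c' : h ^ 25 ≤ |Cc ν (x s')| := by
    refine le_trans ?_ (le_abs_self _)
    rw [Cc, e', show 2 * π * (⌈x t⌉ + 1 / 6) = π / 3 + ⌈x t⌉ * (2 * π) by ring,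
      cos_add_int_mul_two_pi, cos_pi_div_three]; linarith
  by_contra con
  push Not at con
  have d := con s hs c
  have d' := con s' hs' c'
  have hv : h ^ 2 < v := by
    by_contra w
    linarith [hy.slow (by rw [abs_of_nonneg hv0]; exact not_lt.1 w) s i]
  have k : ∀ z, |Cc ν z| < h ^ 25 → |cos (2 * π * z)| ≤ 2 * h ^ 25 := fun z w => by
    rw [Cc, abs_lt] at w
    rw [abs_le]; constructor <;> linarith [w.1, w.2]
  obtain ⟨f, g⟩ := rig_step h0 h1 hx hy hu hu' hv hv' i i' (by linarith) (k _ d) (k _ d')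
    (by linarith)
  nlinarith

theorem rig_node {h ν u v : ℝ} {x y : ℝ → ℝ} (h0 : 0 < h) (h1 : h ≤ 1 / 10 ^ 20) (n0 : 0 ≤ ν)
    (n1 : ν ≤ 3 * h ^ 50) (hx : Ap h ν u x) (hy : Ap h ν v y) (hu : 100 ≤ max |u| |v|)
    (hu' : max |u| |v| ≤ 200) {t : ℝ} (t0 : 0 ≤ t) (t1 : t + 1 / 10 ≤ 1) :
    ∃ s ∈ Icc t (t + 1 / 10), h ^ 25 ≤ |Cc ν (x s)| ∧ h ^ 25 ≤ |Cc ν (y s)| := by
  obtain ⟨x', a, ex⟩ := hx.abs
  obtain ⟨y', b, ey⟩ := hy.abs
  simp only [← ex, ← ey]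
  rcases le_total |v| |u| with w | w
  · rw [max_eq_left w] at hu hu'
    exact rig_node0 h0 h1 n0 n1 a b hu hu' (abs_nonneg _) w t0 t1
  · rw [max_eq_right w] at hu hu'
    obtain ⟨s, c, d, e⟩ := rig_node0 h0 h1 n0 n1 b a hu hu' (abs_nonneg _) w t0 t1
    exact ⟨s, c, e, d⟩

theorem rig_cos {z : ℝ} (z0 : -1 / 2 ≤ z) (z1 : z ≤ 1) :
    ∃ c ∈ Icc (0 : ℝ) (1 / 3), cos (2 * π * c) = z := by
  refine intermediate_value_Icc' (by norm_num) (f := fun c => cos (2 * π * c)) (by fun_prop) ⟨?_, ?_⟩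
  · simp only [show 2 * π * (1 / 3) = π - π / 3 by ring, cos_pi_sub, cos_pi_div_three]; linarith
  · simpa using z1

end Vale.Agent.P108
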