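import Vale.Agent.P108.RigidA

/-! Real variable part of the rigidity lemma: the final contradiction. -/

namespace Vale.Agent.P108

open Real Set

theorem rig_pc (a : ℝ) (m : ℤ) : cos (2 * π * (a + m)) = cos (2 * π * a) := by
  rw [mul_add, mul_comm (2 * π) m, cos_add_int_mul_two_pi]
theorem rig_ps (a : ℝ) (m : ℤ) : sin (2 * π * (a + m)) = sin (2 * π * a) := by
  rw [mul_add, mul_comm (2 * π) m, sin_add_int_mul_two_pi]
theorem rig_half (x y : ℝ) (m : ℤ) :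
    cos (2 * π * y) = (-1) ^ m * cos (2 * π * x + 2 * π * (y - x - m / 2)) := by
  rw [← cos_add_int_mul_pi]; congr 1; ring
theorem rig_abs {d e : ℝ} (h : |d| ≤ e) : |2 * π * d| ≤ 8 * e := by
  rw [abs_mul, abs_of_pos two_pi_pos]
  nlinarith [abs_nonneg d, pi_le_four]

theorem rig_even {h ν x y a b c : ℝ} (h0 : 0 < h) (h1 : h ≤ 1 / 10 ^ 20) {m : ℤ} (w : Even m)
    (D : |y - x - m / 2| ≤ 7000 * h ^ 40) (z : Cc ν x = h ^ 35) (ha : 1 ≤ a) (hb : 0 ≤ b)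
    (hc : |c| * h ^ 34 ≤ 1) (r : |a * Cc ν x + b * Cc ν y - c * Cc ν x * Cc ν y| ≤ h ^ 56) :
    False := by
  have p5 := rig_pw h0 h1 (show 35 < 40 by norm_num)
  have p7 := rig_pw h0 h1 (show 35 < 36 by norm_num)
  have p8 := rig_pw h0 h1 (show 35 < 56 by norm_num)
  have q4 := pow_pos h0 35
  have z' : |Cc ν y - Cc ν x| ≤ 8 * (7000 * h ^ 40) := by
    rw [Cc, Cc, add_sub_add_right_eq_sub, rig_half x y m, w.neg_one_zpow, one_mul]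
    exact (abs_cos_sub_cos_le _ _).trans (by rw [add_sub_cancel_left]; exact rig_abs D)
  rw [z, abs_le] at z'
  rw [z] at r
  have y0 : 0 ≤ Cc ν y := by linarith [z'.1]
  have y1 : c * h ^ 35 * Cc ν y ≤ |c| * h ^ 35 * (2 * h ^ 35) := by
    gcongr
    · exact le_abs_self c
    · linarith [z'.2]
  have y2 : |c| * h ^ 34 * h ^ 36 ≤ 1 * h ^ 36 := by gcongr
  have y3 : 0 ≤ b * Cc ν y := mul_nonneg hb y0
  have y4 : 1 * h ^ 35 ≤ a * h ^ 35 := by gcongr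
  nlinarith [(abs_le.1 r).2]

theorem rig_odd {ν x y σ ε : ℝ} (n0 : 0 < ν) {m : ℤ} (w : Odd m) (D : |y - x - m / 2| ≤ 1 / 8)
    (z : cos (2 * π * x) = -ν) (zy : |Cc ν y| ≤ ν / 2) (s0 : 0 ≤ σ) (s1 : σ ≤ 1)
    (he : ε = 1 ∨ ε = -1) (e : sin (2 * π * x) = ε * σ) : ε * (y - x - m / 2) ≤ -(ν / 16) := by
  have a := (abs_le.1 zy).2
  rw [Cc, rig_half x y m, w.neg_one_zpow, cos_add, z, e] at a
  have D' := rig_abs D
  have b := abs_le.1 D'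
  have p := pi_gt_three
  have p' := pi_le_four
  have c := cos_nonneg_of_mem_Icc (x := 2 * π * (y - x - m / 2)) ⟨by linarith, by linarith⟩
  set d := y - x - m / 2
  have k : ∀ t, 2 * π * t ≤ -(ν / 2) → t ≤ -(ν / 16) := fun t i => by
    by_contra j
    rcases le_total t 0 with l | l <;> nlinarith
  rcases he with rfl | rfl
  · exact k _ (rig_sin s0 s1 (by linarith) (by rw [one_mul]; linarith)
      (by rw [one_mul]; nlinarith))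
  · refine k _ (rig_sin s0 s1 (by linarith) ?_ ?_)
    · rw [neg_one_mul, mul_neg, abs_neg]; linarith
    · rw [neg_one_mul, mul_neg, sin_neg]; nlinarith

theorem rig_zero {h ν v : ℝ} {y : ℝ → ℝ} (h0 : 0 < h) (h1 : h ≤ 1 / 10 ^ 20)
    (n0 : 2 * h ^ 50 ≤ ν) (hy : Ap h ν v y) (hv0 : h ^ 25 ≤ v) {s : ℝ} (i : s ∈ Icc (0 : ℝ) 1)
    (b : v ^ 2 / 4 * |Cc ν (y s)| ≤ h ^ 56) :
    h ^ 2 < v ∧ |Cc ν (y s)| ≤ ν / 2 ∧ |cos (2 * π * y s)| ≤ 2 * ν := by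
  have hv : h ^ 2 < v := by
    by_contra w
    have a := hy.slow (by rw [abs_of_nonneg ((pow_pos h0 _).le.trans hv0)]; exact not_lt.1 w) s i
    have d : (h ^ 25) ^ 2 / 4 * h ^ 5 ≤ v ^ 2 / 4 * |Cc ν (y s)| := by gcongr
    have := rig_pw h0 h1 (show 55 < 56 by norm_num)
    have := pow_pos h0 55
    nlinarith
  have d : (h ^ 2) ^ 2 / 4 * |Cc ν (y s)| ≤ v ^ 2 / 4 * |Cc ν (y s)| := by gcongr
  have p := rig_pw h0 h1 (show 50 < 52 by norm_num)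
  have q : |Cc ν (y s)| ≤ 4 * h ^ 52 := le_of_mul_le_mul_left (a := h ^ 4) (by nlinarith)
    (pow_pos h0 4)
  have r := pow_pos h0 50
  refine ⟨hv, by linarith, ?_⟩
  rw [Cc, abs_le] at q
  rw [abs_le]; constructor <;> linarith [q.1, q.2]

theorem rig_near2 {h ν u v : ℝ} {x y : ℝ → ℝ} (n1 : ν ≤ h ^ 40) (hx : Ap h ν u x)
    (hy : Ap h ν v y) (hv' : v ≤ u) (uv : u - v ≤ 6000 * h ^ 40) {s1 : ℝ} (i1 : s1 ∈ Icc (0 : ℝ) 1)
    (a : |cos (2 * π * x s1)| ≤ ν) (b : |cos (2 * π * y s1)| ≤ 2 * ν) :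
    ∃ m : ℤ, ∀ s ∈ Icc (0 : ℝ) 1, |y s - x s - m / 2| ≤ 7000 * h ^ 40 := by
  obtain ⟨m1, k1⟩ := rig_near b
  obtain ⟨m2, k2⟩ := rig_near a
  refine ⟨m1 - m2, fun s hs => ?_⟩
  have n0 := (abs_nonneg _).trans a
  have a := abs_le.1 (hx.lin s1 i1 s hs)
  have b := abs_le.1 (hy.lin s1 i1 s hs)
  have d : |(s - s1) * (u - v)| ≤ 1 * (6000 * h ^ 40) := by
    rw [abs_mul, abs_of_nonneg (sub_nonneg.2 hv')]
    gcongr
    rw [abs_le]; constructor <;> linarith [hs.1, hs.2, i1.1, i1.2]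
  rw [abs_le] at k1 k2 d ⊢
  push_cast
  constructor <;> linarith [a.1, a.2, b.1, b.2, d.1, d.2, k1.1, k1.2, k2.1, k2.2]

theorem rig_fin0 {h ν u v : ℝ} {x y : ℝ → ℝ} (h0 : 0 < h) (h1 : h ≤ 1 / 10 ^ 20)
    (n0 : 2 * h ^ 50 ≤ ν) (n1 : ν ≤ 3 * h ^ 50) (hx : Ap h ν u x) (hy : Ap h ν v y) (hu : 100 ≤ u)
    (hu' : u ≤ 200) (hv0 : h ^ 25 ≤ v) (hv' : v ≤ u)
    (H : ∀ s ∈ Icc (0 : ℝ) (1 / 2), ∃ a b c : ℝ, u ^ 2 / 4 ≤ a ∧ v ^ 2 / 4 ≤ b ∧ |c| * h ^ 34 ≤ 1 ∧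
      |a * Cc ν (x s) + b * Cc ν (y s) - c * Cc ν (x s) * Cc ν (y s)| ≤ h ^ 56) : False := by
  have p1 := rig_pw h0 h1 (show 0 < 40 by norm_num)
  have p2 := rig_pw h0 h1 (show 0 < 50 by norm_num)
  have p3 := rig_pw h0 h1 (show 40 < 50 by norm_num)
  have p4 := rig_pw h0 h1 (show 3 < 50 by norm_num)
  have q1 := pow_pos h0 50
  have q2 := pow_pos h0 40
  have q3 := pow_pos h0 3
  obtain ⟨c, ⟨c0, c1⟩, hc⟩ := rig_cos (z := -ν) (by linarith) (by linarith)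
  have pp := pi_pos
  have c2 : 1 / 4 ≤ c := by
    by_contra w
    have := cos_nonneg_of_mem_Icc (x := 2 * π * c) ⟨by nlinarith, by nlinarith⟩
    linarith
  have sc : 0 ≤ sin (2 * π * c) := sin_nonneg_of_nonneg_of_le_pi (by positivity) (by nlinarith)
  have iv : ∀ z : ℝ, ⌈x 0⌉ ≤ z → z ≤ ⌈x 0⌉ + 2 → ∃ s, s ∈ Icc (0 : ℝ) 1 ∧
      s ∈ Icc (0 : ℝ) (1 / 2) ∧ x s = z := fun z a b => by
    obtain ⟨s, hs, e⟩ := hx.ivt (by linarith) hu le_rfl (by norm_num) ((Int.le_ceil _).trans a)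
      (by linarith [Int.ceil_lt_add_one (x 0)])
    exact ⟨s, ⟨hs.1, by linarith [hs.2]⟩, ⟨hs.1, by linarith [hs.2]⟩, e⟩
  generalize ⌈x 0⌉ = n at iv
  obtain ⟨s1, i1, j1, e1⟩ := iv (c + n) (by linarith) (by linarith)
  obtain ⟨s2, i2, j2, e2⟩ := iv (-c + (n + 1 : ℤ)) (by push_cast; linarith) (by push_cast; linarith)
  obtain ⟨s3, i3, j3, e3⟩ := iv (c + (n + 1 : ℤ)) (by push_cast; linarith) (by push_cast; linarith)
  obtain ⟨s4, i4, j4, e4⟩ := iv (-c + (n + 2 : ℤ)) (by push_cast; linarith) (by push_cast; linarith)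
  have z1 : cos (2 * π * x s1) = -ν := by rw [e1, rig_pc, hc]
  have z2 : cos (2 * π * x s2) = -ν := by rw [e2, rig_pc, mul_neg, cos_neg, hc]
  have z3 : cos (2 * π * x s3) = -ν := by rw [e3, rig_pc, hc]
  have z4 : cos (2 * π * x s4) = -ν := by rw [e4, rig_pc, mul_neg, cos_neg, hc]
  have t1 : sin (2 * π * x s1) = 1 * sin (2 * π * c) := by rw [e1, rig_ps, one_mul]
  have t2 : sin (2 * π * x s2) = -1 * sin (2 * π * c) := by rw [e2, rig_ps, mul_neg, sin_neg]; ring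
  have t3 : sin (2 * π * x s3) = 1 * sin (2 * π * c) := by rw [e3, rig_ps, one_mul]
  have t4 : sin (2 * π * x s4) = -1 * sin (2 * π * c) := by rw [e4, rig_ps, mul_neg, sin_neg]; ring
  have zz : ∀ s ∈ Icc (0 : ℝ) 1, s ∈ Icc (0 : ℝ) (1 / 2) → cos (2 * π * x s) = -ν →
      h ^ 2 < v ∧ |Cc ν (y s)| ≤ ν / 2 ∧ |cos (2 * π * y s)| ≤ 2 * ν := fun s i hs e => by
    obtain ⟨a, b, c, -, hb, -, w⟩ := H s hs
    have : Cc ν (x s) = 0 := by rw [Cc, e]; ring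
    simp only [this, mul_zero, zero_mul, zero_add, sub_zero, abs_mul] at w
    exact rig_zero h0 h1 n0 hy hv0 i
      ((mul_le_mul_of_nonneg_right (hb.trans (le_abs_self _)) (abs_nonneg _)).trans w)
  obtain ⟨hv, y1, w1⟩ := zz s1 i1 j1 z1
  obtain ⟨-, y2, w2⟩ := zz s2 i2 j2 z2
  obtain ⟨-, y3, w3⟩ := zz s3 i3 j3 z3
  obtain ⟨-, y4, w4⟩ := zz s4 i4 j4 z4
  push_cast at e2 e3 e4
  have g : 2 * ν ≤ h ^ 3 := by linarith
  obtain ⟨f, g12⟩ := rig_step h0 h1 hx hy hu hu' hv hv' i1 i2 g w1 w2 (by linarith)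
  obtain ⟨-, g23⟩ := rig_step h0 h1 hx hy hu hu' hv hv' i2 i3 g w2 w3 (by linarith)
  obtain ⟨-, g34⟩ := rig_step h0 h1 hx hy hu hu' hv hv' i3 i4 g w3 w4 (by linarith)
  have uv : u - v ≤ 6000 * h ^ 40 := by
    linarith [mul_le_mul_of_nonneg_right g12 (sub_nonneg.2 hv')]
  obtain ⟨m, D⟩ := rig_near2 (by linarith) hx hy hv' uv i1
    (by rw [z1, abs_neg, abs_of_pos (by linarith)]) w1
  rcases Int.even_or_odd m with w | w
  · have p6 := rig_pw h0 h1 (show 0 < 35 by norm_num)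
    have q4 := pow_pos h0 35
    obtain ⟨c', ⟨a0, a1⟩, hc'⟩ := rig_cos (z := h ^ 35 - ν) (by linarith) (by linarith)
    obtain ⟨s, i, j, e⟩ := iv (c' + n) (by linarith) (by linarith)
    obtain ⟨a, b, c, ha, hb, hc, r⟩ := H s j
    exact rig_even h0 h1 w (D s i) (by rw [Cc, e, rig_pc, hc']; ring)
      (le_trans (by nlinarith only [hu]) ha) (le_trans (by positivity) hb) hc r
  · have k : ∀ s ∈ Icc (0 : ℝ) 1, |y s - x s - m / 2| ≤ 1 / 8 := fun s i =>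
      (D s i).trans (by linarith)
    have n2 : 0 < ν := by linarith
    have l1 := rig_odd n2 w (k _ i1) z1 y1 sc (sin_le_one _) (.inl rfl) t1
    have l2 := rig_odd n2 w (k _ i2) z2 y2 sc (sin_le_one _) (.inr rfl) t2
    have l3 := rig_odd n2 w (k _ i3) z3 y3 sc (sin_le_one _) (.inl rfl) t3
    have l4 := rig_odd n2 w (k _ i4) z4 y4 sc (sin_le_one _) (.inr rfl) t4
    obtain ⟨a0, a1, a2, ha⟩ := hx.quad
    obtain ⟨b0, b1, b2, hb⟩ := hy.quad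
    have p5 := rig_pw h0 h1 (show 50 < 75 by norm_num)
    refine quad_alt (c0 := a0 - b0 + m / 2) (c1 := a1 - b1) (c2 := a2 - b2) (s1 := s1) (s2 := s2)
      (s3 := s3) (s4 := s4) (by linarith) (by linarith) (by linarith) ?_ ?_ ?_ ?_
    · linarith only [(abs_le.1 (ha _ i1)).2, (abs_le.1 (hb _ i1)).1, l1, p5, n0, q1]
    · linarith only [(abs_le.1 (ha _ i2)).1, (abs_le.1 (hb _ i2)).2, l2, p5, n0, q1]
    · linarith only [(abs_le.1 (ha _ i3)).2, (abs_le.1 (hb _ i3)).1, l3, p5, n0, q1]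
    · linarith only [(abs_le.1 (ha _ i4)).1, (abs_le.1 (hb _ i4)).2, l4, p5, n0, q1]

theorem rig_fin {h ν u v : ℝ} {x y : ℝ → ℝ} (h0 : 0 < h) (h1 : h ≤ 1 / 10 ^ 20)
    (n0 : 2 * h ^ 50 ≤ ν) (n1 : ν ≤ 3 * h ^ 50) (hx : Ap h ν u x) (hy : Ap h ν v y)
    (hu : 100 ≤ max |u| |v|) (hu' : max |u| |v| ≤ 200) (hv : h ^ 25 ≤ min |u| |v|)
    (H : ∀ s ∈ Icc (0 : ℝ) (1 / 2), ∃ a b c : ℝ, u ^ 2 / 4 ≤ a ∧ v ^ 2 / 4 ≤ b ∧ |c| * h ^ 34 ≤ 1 ∧
      |a * Cc ν (x s) + b * Cc ν (y s) - c * Cc ν (x s) * Cc ν (y s)| ≤ h ^ 56) : False := by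
  obtain ⟨x', a, ex⟩ := hx.abs
  obtain ⟨y', b, ey⟩ := hy.abs
  simp only [← ex, ← ey] at H
  rw [← sq_abs u, ← sq_abs v] at H
  rcases le_total |v| |u| with w | w
  · rw [max_eq_left w] at hu hu'
    exact rig_fin0 h0 h1 n0 n1 a b hu hu' (hv.trans (min_le_right _ _)) w H
  · rw [max_eq_right w] at hu hu'
    refine rig_fin0 h0 h1 n0 n1 b a hu hu' (hv.trans (min_le_left _ _)) w fun s hs => ?_
    obtain ⟨a, b, c, p, q, r, t⟩ := H s hs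
    exact ⟨b, a, c, q, p, r, by rwa [add_comm, mul_right_comm]⟩

end Vale.Agent.P108
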