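import Vale.Agent.P108.Ext

/-! Extrapolation of the tangency relation over the holes. -/

namespace Vale.Agent.P108

open Set Complex
open scoped Classical

theorem rig_exp_lip (a b : ℝ) : ‖exp (I * a) - exp (I * b)‖ ≤ |a - b| := by
  have e : exp (I * a) - exp (I * b) = (exp (I * (a - b : ℝ)) - 1) * exp (I * b) := by
    rw [sub_mul, ← exp_add]; push_cast; ring_nf
  rw [e, norm_mul, mul_comm I (b : ℂ), norm_exp_ofReal_mul_I, mul_one]
  exact Real.norm_exp_I_mul_ofReal_sub_one_le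

theorem rig_holes {ι : Type} [Fintype ι] {n N M : ℕ} (hN : N = n * Fintype.card ι) (hN1 : 1 ≤ N)
    {ω : ι → ℝ} {Ω a0 ρ Mg ε : ℝ} (hω : ∀ i, |ω i| ≤ Ω) (hΩ : 0 ≤ Ω) {g : ι → ℂ → ℂ} (hρ : 4 ≤ ρ)
    (hε : 0 ≤ ε) (hMg : 0 ≤ Mg) (h0 : 0 ≤ a0) (h1 : a0 ≤ 1)
    (hg : ∀ i, DifferentiableOn ℂ (g i) (Metric.ball a0 ρ))
    (hM : ∀ i, ∀ z ∈ Metric.ball (a0 : ℂ) ρ, ‖g i z‖ ≤ Mg) {E : Set ℝ}
    (hE : ∀ s ∈ E, 0 ≤ s → s ≤ 1 → ‖∑ i, exp (I * (ω i * s : ℝ)) * g i s‖ ≤ ε)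
    (hH : (((Finset.range M).filter fun i : ℕ =>
      ∀ s ∈ E, ¬ ((i : ℝ) / M ≤ s ∧ s < (i + 1) / M)).card + 1) * (8 * N ^ 2) ≤ M)
    {s : ℝ} (s0 : 0 ≤ s) (s1 : s ≤ 1 / 2) :
    ‖∑ i, exp (I * (ω i * s : ℝ)) * g i s‖ ≤
      2 ^ N * (Fintype.card ι * Mg * (1 / ρ) ^ n + (ε + Fintype.card ι * (Mg * (Ω + 1) / M))) := by
  have M0 : 0 < M := lt_of_lt_of_le (by positivity) hH
  have M1 : (0 : ℝ) < M := by exact_mod_cast M0
  obtain ⟨q, q1, q2, q3⟩ := exists_step hN1 _ hH ⌊s * M⌋₊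
  have q4 : (4 : ℝ) * N * q ≤ M := by exact_mod_cast q2
  have q5 : (0 : ℝ) < q / M := div_pos (by exact_mod_cast q1) M1
  have q6 : (4 : ℝ) * N * (q / M) ≤ 1 := by rwa [← mul_div_assoc, div_le_one M1]
  have nN : (n : ℝ) ≤ N := by
    have : n ≤ N := by
      rw [hN] at hN1 ⊢
      exact Nat.le_mul_of_pos_right _ (Nat.pos_of_mul_pos_left hN1)
    exact_mod_cast this
  have q7 : (4 : ℝ) * n * (q / M) ≤ 1 := le_trans (by gcongr) q6
  have near : ∀ t : ℝ, 0 ≤ t → t ≤ 1 → ‖(t : ℂ) - a0‖ ≤ ρ / 4 := fun t a b => by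
    rw [← ofReal_sub, norm_real, Real.norm_eq_abs, abs_le]; constructor <;> linarith
  have lip : ∀ t t' : ℝ, 0 ≤ t → t ≤ 1 → 0 ≤ t' → t' ≤ 1 → |t - t'| ≤ 1 / M →
      ‖∑ i, exp (I * (ω i * t : ℝ)) * g i t - ∑ i, exp (I * (ω i * t' : ℝ)) * g i t'‖ ≤
        Fintype.card ι * (Mg * (Ω + 1) / M) := fun t t' a b a' b' d => by
    rw [← Finset.sum_sub_distrib, ← nsmul_eq_mul, ← Finset.card_univ]
    refine (norm_sum_le _ _).trans (Finset.sum_le_card_nsmul _ _ _ fun i _ => ?_)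
    have e1 := rig_exp_lip (ω i * t) (ω i * t')
    have e2 := lip_of_bdd (by linarith) (hg i) (hM i) (near t a b) (near t' a' b')
    have e3 := hM i t (mem_ball_iff_norm.2 (by linarith [near t a b]))
    rw [← mul_sub, abs_mul] at e1
    rw [← ofReal_sub, norm_real, Real.norm_eq_abs] at e2
    have e4 : 4 * Mg / ρ ≤ Mg := by rw [div_le_iff₀ (by linarith)]; nlinarith
    calc _ = ‖(exp (I * (ω i * t : ℝ)) - exp (I * (ω i * t' : ℝ))) * g i t +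
          exp (I * (ω i * t' : ℝ)) * (g i t - g i t')‖ := by congr 1; ring
      _ ≤ Ω * (1 / M) * Mg + 1 * (Mg * (1 / M)) := by
        refine (norm_add_le _ _).trans (add_le_add ?_ ?_) <;> rw [norm_mul]
        · gcongr
          exact e1.trans (by gcongr; exact hω i)
        · rw [mul_comm I, norm_exp_ofReal_mul_I]
          gcongr
          exact e2.trans (by gcongr)
      _ = _ := by ring
  have tj : ∀ j : ℕ, j ≤ N → 0 ≤ s + j * (q / M) ∧ s + j * (q / M) ≤ 3 / 4 := fun j hj => by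
    have : (j : ℝ) * (q / M) ≤ N * (q / M) := by gcongr
    exact ⟨by positivity, by linarith⟩
  subst hN
  refine (extrap n ω q5 (ε := ε + Fintype.card ι * (Mg * (Ω + 1) / M)) (by linarith)
    (by positivity) hg hM (fun j hj => ?_)
    (f := fun t => ∑ i, exp (I * (ω i * t : ℝ)) * g i t) (fun _ _ => rfl) fun j j1 hj => ?_).trans
    (by gcongr)
  · linarith [near _ (tj j hj).1 (by linarith [(tj j hj).2])]
  · have a := q3 j j1 hj
    obtain ⟨t0, t1⟩ := tj j hj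
    have f1 : (⌊s * M⌋₊ : ℝ) ≤ s * M := Nat.floor_le (by positivity)
    have f2 := Nat.lt_floor_add_one (s * M)
    have e : (s + j * (q / M)) * M = s * M + j * q := by field_simp
    have f3 : (⌊s * M⌋₊ : ℝ) + j * q < M := by nlinarith
    have f4 : ⌊s * M⌋₊ + j * q < M := by exact_mod_cast f3
    have f5 : ((⌊s * M⌋₊ + j * q : ℕ) : ℝ) + 1 ≤ M := by exact_mod_cast f4
    simp only [Finset.mem_filter, Finset.mem_range, f4, true_and, not_forall, not_not] at a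
    obtain ⟨t, tE, u0, u1⟩ := a
    have v0 : 0 ≤ t := le_trans (by positivity) u0
    have v1 : t ≤ 1 := u1.le.trans ((div_le_one M1).2 f5)
    rw [div_le_iff₀ M1] at u0
    rw [lt_div_iff₀ M1] at u1
    push_cast at u0 u1
    have d : |s + j * (q / M) - t| ≤ 1 / M := by
      rw [le_div_iff₀ M1, ← abs_of_pos M1, ← abs_mul, abs_of_pos M1, sub_mul, e, abs_le]
      constructor <;> linarith
    have := lip _ _ t0 (by linarith) v0 v1 d
    have b := hE t tE v0 v1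
    exact (norm_le_insert' _ _).trans (add_le_add b this)

/-- Frequencies. -/
def rigS : Fin 3 → ℝ := ![-1, 0, 1]
/-- The amplitudes in the expansion of the potential along an almost linear function. -/
noncomputable def rigA (k u : ℝ) (X : ℂ → ℂ) (p : Fin 3) (a : ℂ) : ℂ :=
  (![Real.pi * k, 2, Real.pi * k] p : ℝ) * exp (I * (2 * Real.pi * rigS p : ℝ) * (X a - u * a))

theorem rigS_le (p : Fin 3) : |rigS p| ≤ 1 := by fin_cases p <;> simp [rigS]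

theorem rigA_sum (k u : ℝ) {X : ℂ → ℂ} {s x : ℝ} (h : X s = x) :
    ∑ p, exp (I * (2 * Real.pi * rigS p * u * s : ℝ)) * rigA k u X p s = Vr k x := by
  have e : ∀ p, exp (I * (2 * Real.pi * rigS p * u * s : ℝ)) * rigA k u X p s =
      (![Real.pi * k, 2, Real.pi * k] p : ℝ) * exp ((rigS p * (2 * Real.pi * x) : ℝ) * I) :=
    fun p => by
    rw [rigA, mul_left_comm, ← exp_add, h]; congr 2; push_cast; ring
  simp only [e]
  simp only [Fin.sum_univ_three, rigS, Vr]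
  simp only [Matrix.cons_val_zero, Matrix.cons_val_one, Matrix.cons_val]
  push_cast
  rw [Complex.cos]
  simp only [zero_mul, exp_zero, one_mul, neg_mul]
  ring

theorem rigA_diff (k u : ℝ) {X : ℂ → ℂ} {S : Set ℂ} (h : DifferentiableOn ℂ X S) (p : Fin 3) :
    DifferentiableOn ℂ (rigA k u X p) S := by
  unfold rigA; fun_prop

theorem rigA_le {k u x0 a0 : ℝ} (hk : 0 ≤ k) {X : ℂ → ℂ} {a : ℂ}
    (h : ‖X a - x0 - (a - a0) * u‖ ≤ 1) (p : Fin 3) : ‖rigA k u X p a‖ ≤ KK k * Real.exp 8 := by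
  rw [rigA, norm_mul, norm_real, norm_exp]
  have i := (abs_im_le_norm _).trans h
  have pk : 0 ≤ Real.pi * k := by positivity
  gcongr
  · linarith [four_le_KK hk]
  · fin_cases p <;> simp [KK, abs_of_nonneg, hk, Real.pi_pos.le] <;> linarith
  · have e : (I * (2 * Real.pi * rigS p : ℝ) * (X a - u * a)).re =
        -(2 * Real.pi * (rigS p * (X a - x0 - (a - a0) * u).im)) := by
      simp; ring
    have b : |rigS p * (X a - x0 - (a - a0) * u).im| ≤ 1 * 1 := by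
      rw [abs_mul]; gcongr; exact rigS_le p
    rw [e]
    nlinarith [(abs_le.1 b).1, Real.pi_pos, Real.pi_le_four]

theorem rig_err {p q t α β Vx Vy K ε T : ℝ} (ha : |α - Vx| ≤ ε) (hb : |β - Vy| ≤ ε) (he : ε ≤ 2)
    (hx : |Vx| ≤ K - 2) (hy : |Vy| ≤ K - 2) (hp : p ^ 2 ≤ 160000) (hq : q ^ 2 ≤ 160000)
    (hT : |t| * (p ^ 2 * q ^ 2) ≤ T) (h : t * p ^ 2 * q ^ 2 * α * β = p ^ 2 * α + q ^ 2 * β) :
    |p ^ 2 * Vx + q ^ 2 * Vy - t * p ^ 2 * q ^ 2 * Vx * Vy| ≤ ε * (320000 + 2 * K * T) := by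
  have e0 := (abs_nonneg _).trans ha
  have a1 : |α| ≤ K := by
    have := abs_sub_abs_le_abs_sub α Vx
    linarith
  have e : p ^ 2 * Vx + q ^ 2 * Vy - t * p ^ 2 * q ^ 2 * Vx * Vy = -(p ^ 2 * (α - Vx)) -
      q ^ 2 * (β - Vy) + t * (p ^ 2 * q ^ 2) * ((α - Vx) * Vy + α * (β - Vy)) := by
    linear_combination -h
  have b1 : |p ^ 2 * (α - Vx)| ≤ 160000 * ε := by rw [abs_mul, abs_sq]; gcongr
  have b2 : |q ^ 2 * (β - Vy)| ≤ 160000 * ε := by rw [abs_mul, abs_sq]; gcongr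
  have b3 : |(α - Vx) * Vy + α * (β - Vy)| ≤ ε * K + K * ε := by
    refine (abs_add_le _ _).trans (add_le_add ?_ ?_) <;> rw [abs_mul] <;> gcongr
    · linarith
    · exact (abs_nonneg _).trans a1
  have b4 : |t * (p ^ 2 * q ^ 2) * ((α - Vx) * Vy + α * (β - Vy))| ≤ T * (ε * K + K * ε) := by
    rw [abs_mul, abs_mul, abs_of_nonneg (a := p ^ 2 * q ^ 2) (by positivity)]
    gcongr
    exact le_trans (by positivity) hT
  rw [e, abs_le] at *
  constructor <;> linarith [b1.1, b1.2, b2.1, b2.2, b4.1, b4.2]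

theorem rig_alg {e f A B d : Fin 3 → ℂ} {P R W a b : ℂ} (hA : ∑ p, e p * A p = a)
    (hB : ∑ p, f p * B p = b) (hC : ∑ p, e p * d p = 1) (hD : ∑ p, f p * d p = 1) :
    ∑ i : Fin 3 × Fin 3, e i.1 * f i.2 * (P * (A i.1 * d i.2) + R * (d i.1 * B i.2) -
      W * (A i.1 * B i.2)) = P * a + R * b - W * a * b := by
  subst hA hB
  simp only [Fintype.sum_prod_type, Fin.sum_univ_three] at hC hD ⊢
  linear_combination P * (e 0 * A 0 + e 1 * A 1 + e 2 * A 2) * hD +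
    R * (f 0 * B 0 + f 1 * B 1 + f 2 * B 2) * hC

theorem rig_ext {k a0 u v x0 y0 ρ T T' ε : ℝ} {X Y P R Θ : ℂ → ℂ} (hk : 0 ≤ k) (h0 : 0 ≤ a0)
    (h1 : a0 ≤ 1) (hu : |u| ≤ 200) (hv : |v| ≤ 200) (hρ : 4 ≤ ρ) (hε : 0 ≤ ε) (hε' : ε ≤ 2)
    (dX : DifferentiableOn ℂ X (Metric.ball a0 ρ)) (dY : DifferentiableOn ℂ Y (Metric.ball a0 ρ))
    (dP : DifferentiableOn ℂ P (Metric.ball a0 ρ)) (dR : DifferentiableOn ℂ R (Metric.ball a0 ρ))
    (dT : DifferentiableOn ℂ Θ (Metric.ball a0 ρ))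
    (hB : ∀ a ∈ Metric.ball (a0 : ℂ) ρ, ‖X a - x0 - (a - a0) * u‖ ≤ 1 ∧
      ‖Y a - y0 - (a - a0) * v‖ ≤ 1 ∧ ‖P a‖ ≤ 400 ∧ ‖R a‖ ≤ 400 ∧ ‖Θ a * P a ^ 2 * R a ^ 2‖ ≤ T')
    {xr yr pr qr tr : ℝ → ℝ} (hr : ∀ s : ℝ, 0 ≤ s → s ≤ 1 →
      X s = xr s ∧ Y s = yr s ∧ P s = pr s ∧ R s = qr s ∧ Θ s = tr s)
    (hT : ∀ s : ℝ, 0 ≤ s → s ≤ 1 → |tr s| * (pr s ^ 2 * qr s ^ 2) ≤ T) {E : Set ℝ}
    (hE : ∀ s ∈ E, ∃ α β : ℝ, |α - Vr k (xr s)| ≤ ε ∧ |β - Vr k (yr s)| ≤ ε ∧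
      tr s * pr s ^ 2 * qr s ^ 2 * α * β = pr s ^ 2 * α + qr s ^ 2 * β) {M : ℕ}
    (hH : (((Finset.range M).filter fun i : ℕ =>
      ∀ s ∈ E, ¬ ((i : ℝ) / M ≤ s ∧ s < (i + 1) / M)).card + 1) * (8 * 72 ^ 2) ≤ M)
    {s : ℝ} (s0 : 0 ≤ s) (s1 : s ≤ 1 / 2) :
    |pr s ^ 2 * Vr k (xr s) + qr s ^ 2 * Vr k (yr s) -
      tr s * pr s ^ 2 * qr s ^ 2 * Vr k (xr s) * Vr k (yr s)| ≤
      2 ^ 72 * (9 * (Real.exp 8 ^ 2 * (320000 * KK k + T' * KK k ^ 2)) * ((1 / ρ) ^ 8 + 3201 / M) +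
        ε * (320000 + 2 * KK k * T)) := by
  have K4 := four_le_KK hk
  have mem : ∀ t : ℝ, 0 ≤ t → t ≤ 1 → (t : ℂ) ∈ Metric.ball (a0 : ℂ) ρ := fun t a b => by
    rw [mem_ball_iff_norm, ← ofReal_sub, norm_real, Real.norm_eq_abs, abs_lt]
    constructor <;> linarith
  have T0 : 0 ≤ T := le_trans (by positivity) (hT 0 le_rfl zero_le_one)
  have T1 : 0 ≤ T' := (norm_nonneg _).trans (hB _ (mem 0 le_rfl zero_le_one)).2.2.2.2
  let d : Fin 3 → ℂ := ![0, 1, 0]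
  have d1 : ∀ p, ‖d p‖ ≤ 1 := fun p => by fin_cases p <;> simp [d]
  have d2 : ∀ w t : ℝ, ∑ p, exp (I * (2 * Real.pi * rigS p * w * t : ℝ)) * d p = 1 := fun w t => by
    simp [Fin.sum_univ_three, d, rigS]
  let ω : Fin 3 × Fin 3 → ℝ := fun i => 2 * Real.pi * rigS i.1 * u + 2 * Real.pi * rigS i.2 * v
  let g : Fin 3 × Fin 3 → ℂ → ℂ := fun i a => P a ^ 2 * (rigA k u X i.1 a * d i.2) +
    R a ^ 2 * (d i.1 * rigA k v Y i.2 a) -
      Θ a * P a ^ 2 * R a ^ 2 * (rigA k u X i.1 a * rigA k v Y i.2 a)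
  have id : ∀ t : ℝ, 0 ≤ t → t ≤ 1 → ‖∑ i, exp (I * (ω i * t : ℝ)) * g i t‖ =
      |pr t ^ 2 * Vr k (xr t) + qr t ^ 2 * Vr k (yr t) -
        tr t * pr t ^ 2 * qr t ^ 2 * Vr k (xr t) * Vr k (yr t)| := fun t a b => by
    obtain ⟨e1, e2, e3, e4, e5⟩ := hr t a b
    have A := rigA_sum k u e1
    have B := rigA_sum k v e2
    have C := d2 u t
    have D := d2 v t
    have e : ∀ i, exp (I * (ω i * t : ℝ)) = exp (I * (2 * Real.pi * rigS i.1 * u * t : ℝ)) *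
        exp (I * (2 * Real.pi * rigS i.2 * v * t : ℝ)) := fun i => by
      rw [← exp_add]; congr 1; simp only [ω]; push_cast; ring
    rw [← Real.norm_eq_abs, ← norm_real]
    congr 1
    simp only [e]
    refine (rig_alg A B C D).trans ?_
    rw [e3, e4, e5]; push_cast; ring
  have e8 : 1 ≤ Real.exp 8 := Real.one_le_exp (by norm_num)
  have key := rig_holes (ι := Fin 3 × Fin 3) (n := 8) (N := 72) (M := M) (by simp) (by norm_num)
    (ω := ω) (Ω := 3200) (Mg := Real.exp 8 ^ 2 * (320000 * KK k + T' * KK k ^ 2))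
    (ε := ε * (320000 + 2 * KK k * T)) (g := g) (fun i => ?_) (by norm_num) hρ
    (by positivity) (by positivity) h0 h1 (fun i => ?_) (fun i z hz => ?_) (E := E)
    (fun t tE a b => ?_) hH s0 s1
  · rw [id s s0 (by linarith)] at key
    refine key.trans (le_of_eq ?_)
    simp; ring
  · have b : ∀ (p : Fin 3) (w : ℝ), |w| ≤ 200 → |2 * Real.pi * rigS p * w| ≤ 8 * 1 * 200 :=
      fun p w hw => by
      rw [abs_mul, abs_mul, abs_of_pos Real.two_pi_pos]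
      gcongr
      · linarith [Real.pi_le_four]
      · exact rigS_le p
    linarith [abs_add_le (2 * Real.pi * rigS i.1 * u) (2 * Real.pi * rigS i.2 * v), b i.1 u hu,
      b i.2 v hv]
  · have := rigA_diff k u dX i.1
    have := rigA_diff k v dY i.2
    simp only [g]; fun_prop
  · obtain ⟨b1, b2, b3, b4, b5⟩ := hB z hz
    have c1 := rigA_le hk b1 i.1
    have c2 := rigA_le hk b2 i.2
    have f1 : ‖P z ^ 2 * (rigA k u X i.1 z * d i.2)‖ ≤ 400 ^ 2 * (KK k * Real.exp 8 * 1) := by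
      rw [norm_mul, norm_mul, norm_pow]; gcongr; exact d1 _
    have f2 : ‖R z ^ 2 * (d i.1 * rigA k v Y i.2 z)‖ ≤ 400 ^ 2 * (1 * (KK k * Real.exp 8)) := by
      rw [norm_mul, norm_mul, norm_pow]; gcongr; exact d1 _
    have f3 : ‖Θ z * P z ^ 2 * R z ^ 2 * (rigA k u X i.1 z * rigA k v Y i.2 z)‖ ≤
        T' * (KK k * Real.exp 8 * (KK k * Real.exp 8)) := by
      rw [norm_mul, norm_mul (rigA _ _ _ _ _)]; gcongr
    have f4 : KK k * Real.exp 8 * 1 ≤ KK k * Real.exp 8 * Real.exp 8 := by gcongr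
    refine (norm_sub_le _ _).trans ((add_le_add (norm_add_le _ _) le_rfl).trans ?_)
    linarith
  · obtain ⟨α, β, c1, c2, c3⟩ := hE t tE
    obtain ⟨-, -, b3, b4, -⟩ := hB t (mem t a b)
    obtain ⟨-, -, e3, e4, -⟩ := hr t a b
    rw [e3, norm_real, Real.norm_eq_abs] at b3
    rw [e4, norm_real, Real.norm_eq_abs] at b4
    rw [id t a b]
    refine rig_err c1 c2 hε' (abs_Vr_le hk _) (abs_Vr_le hk _) ?_ ?_ (hT t a b) c3
    · rw [← sq_abs]; nlinarith [abs_nonneg (pr t)]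
    · rw [← sq_abs]; nlinarith [abs_nonneg (qr t)]

end Vale.Agent.P108
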