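import Vale.Agent.P108.RigidB
import Vale.Agent.P108.RigidC

/-! The rigidity lemma in terms of one small parameter. -/

namespace Vale.Agent.P108

open Set Complex
open scoped Classical

theorem rig_V {k : ℝ} (hk : 8 ≤ KK k) (x : ℝ) : Vr k x = (KK k - 4) * Cc (2 / (KK k - 4)) x := by
  have : KK k - 4 ≠ 0 := by linarith
  rw [Cc, mul_add, mul_div_cancel₀ _ this, Vr, KK]; ring

theorem rig_mem {a0 ρ t : ℝ} (h0 : 0 ≤ a0) (h1 : a0 ≤ 1) (hρ : 1 < ρ) (a : 0 ≤ t) (b : t ≤ 1) :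
    ‖(t : ℂ) - a0‖ ≤ 1 ∧ (t : ℂ) ∈ Metric.ball (a0 : ℂ) ρ := by
  have : ‖(t : ℂ) - a0‖ ≤ 1 := by
    rw [← ofReal_sub, norm_real, Real.norm_eq_abs, abs_le]; constructor <;> linarith
  exact ⟨this, mem_ball_iff_norm.2 (by linarith)⟩

theorem rig_ap {k h a0 u x0 : ℝ} {X : ℂ → ℂ} {xr : ℝ → ℝ} (hk : 0 ≤ k) (h0 : 0 < h)
    (h1 : h ≤ 1 / 10 ^ 20) (hK : KK k * h ^ 50 = 1) (K8 : 8 ≤ KK k) (a0' : 0 ≤ a0) (a1 : a0 ≤ 1)
    (hu : |u| ≤ 200) (hx : 1 ≤ |Vr k x0| * h ^ 49)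
    (dX : DifferentiableOn ℂ X (Metric.ball a0 (1 / h ^ 40)))
    (hB : ∀ a ∈ Metric.ball (a0 : ℂ) (1 / h ^ 40),
      ‖X a - x0 - (a - a0) * u‖ ≤ ‖a - a0‖ ^ 2 * u ^ 2 * h ^ 45)
    (hr : ∀ s : ℝ, 0 ≤ s → s ≤ 1 → X s = xr s) : Ap h (2 / (KK k - 4)) u xr := by
  have p1 := rig_pw h0 h1 (show 0 < 40 by norm_num)
  have q1 := pow_pos h0 40
  have q2 := pow_pos h0 45
  have ρ1 : 1 < 1 / h ^ 40 := by rw [lt_div_iff₀ q1]; linarith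
  have u2 : u ^ 2 ≤ 40000 := by rw [← sq_abs]; nlinarith [abs_nonneg u]
  have lin : ∀ s ∈ Icc (0 : ℝ) 1, |xr s - x0 - (s - a0) * u| ≤ 40000 * h ^ 45 := fun s hs => by
    obtain ⟨m1, m2⟩ := rig_mem a0' a1 ρ1 hs.1 hs.2
    have := hB _ m2
    rw [hr s hs.1 hs.2, ← ofReal_sub, ← ofReal_sub s, ← ofReal_mul, ← ofReal_sub, norm_real,
      ofReal_sub s] at this
    refine this.trans (le_trans (b := 1 ^ 2 * 40000 * h ^ 45) (by gcongr) (by linarith))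
  refine ⟨?_, fun s hs s' hs' => ?_, ?_, fun a s hs => ?_⟩
  · refine (continuous_re.comp_continuousOn (dX.continuousOn.comp continuous_ofReal.continuousOn
      fun s hs => (rig_mem a0' a1 ρ1 hs.1 hs.2).2)).congr fun s hs => ?_
    simp [hr s hs.1 hs.2]
  · have a := abs_le.1 (lin s hs)
    have b := abs_le.1 (lin s' hs')
    have p2 := rig_pw h0 h1 (show 40 < 45 by norm_num)
    rw [abs_le]; constructor <;> linarith [a.1, a.2, b.1, b.2]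
  · obtain ⟨c0, c1, c2, H⟩ := cubic (f := fun a => X a - x0 - (a - a0) * u) (c := a0)
      (A := (1 / h ^ 40) ^ 2 * 40000 * h ^ 45) (by positivity) (by fun_prop) fun z hz =>
        (hB z hz).trans (by gcongr; exact (mem_ball_iff_norm.1 hz).le)
    refine ⟨x0 - a0 * u + c0.re - c1.re * a0 + c2.re * a0 ^ 2, u + c1.re - 2 * c2.re * a0, c2.re,
      fun s hs => ?_⟩
    obtain ⟨m1, m2⟩ := rig_mem a0' a1 ρ1 hs.1 hs.2
    have a := (abs_re_le_norm _).trans (H _ m2)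
    rw [hr s hs.1 hs.2] at a
    have b : 8 * ((1 / h ^ 40) ^ 2 * 40000 * h ^ 45) * (‖(s : ℂ) - a0‖ / (1 / h ^ 40)) ^ 3 ≤
        8 * ((1 / h ^ 40) ^ 2 * 40000 * h ^ 45) * (1 / (1 / h ^ 40)) ^ 3 := by gcongr
    have c : 8 * ((1 / h ^ 40) ^ 2 * 40000 * h ^ 45) * (1 / (1 / h ^ 40)) ^ 3 = 320000 * h ^ 85 := by
      field_simp; ring
    have p2 := rig_pw h0 h1 (show 75 < 85 by norm_num)
    have q3 := pow_pos h0 75
    refine le_trans (le_of_eq ?_) (a.trans (by linarith))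
    congr 1
    simp [sq]; ring
  · have b := abs_Vr_sub_le hk x0 (xr s)
    have c := abs_sub_abs_le_abs_sub (Vr k x0) (Vr k (xr s))
    have p2 := rig_pw h0 h1 (show 2 < 45 by norm_num)
    have p3 := rig_pw h0 h1 (show 1 < 2 by norm_num)
    have p4 := rig_pw h0 h1 (show 1 < 5 by norm_num)
    have q3 := pow_pos h0 2
    have d : |x0 - xr s| ≤ 2 * h ^ 2 := by
      have e := abs_le.1 (lin s hs)
      have f : |(s - a0) * u| ≤ 1 * h ^ 2 := by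
        rw [abs_mul]; gcongr
        rw [abs_le]; constructor <;> linarith [hs.1, hs.2]
      rw [abs_le] at f ⊢; constructor <;> linarith [e.1, e.2, f.1, f.2]
    have e : |Vr k (xr s)| ≤ KK k * |Cc (2 / (KK k - 4)) (xr s)| := by
      rw [rig_V K8, abs_mul, abs_of_nonneg (by linarith)]; gcongr; linarith
    have f : |Vr k x0| ≤ KK k * (|Cc (2 / (KK k - 4)) (xr s)| + 14 * h ^ 2) := by
      nlinarith [mul_le_mul_of_nonneg_left d (show 0 ≤ 7 * KK k by linarith)]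
    have g : 1 * h ≤ KK k * (|Cc (2 / (KK k - 4)) (xr s)| + 14 * h ^ 2) * h ^ 49 * h := by
      gcongr
      exact hx.trans (by gcongr)
    rw [show ∀ z, KK k * z * h ^ 49 * h = KK k * h ^ 50 * z from fun z => by ring, hK] at g
    linarith

theorem rig_div {t a b g δ : ℝ} (hg : 0 < g) (hδ : 0 ≤ δ) (ha : 1 / 2 ≤ g * a) (hb : 1 / 2 ≤ g * b)
    (h : t * a * b ≤ 160000 * (a + b) + δ) : t ≤ 640000 * g + 4 * δ * g ^ 2 := by
  have a0 : 0 < a := (mul_pos_iff_of_pos_left hg).1 (by linarith)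
  have b0 : 0 < b := (mul_pos_iff_of_pos_left hg).1 (by linarith)
  have ia : 1 / a ≤ 2 * g := by rw [div_le_iff₀ a0]; linarith
  have ib : 1 / b ≤ 2 * g := by rw [div_le_iff₀ b0]; linarith
  calc t = t * a * b * (1 / a * (1 / b)) := by field_simp
    _ ≤ (160000 * (a + b) + δ) * (1 / a * (1 / b)) := by gcongr
    _ = 160000 * (1 / a + 1 / b) + δ * (1 / a * (1 / b)) := by field_simp; ring
    _ ≤ 160000 * (2 * g + 2 * g) + δ * (2 * g * (2 * g)) := by gcongr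
    _ = _ := by ring

theorem rig_sq {p u : ℝ} (h : |p - u| ≤ |u| / 2) (hu : |u| ≤ 200) :
    u ^ 2 / 4 ≤ p ^ 2 ∧ p ^ 2 ≤ 160000 := by
  have a := abs_sub_abs_le_abs_sub p u
  have b := abs_sub_abs_le_abs_sub u p
  rw [abs_sub_comm] at b
  rw [← sq_abs p, ← sq_abs u]
  constructor <;> nlinarith [abs_nonneg p, abs_nonneg u]

/-- The bound on the error after extrapolation. -/
theorem rig_delta {K h m M : ℝ} (h0 : 0 < h) (h1 : h ≤ 1 / 10 ^ 20) (hK : K * h ^ 50 = 1)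
    (hC : 2 ^ 72 * (9 * Real.exp 8 ^ 2 * 10 ^ 6 + 10 ^ 6) * h ≤ 1) (hm : 0 ≤ m) (hM : K ^ 4 ≤ M) :
    2 ^ 72 * (9 * (Real.exp 8 ^ 2 * (320000 * K + 40000 * m / h ^ 60 * K ^ 2)) *
      ((1 / (1 / h ^ 20)) ^ 8 + 3201 / M) + 2 * h ^ 49 * (320000 + 2 * K * (40000 * m))) ≤
      (h ^ 50 + m) / h ^ 2 := by
  have e : K = 1 / h ^ 50 := by rw [eq_div_iff (by positivity), hK]
  subst e
  have a : 3201 / M ≤ 3201 * h ^ 200 := by
    calc 3201 / M ≤ 3201 / (1 / h ^ 50) ^ 4 := by gcongr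
      _ = _ := by field_simp
  have p1 := rig_pw h0 h1 (show 160 < 200 by norm_num)
  have p2 := rig_pw h0 h1 (show 50 < 111 by norm_num)
  have q1 := pow_pos h0 160
  have q2 := pow_pos h0 50
  have b : (1 / (1 / h ^ 20)) ^ 8 + 3201 / M ≤ 2 * h ^ 160 := by
    rw [one_div_one_div, ← pow_mul]; linarith
  have c : m * h ≤ m * 1 := by gcongr; linarith
  calc _ ≤ 2 ^ 72 * (9 * (Real.exp 8 ^ 2 * (320000 * (1 / h ^ 50) + 40000 * m / h ^ 60 *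
        (1 / h ^ 50) ^ 2)) * (2 * h ^ 160) + 2 * h ^ 49 * (320000 + 2 * (1 / h ^ 50) *
        (40000 * m))) := by gcongr
    _ = 2 ^ 72 * (9 * Real.exp 8 ^ 2 * (640000 * h ^ 111 + 80000 * (m * h)) +
        (640000 * h ^ 50 + 160000 * m)) / h := by field_simp; ring
    _ ≤ 2 ^ 72 * (9 * Real.exp 8 ^ 2 * (10 ^ 6 * (h ^ 50 + m)) + 10 ^ 6 * (h ^ 50 + m)) / h := by
      gcongr <;> linarith
    _ = 2 ^ 72 * (9 * Real.exp 8 ^ 2 * 10 ^ 6 + 10 ^ 6) * h * ((h ^ 50 + m) / h ^ 2) := by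
      field_simp
    _ ≤ 1 * ((h ^ 50 + m) / h ^ 2) := by gcongr
    _ = _ := one_mul _

theorem rig_nP {p : ℂ} {w : ℝ} (a : ‖p - w‖ ≤ |w| / 2) : ‖p‖ ≤ 2 * |w| := by
  have := norm_le_insert' p w
  rw [norm_real, Real.norm_eq_abs] at this
  linarith [abs_nonneg w]

theorem rig_TB {η ρ a0 u v μ s1 s2 s3 : ℝ} {P R Θ : ℂ → ℂ} {c0 c1 c2 : ℂ} (hη : 0 ≤ η) (ρ1 : 1 < ρ)
    (a0' : 0 ≤ a0) (a1 : a0 ≤ 1) (hB : ∀ a ∈ Metric.ball (a0 : ℂ) ρ,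
      ‖P a - u‖ ≤ |u| / 2 ∧ ‖R a - v‖ ≤ |v| / 2 ∧
      ‖Θ a - (c0 + c1 * (a - a0) + c2 * (a - a0) ^ 2)‖ ≤ ‖a - a0‖ ^ 3 * η)
    (i1 : s1 ∈ Icc (0 : ℝ) (0 + 1 / 10)) (i2 : s2 ∈ Icc (1 / 5 : ℝ) (1 / 5 + 1 / 10))
    (i3 : s3 ∈ Icc (2 / 5 : ℝ) (2 / 5 + 1 / 10)) (m1 : ‖Θ s1‖ ≤ μ) (m2 : ‖Θ s2‖ ≤ μ)
    (m3 : ‖Θ s3‖ ≤ μ) {a : ℂ} (ha : a ∈ Metric.ball (a0 : ℂ) ρ) :
    ‖Θ a * P a ^ 2 * R a ^ 2‖ ≤ 5000 * ((μ + η) * (u ^ 2 * v ^ 2)) * (1 + ‖a - a0‖) ^ 3 := by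
  have μ0 : 0 ≤ μ := (norm_nonneg _).trans m1
  have nd : ∀ t : ℝ, 0 ≤ t → t ≤ 1 → ‖Θ t‖ ≤ μ → |t - a0| ≤ 1 ∧
      ‖c0 + c1 * (t - a0 : ℝ) + c2 * (t - a0 : ℝ) ^ 2‖ ≤ μ + η := fun t a b c => by
    obtain ⟨e1, e2⟩ := rig_mem a0' a1 ρ1 a b
    have d := (hB _ e2).2.2.trans (show _ ≤ 1 ^ 3 * η by gcongr)
    refine ⟨by rw [abs_le]; constructor <;> linarith, ?_⟩
    have := norm_le_insert (Θ t) (c0 + c1 * (t - a0) + c2 * (t - a0) ^ 2)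
    push_cast; linarith
  have N1 := nd s1 i1.1 (by linarith [i1.2]) m1
  have N2 := nd s2 (by linarith [i2.1]) (by linarith [i2.2]) m2
  have N3 := nd s3 (by linarith [i3.1]) (by linarith [i3.2]) m3
  have d := quad_bound N1.1 N3.1 (by linarith [i1.2, i2.1]) (by linarith [i2.2, i3.1]) N1.2 N2.2 N3.2
    (a - a0)
  have c := (hB a ha).2.2
  have e := norm_le_insert' (Θ a) (c0 + c1 * (a - a0) + c2 * (a - a0) ^ 2)
  have z := norm_nonneg (a - a0)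
  have f1 : ‖a - a0‖ ^ 3 * η ≤ (1 + ‖a - a0‖) ^ 3 * (μ + η) := by gcongr <;> linarith
  have f2 : 300 * (1 + ‖a - a0‖) ^ 2 * (μ + η) ≤ 300 * (1 + ‖a - a0‖) ^ 3 * (μ + η) := by
    gcongr
    · linarith
    · norm_num
  rw [norm_mul, norm_mul, norm_pow, norm_pow]
  calc _ ≤ 301 * (1 + ‖a - a0‖) ^ 3 * (μ + η) * (2 * |u|) ^ 2 * (2 * |v|) ^ 2 := by
        gcongr
        exacts [by linarith, rig_nP (hB a ha).1, rig_nP (hB a ha).2.1]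
    _ = 4816 * ((μ + η) * (u ^ 2 * v ^ 2)) * (1 + ‖a - a0‖) ^ 3 := by
        rw [mul_pow, mul_pow, sq_abs, sq_abs]; ring
    _ ≤ _ := by gcongr; norm_num

theorem rig_mb {h K u v p q t x y : ℝ} (h0 : 0 < h) (h1 : h ≤ 1 / 10 ^ 20) (K0 : 4 ≤ K)
    (hK : 1 / 2 ≤ (K - 4) * h ^ 50) (u2 : |u| ≤ 200) (v2 : |v| ≤ 200) (f1 : u ^ 2 / 4 ≤ p ^ 2)
    (f2 : p ^ 2 ≤ 160000) (f3 : v ^ 2 / 4 ≤ q ^ 2) (f4 : q ^ 2 ≤ 160000) (hx : h ^ 25 ≤ |x|)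
    (hy : h ^ 25 ≤ |y|) (c : |p ^ 2 * ((K - 4) * x) + q ^ 2 * ((K - 4) * y) -
      t * p ^ 2 * q ^ 2 * ((K - 4) * x) * ((K - 4) * y)| ≤
      (h ^ 50 + (|t| + 400 * h ^ 35) * (u ^ 2 * v ^ 2)) / h ^ 2) :
    (|t| + 400 * h ^ 35) * (u ^ 2 * v ^ 2) ≤ h ^ 24 := by
  have lo : ∀ x, h ^ 25 ≤ |x| → 1 / 2 ≤ h ^ 25 * |(K - 4) * x| := fun x a => by
    rw [abs_mul, abs_of_nonneg (by linarith : 0 ≤ K - 4)]
    calc 1 / 2 ≤ h ^ 25 * ((K - 4) * h ^ 25) := by linarith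
      _ ≤ _ := by gcongr
  have l1 := lo x hx
  have l2 := lo y hy
  generalize (K - 4) * x = A at *
  generalize (K - 4) * y = B at *
  set m := (|t| + 400 * h ^ 35) * (u ^ 2 * v ^ 2) with hm
  have m0 : 0 ≤ m := by positivity
  have d : |t| * (p ^ 2 * q ^ 2) * |A| * |B| ≤ 160000 * (|A| + |B|) + (h ^ 50 + m) / h ^ 2 := by
    have e1 : |p ^ 2 * A| ≤ 160000 * |A| := by rw [abs_mul, abs_sq]; gcongr
    have e2 : |q ^ 2 * B| ≤ 160000 * |B| := by rw [abs_mul, abs_sq]; gcongr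
    have e3 : |t| * (p ^ 2 * q ^ 2) * |A| * |B| = |t * p ^ 2 * q ^ 2 * A * B| := by
      simp only [abs_mul, abs_sq]; ring
    have e4 := abs_add_le (p ^ 2 * A) (q ^ 2 * B)
    have e5 := abs_sub_abs_le_abs_sub (t * p ^ 2 * q ^ 2 * A * B) (p ^ 2 * A + q ^ 2 * B)
    rw [abs_sub_comm] at e5
    linarith
  have e := rig_div (pow_pos h0 25) (by positivity) l1 l2 d
  have f : |t| * (u ^ 2 / 4 * (v ^ 2 / 4)) ≤ |t| * (p ^ 2 * q ^ 2) := by gcongr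
  have g : 4 * ((h ^ 50 + m) / h ^ 2) * (h ^ 25) ^ 2 = 4 * h ^ 98 + 4 * (h ^ 48 * m) := by
    field_simp
  have g1 : h ^ 48 * m ≤ h ^ 0 / 10 ^ 20 * m := by gcongr; exact rig_pw h0 h1 (by norm_num)
  have g2 : h ^ 35 * (u ^ 2 * v ^ 2) ≤ h ^ 35 * (200 ^ 2 * 200 ^ 2) := by
    rw [← sq_abs u, ← sq_abs v]; gcongr
  linarith [rig_pw h0 h1 (show 24 < 25 by norm_num), rig_pw h0 h1 (show 24 < 35 by norm_num),
    rig_pw h0 h1 (show 24 < 98 by norm_num), pow_pos h0 24]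

theorem rig_last {h K m p q t x y : ℝ} (h0 : 0 < h) (h1 : h ≤ 1 / 10 ^ 20) (K0 : 4 < K)
    (hK : K * h ^ 50 = 1) (hK' : 1 / 2 ≤ (K - 4) * h ^ 50) (mb : m ≤ h ^ 24)
    (T1 : |t| * (p ^ 2 * q ^ 2) ≤ 40000 * m) (c : |p ^ 2 * ((K - 4) * x) + q ^ 2 * ((K - 4) * y) -
      t * p ^ 2 * q ^ 2 * ((K - 4) * x) * ((K - 4) * y)| ≤ (h ^ 50 + m) / h ^ 2) :
    |(K - 4) * (t * (p ^ 2 * q ^ 2))| * h ^ 34 ≤ 1 ∧
      |p ^ 2 * x + q ^ 2 * y - (K - 4) * (t * (p ^ 2 * q ^ 2)) * x * y| ≤ h ^ 56 := by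
  have K1 : 0 ≤ K - 4 := by linarith
  constructor
  · rw [abs_mul, abs_mul, abs_of_nonneg K1, abs_of_nonneg (a := p ^ 2 * q ^ 2) (by positivity)]
    calc _ ≤ K * (40000 * h ^ 24) * h ^ 34 := by gcongr ?_ * ?_ * _ <;> linarith
      _ = 40000 * h ^ 8 * (K * h ^ 50) := by ring
      _ ≤ 1 := by rw [hK]; linarith [rig_pw h0 h1 (show 0 < 8 by norm_num)]
  · refine le_of_mul_le_mul_left (a := K - 4) ?_ (by linarith)
    rw [← abs_of_nonneg K1, ← abs_mul, abs_of_nonneg K1]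
    refine le_trans (le_of_eq (by congr 1; ring)) (c.trans ?_)
    rw [div_le_iff₀ (by positivity)]
    calc h ^ 50 + m ≤ h ^ 8 * (1 / 2) := by
          linarith [rig_pw h0 h1 (show 8 < 50 by norm_num), rig_pw h0 h1 (show 8 < 24 by norm_num),
            pow_pos h0 8]
      _ ≤ h ^ 8 * ((K - 4) * h ^ 50) := by gcongr
      _ = _ := by ring

end Vale.Agent.P108
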