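import Mathlib

/-! The standard map and Kolmogorov-Sinai entropy. -/

namespace Vale.Agent.P108

open MeasureTheory Filter
open scoped ENNReal

/-- The function sin (2 π x) on the circle. -/
noncomputable def sn (x : UnitAddCircle) : ℝ := ((AddCircle.toCircle x : Circle) : ℂ).im

/-- The standard map on the two-torus. -/
noncomputable def stdMap (k : ℝ) (p : UnitAddCircle × UnitAddCircle) :
    UnitAddCircle × UnitAddCircle :=
  (p.1 + p.2 + ((k * sn p.1 : ℝ) : UnitAddCircle), p.2 + ((k * sn p.1 : ℝ) : UnitAddCircle))

/-- Shannon entropy of the join of the first n pullbacks of the finite partition given by P. -/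
noncomputable def blockEntropy {X : Type} [MeasurableSpace X] (μ : Measure X) (f : X → X) {N : ℕ}
    (P : X → Fin N) (n : ℕ) : ℝ :=
  ∑ w : Fin n → Fin N, Real.negMulLog (μ.real {x | ∀ i : Fin n, P (f^[i] x) = w i})

/-- Kolmogorov-Sinai entropy: supremum over finite measurable partitions of the entropy rate. -/
noncomputable def ksEntropy {X : Type} [MeasurableSpace X] (μ : Measure X) (f : X → X) : ℝ≥0∞ :=
  ⨆ (N : ℕ) (P : X → Fin N) (_ : Measurable P),
    liminf (fun n : ℕ => ENNReal.ofReal (blockEntropy μ f P n / n)) atTop

end Vale.Agent.P108
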