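import Vale.Agent.P108.Lin

/-! Measurability, the torus, lifts to the plane. -/

namespace Vale.Agent.P108

open MeasureTheory Filter
open scoped Classical

theorem torus_gs (a b : ℝ) (j : ℤ) : Continuous fun V : Seq => gs V a b j :=
  (continuous_gs j).comp (continuous_id.prodMk (continuous_const (y := (a, b))))
theorem torus_T (j l : ℤ) : Continuous fun V : Seq => T V j l :=
  ((torus_gs 1 0 j).mul (torus_gs 0 1 l)).sub ((torus_gs 0 1 j).mul (torus_gs 1 0 l))

theorem continuous_F (s t : ℤ) : Continuous fun V : Seq => F V s t :=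
  ((((torus_T _ _).pow 2).add ((torus_T _ _).pow 2)).add ((torus_T _ _).pow 2)).add
    ((torus_T _ _).pow 2)
theorem continuous_Ls (K : ℝ) (s t : ℤ) : Continuous fun V : Seq => Ls K V s t :=
  continuous_const.sub (((continuous_F s t).log fun V => by
    linarith [two_le_F V s t]).div_const _)
theorem measurable_sh (c : ℤ) : Measurable (sh c : Seq → Seq) :=
  measurable_pi_lambda _ fun j => measurable_pi_apply (j + c)
theorem measurable_rf : Measurable (rf : Seq → Seq) :=
  measurable_pi_lambda _ fun j => measurable_pi_apply (-1 - j)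
theorem torus_ex (R : ℕ) {f : ℕ → ℝ} {g : ℕ → Seq → ℝ} (hg : ∀ i, Continuous (g i)) :
    MeasurableSet {V | ∃ i : ℕ, 1 ≤ i ∧ i ≤ R ∧ f i ≤ g i V} := by
  rw [Set.ofPred_exists]
  refine MeasurableSet.iUnion fun i => ?_
  by_cases h : 1 ≤ i ∧ i ≤ R
  · simpa [h.1, h.2] using (isClosed_le continuous_const (hg i)).measurableSet
  · convert MeasurableSet.empty (α := Seq)
    ext V
    simp only [Set.mem_ofPred_eq, Set.mem_empty_iff_false, iff_false]
    tauto
theorem measurableSet_LB (K θ : ℝ) (R : ℕ) : MeasurableSet {V | LB K θ R V} :=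
  torus_ex R (g := fun i V => Ls K V (-i) 0) fun _ => continuous_Ls _ _ _
theorem measurableSet_RB (K θ : ℝ) (R : ℕ) : MeasurableSet {V | RB K θ R V} :=
  torus_ex R (g := fun i V => Ls K V 0 i) fun _ => continuous_Ls _ _ _
theorem measurableSet_Crit (K θ : ℝ) : MeasurableSet {V | Crit K θ V} :=
  (isOpen_lt (continuous_apply 0).abs continuous_const).measurableSet
theorem torus_proj (Q : Seq → Prop)
    (hQ : IsClosed {p : Seq × ℝ × ℝ | Q (gs p.1 p.2.1 p.2.2)}) :
    MeasurableSet {V : Seq | ∃ ψ, IsSol V ψ ∧ nq ψ 0 = 1 ∧ Q ψ} := by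
  let e : Seq × (Set.Icc (-1 : ℝ) 1 × Set.Icc (-1 : ℝ) 1) → Seq × ℝ × ℝ :=
    fun p => (p.1, p.2.1, p.2.2)
  have he : Continuous e := by fun_prop
  have h1 : IsClosed {p : Seq × ℝ × ℝ | p.2.1 ^ 2 + p.2.2 ^ 2 = 1} :=
    isClosed_eq (by fun_prop) continuous_const
  have h := isClosedMap_fst_of_compactSpace _ ((h1.inter hQ).preimage he)
  convert h.measurableSet using 1
  ext V
  constructor
  · rintro ⟨ψ, hψ, h0, hq⟩
    have h0' : ψ 0 ^ 2 + ψ (-1) ^ 2 = 1 := by simpa [nq] using h0
    refine ⟨(V, ⟨ψ 0, ?_⟩, ⟨ψ (-1), ?_⟩), ⟨h0', ?_⟩, rfl⟩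
    · exact abs_le.1 (abs_le_one_iff_mul_self_le_one.2 (by nlinarith [sq_nonneg (ψ (-1))]))
    · exact abs_le.1 (abs_le_one_iff_mul_self_le_one.2 (by nlinarith [sq_nonneg (ψ 0)]))
    · show Q (gs V (ψ 0) (ψ (-1)))
      rwa [← hψ.eq_gs]
  · rintro ⟨p, ⟨h0, hq⟩, rfl⟩
    refine ⟨_, isSol_gs _ _ _, ?_, hq⟩
    simpa [nq] using h0
theorem torus_nq (j : ℤ) : Continuous fun p : Seq × ℝ × ℝ => nq (gs p.1 p.2.1 p.2.2) j :=
  ((continuous_gs j).pow 2).add ((continuous_gs (j - 1)).pow 2)
theorem measurableSet_Wd (K θ : ℝ) (d : ℕ) : MeasurableSet {V | Wd K θ d V} :=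
  torus_proj (fun ψ => nq ψ (-d) ≤ K ^ (-(2 * (1 - θ) * d)) ∧ nq ψ d ≤ K ^ (-(2 * (1 - θ) * d)))
    ((isClosed_le (torus_nq _) continuous_const).inter (isClosed_le (torus_nq _) continuous_const))
/-- The half of Wd used in the Wegner estimate. -/
theorem measurableSet_Wd' (a : ℝ) (d : ℕ) : MeasurableSet {V : Seq | ∃ ψ, IsSol V ψ ∧
    nq ψ 0 = 1 ∧ 1 / 2 ≤ ψ (-1) ^ 2 ∧ nq ψ (-d) ≤ a ∧ nq ψ d ≤ a} :=
  torus_proj (fun ψ => 1 / 2 ≤ ψ (-1) ^ 2 ∧ nq ψ (-d) ≤ a ∧ nq ψ d ≤ a)
    ((isClosed_le continuous_const ((continuous_gs (-1)).pow 2)).inter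
    ((isClosed_le (torus_nq _) continuous_const).inter (isClosed_le (torus_nq _) continuous_const)))

theorem sn_coe (x : ℝ) : sn (x : UnitAddCircle) = Real.sin (2 * Real.pi * x) := by
  unfold sn
  rw [AddCircle.toCircle_apply_mk, Circle.coe_exp, Complex.exp_ofReal_mul_I_im, div_one]
theorem cs_coe (x : ℝ) : cs (x : UnitAddCircle) = Real.cos (2 * Real.pi * x) := by
  unfold cs
  rw [AddCircle.toCircle_apply_mk, Circle.coe_exp, Complex.exp_ofReal_mul_I_re, div_one]
theorem XT_coe (k u v : ℝ) (j : ℤ) :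
    XT k ((u : UnitAddCircle), (v : UnitAddCircle)) j = ((XR k (u, v) j : ℝ) : UnitAddCircle) := by
  refine (bi_map (QuotientAddGroup.mk' (AddSubgroup.zmultiples (1 : ℝ))) (g := fun _ => gk k)
    (g' := fun _ => gT k) (fun _ y => ?_) v u j).symm
  show ((gk k y : ℝ) : UnitAddCircle) = gT k (y : UnitAddCircle)
  unfold gk gT
  rw [sn_coe, two_mul, AddCircle.coe_add, AddCircle.coe_add]
theorem vT_coe (k u v : ℝ) :
    vT k ((u : UnitAddCircle), (v : UnitAddCircle)) = Vs k (XR k (u, v)) := by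
  funext j
  simp only [vT, Vs, Vr, XT_coe, cs_coe]
theorem torus_sn : Continuous sn := by unfold sn; fun_prop
theorem torus_cs : Continuous cs := by unfold cs; fun_prop
theorem torus_gT (k : ℝ) : Continuous (gT k) :=
  (continuous_id.add continuous_id).add
    ((AddCircle.continuous_mk' 1).comp (continuous_const.mul torus_sn))
theorem continuous_XT (k : ℝ) (j : ℤ) : Continuous fun z => XT k z j :=
  continuous_bi (g := fun _ _ => gT k) (fun _ => (torus_gT k).comp continuous_snd) continuous_snd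
    continuous_fst j
theorem continuous_vT (k : ℝ) : Continuous (vT k) :=
  continuous_pi fun j => continuous_const.add
    (continuous_const.mul (torus_cs.comp (continuous_XT k j)))
theorem continuous_VsXR (k : ℝ) : Continuous fun z => Vs k (XR k z) :=
  continuous_pi fun j => by
    have := continuous_XR k j
    unfold Vs Vr
    fun_prop
theorem torus_rec (k : ℝ) (z : T2) : Rec (fun _ => gT k) (XT k z) := rec_bi _ _ _
@[simp] theorem torus_XT_zero (k : ℝ) (z : T2) : XT k z 0 = z.2 := bi_zero _ _ _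
@[simp] theorem torus_XT_neg_one (k : ℝ) (z : T2) : XT k z (-1) = z.1 := bi_neg_one _ _ _
theorem XT_XT (k : ℝ) (c : ℤ) (z : T2) : XT k (XT k z (c - 1), XT k z c) = sh c (XT k z) :=
  (torus_rec k _).ext ((torus_rec k z).sh c) (s := 0) (by simp [sh])
    (by simp [sh, show -1 + c = c - 1 by ring])
theorem torus_XT_swap (k : ℝ) (z : T2) : XT k z.swap = rf (XT k z) :=
  (torus_rec k _).ext (torus_rec k z).rf (s := 0) (by simp [rf]) (by simp [rf])
theorem torus_mp_fwd (k : ℝ) :
    MeasurePreserving (fun z : T2 => (z.2, gT k z.2 - z.1)) volume volume := by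
  have h := MeasurePreserving.skew_product (MeasurePreserving.id (volume : Measure UnitAddCircle))
    (μc := (volume : Measure UnitAddCircle)) (μd := (volume : Measure UnitAddCircle))
    (g := fun v u => gT k v - u)
    (((torus_gT k).comp continuous_fst).sub continuous_snd).measurable
    (Eventually.of_forall fun v => (Measure.measurePreserving_sub_left volume _).map_eq)
  exact h.comp Measure.measurePreserving_swap
theorem torus_mp_bwd (k : ℝ) :
    MeasurePreserving (fun z : T2 => (gT k z.1 - z.2, z.1)) volume volume :=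
  (Measure.measurePreserving_swap.comp (torus_mp_fwd k)).comp Measure.measurePreserving_swap
/-- The time shift on the torus preserves the area. -/
theorem mp_XT (k : ℝ) (c : ℤ) :
    MeasurePreserving (fun z : T2 => (XT k z (c - 1), XT k z c)) volume volume := by
  induction c using Int.induction_on with
  | zero =>
    convert MeasurePreserving.id (volume : Measure T2) using 1
    funext z
    simp
  | succ n ih =>
    convert (torus_mp_fwd k).comp ih using 1
    funext z
    simp only [Function.comp, add_sub_cancel_right]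
    rw [eq_sub_of_add_eq (torus_rec k z n)]
  | pred n ih =>
    convert (torus_mp_bwd k).comp ih using 1
    funext z
    have := torus_rec k z (-n - 1)
    rw [sub_add_cancel] at this
    simp only [Function.comp]
    rw [eq_sub_of_add_eq' this]
instance torus_prob : IsProbabilityMeasure (volume : Measure UnitAddCircle) :=
  ⟨UnitAddCircle.measure_univ⟩
instance torus_prob2 : IsProbabilityMeasure (volume : Measure T2) :=
  inferInstanceAs (IsProbabilityMeasure ((volume : Measure UnitAddCircle).prod volume))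
theorem mp_XT_one (k : ℝ) (j : ℤ) : MeasurePreserving (fun z : T2 => XT k z j) volume volume :=
  (measurePreserving_snd (μ := (volume : Measure UnitAddCircle))
    (ν := (volume : Measure UnitAddCircle))).comp (mp_XT k j)
instance prob_nu (k : ℝ) : IsProbabilityMeasure (nu k) :=
  Measure.isProbabilityMeasure_map (continuous_vT k).measurable.aemeasurable
theorem torus_mp_vT (k : ℝ) : MeasurePreserving (vT k) volume (nu k) :=
  ⟨(continuous_vT k).measurable, rfl⟩
theorem torus_desc (k : ℝ) {f : Seq → Seq} (hf : Measurable f) {g : T2 → T2}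
    (hg : MeasurePreserving g volume volume) (h : f ∘ vT k = vT k ∘ g) :
    MeasurePreserving f (nu k) (nu k) := by
  refine ⟨hf, ?_⟩
  conv_lhs => rw [nu, Measure.map_map hf (continuous_vT k).measurable, h]
  exact ((torus_mp_vT k).comp hg).map_eq
theorem mp_sh (k : ℝ) (c : ℤ) : MeasurePreserving (sh c) (nu k) (nu k) :=
  torus_desc k (measurable_sh c) (mp_XT k c) (by
    funext z j
    simp only [Function.comp, vT, XT_XT, sh])
theorem mp_rf (k : ℝ) : MeasurePreserving rf (nu k) (nu k) :=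
  torus_desc k measurable_rf Measure.measurePreserving_swap (by
    funext z j
    simp only [Function.comp, vT, torus_XT_swap, rf])
theorem ae_bdd {k : ℝ} (hk : 0 ≤ k) : ∀ᵐ V ∂nu k, Bdd (KK k) V := by
  have hm : MeasurableSet {V : Seq | Bdd (KK k) V} := by
    unfold Bdd
    rw [Set.ofPred_forall]
    exact MeasurableSet.iInter fun j =>
      (isClosed_le (by fun_prop) continuous_const).measurableSet
  refine (ae_map_iff (continuous_vT k).measurable.aemeasurable hm).2
    (Eventually.of_forall fun z => ?_)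
  obtain ⟨u, v⟩ := z
  induction u using QuotientAddGroup.induction_on
  induction v using QuotientAddGroup.induction_on
  rw [vT_coe]
  exact bdd_Vs hk _
/-- Area on the torus computed in a fundamental square. -/
theorem vol_T2 (a b : ℝ) {A : Set T2} (hA : MeasurableSet A) : volume A = volume
    ({z : ℝ × ℝ | ((z.1 : UnitAddCircle), (z.2 : UnitAddCircle)) ∈ A} ∩
      Set.Ioc a (a + 1) ×ˢ Set.Ioc b (b + 1)) := by
  have h := (UnitAddCircle.measurePreserving_mk a).prod (UnitAddCircle.measurePreserving_mk b)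
  have h2 := h.measure_preimage hA.nullMeasurableSet
  rw [Measure.prod_restrict, Measure.restrict_apply (h.measurable hA)] at h2
  exact h2.symm
theorem nu_eq (k a b : ℝ) {A : Set Seq} (hA : MeasurableSet A) : nu k A = volume
    ({z : ℝ × ℝ | Vs k (XR k z) ∈ A} ∩ Set.Ioc a (a + 1) ×ˢ Set.Ioc b (b + 1)) := by
  rw [nu, Measure.map_apply (continuous_vT k).measurable hA,
    vol_T2 a b ((continuous_vT k).measurable hA)]
  simp only [Set.mem_preimage, vT_coe]
theorem exists_slice (k : ℝ) {A : Set Seq} (hA : MeasurableSet A) : ∃ v ∈ Set.Ioc (0 : ℝ) 1,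
    volume {u | u ∈ Set.Ioc (-1 : ℝ) 2 ∧ Vs k (XR k (u, v)) ∈ A} ≤ 3 * nu k A := by
  set B := {z : ℝ × ℝ | Vs k (XR k z) ∈ A} with hB
  have hBm : MeasurableSet B := (continuous_VsXR k).measurable hA
  set S := B ∩ Set.Ioc (-1 : ℝ) 2 ×ˢ Set.univ with hS
  have hSm : MeasurableSet S := hBm.inter (measurableSet_Ioc.prod MeasurableSet.univ)
  have : IsProbabilityMeasure (volume.restrict (Set.Ioc (0 : ℝ) 1)) := ⟨by simp⟩
  obtain ⟨v, hv, h⟩ := exists_notMem_null_le_lintegral
    (μ := volume.restrict (Set.Ioc (0 : ℝ) 1)) (N := (Set.Ioc (0 : ℝ) 1)ᶜ)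
    (measurable_measure_prodMk_right (μ := (volume : Measure ℝ)) hSm).aemeasurable
    (by rw [Measure.restrict_apply measurableSet_Ioc.compl]; simp)
  refine ⟨v, not_not.1 hv, ?_⟩
  rw [← Measure.prod_apply_symm hSm, ← Measure.restrict_univ (μ := (volume : Measure ℝ)),
    Measure.restrict_restrict measurableSet_Ioc, Set.inter_univ, Measure.prod_restrict,
    Measure.restrict_apply hSm, Measure.restrict_univ] at h
  calc _ = volume ((fun x => (x, v)) ⁻¹' S) := by
        congr 1; ext u; simp [hS, hB, and_comm]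
    _ ≤ _ := h
    _ ≤ volume (B ∩ Set.Ioc (-1 : ℝ) (-1 + 1) ×ˢ Set.Ioc (0 : ℝ) (0 + 1) ∪
        B ∩ Set.Ioc (0 : ℝ) (0 + 1) ×ˢ Set.Ioc (0 : ℝ) (0 + 1) ∪
        B ∩ Set.Ioc (1 : ℝ) (1 + 1) ×ˢ Set.Ioc (0 : ℝ) (0 + 1)) := by
        refine measure_mono ?_
        rintro ⟨x, y⟩ ⟨⟨h1, h2, -⟩, -, h3⟩
        simp only [Set.mem_union, Set.mem_inter_iff, Set.mem_prod, Set.mem_Ioc, h1, true_and,
          zero_add] at h2 h3 ⊢
        rcases le_or_gt x 0 with h4 | h4
        · exact Or.inl (Or.inl ⟨⟨h2.1, by linarith⟩, h3⟩)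
        · rcases le_or_gt x 1 with h5 | h5
          · exact Or.inl (Or.inr ⟨⟨h4, h5⟩, h3⟩)
          · exact Or.inr ⟨⟨h5, by linarith [h2.2]⟩, h3⟩
    _ ≤ nu k A + nu k A + nu k A := by
        refine (measure_union_le _ _).trans (add_le_add ((measure_union_le _ _).trans
          (add_le_add ?_ ?_)) ?_) <;> exact (nu_eq k _ _ hA).ge
    _ = _ := by ring
theorem nu_le_of_slice (k : ℝ) {A : Set Seq} (hA : MeasurableSet A) {b : ENNReal}
    (h : ∀ u : ℝ, volume {v | v ∈ Set.Ico (0 : ℝ) 1 ∧ Vs k (XR k (u, v)) ∈ A} ≤ b) :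
    nu k A ≤ b := by
  set B := {z : ℝ × ℝ | Vs k (XR k z) ∈ A} with hB
  have hBm : MeasurableSet B := (continuous_VsXR k).measurable hA
  rw [nu_eq k 0 0 hA, ← Measure.restrict_apply hBm, Measure.volume_eq_prod,
    ← Measure.prod_restrict, Measure.prod_apply hBm]
  calc _ ≤ ∫⁻ _ in Set.Ioc (0 : ℝ) (0 + 1), b := by
        refine lintegral_mono fun u => ?_
        show volume.restrict _ _ ≤ b
        rw [zero_add, ← Measure.restrict_congr_set Ico_ae_eq_Ioc,
          Measure.restrict_apply (measurable_prodMk_left hBm)]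
        convert h u using 2
        ext v; simp [hB, and_comm]
    _ = b := by simp
theorem torus_zero : volume {x : UnitAddCircle | cs x = 0} = 0 := by
  have hm : MeasurableSet {x : UnitAddCircle | cs x = 0} :=
    (isClosed_eq torus_cs continuous_const).measurableSet
  rw [AddCircle.add_projection_respects_measure 1 0 hm]
  refine measure_mono_null (t := Set.range fun n : ℤ => ((2 * n + 1) / 4 : ℝ)) ?_
    ((Set.countable_range _).measure_zero _)
  rintro x ⟨hx, -⟩
  have hx' : Real.cos (2 * Real.pi * x) = 0 := by rw [← cs_coe]; exact hx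
  obtain ⟨n, hn⟩ := Real.cos_eq_zero_iff.1 hx'
  refine ⟨n, ?_⟩
  have := Real.pi_pos
  field_simp at hn ⊢
  linarith
theorem crit_small {θ ε : ℝ} (hθ : 0 < θ) (hε : 0 < ε) :
    ∀ᶠ k in atTop, (nu k).real {V | Crit (KK k) θ V} ≤ ε := by
  let A : ℕ → Set UnitAddCircle := fun n => {x | |cs x| ≤ 1 / (n + 1 : ℝ)}
  have hA : ∀ n, MeasurableSet (A n) := fun n =>
    (isClosed_le torus_cs.abs continuous_const).measurableSet
  have h1 := tendsto_measure_iInter_atTop (μ := (volume : Measure UnitAddCircle))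
    (fun n => (hA n).nullMeasurableSet)
    (fun m n h x (hx : |cs x| ≤ _) => hx.trans (Nat.one_div_le_one_div h))
    ⟨0, measure_ne_top _ _⟩
  have h2 : (⋂ n, A n) = {x | cs x = 0} := by
    ext x
    simp only [Set.mem_iInter, A, Set.mem_ofPred_eq]
    refine ⟨fun h => abs_nonpos_iff.1 (ge_of_tendsto' tendsto_one_div_add_atTop_nhds_zero_nat h),
      fun h n => by rw [h, abs_zero]; positivity⟩
  rw [h2, torus_zero] at h1
  obtain ⟨n, hn⟩ := (h1.eventually (ge_mem_nhds (ENNReal.ofReal_pos.2 hε))).exists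
  filter_upwards [ev_rpow (4 * (n + 1)) hθ, eventually_ge_atTop (n + 1 : ℝ)] with k hk1 hk2
  have hn1 : (0 : ℝ) < n + 1 := by positivity
  have hk0 : (1 : ℝ) ≤ k := by linarith [(Nat.cast_nonneg n : (0 : ℝ) ≤ n)]
  have hK := four_le_KK (k := k) (by linarith)
  refine ENNReal.toReal_le_of_le_ofReal hε.le (le_trans ?_ hn)
  rw [nu, Measure.map_apply (continuous_vT k).measurable (measurableSet_Crit _ _)]
  simp only [Function.comp]
  rw [← (mp_XT_one k 0).measure_preimage (hA n).nullMeasurableSet]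
  refine measure_mono fun z (hz : |2 + 2 * Real.pi * k * cs (XT k z 0)| < _) => ?_
  show |cs (XT k z 0)| ≤ _
  set c := cs (XT k z 0)
  have p3 := Real.pi_gt_three
  have hp : 6 * k ≤ 2 * Real.pi * k := by nlinarith
  have e : KK k ^ (1 - θ) * (4 * (n + 1)) ≤ KK k := by
    rw [Real.rpow_sub (by linarith), Real.rpow_one, div_mul_eq_mul_div,
      div_le_iff₀ (by positivity)]
    exact mul_le_mul_of_nonneg_left hk1 (by linarith)
  have h3 : 2 * Real.pi * k * |c| ≤ KK k ^ (1 - θ) + 2 := by
    have := abs_sub (2 + 2 * Real.pi * k * c) 2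
    rw [add_sub_cancel_left, abs_mul, abs_of_nonneg (by linarith), abs_two] at this
    linarith
  rw [le_div_iff₀ hn1]
  refine le_of_mul_le_mul_left (a := 2 * Real.pi * k) ?_ (by linarith)
  unfold KK at e h3
  nlinarith [mul_le_mul_of_nonneg_right h3 hn1.le]

end Vale.Agent.P108
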