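import Vale.Agent.P108.Ray
import Vale.Agent.P108.Rigid

/-! The Wegner type estimate: rescaled rays and the tangency relation. -/

namespace Vale.Agent.P108

open MeasureTheory Filter
open scoped Classical

/-- The ray lemma after the rescaling a = (z - s0) t. -/
theorem weg_ray : ∀ᶠ k in atTop, ∀ (x φ : Seq) (eu ev cu cv : ℝ) (r : ℕ) (t s0 : ℝ), IsOrb k x →
    IsSol (Vs k x) φ → φ 0 = ev → φ (-1) = eu → eu ^ 2 + ev ^ 2 = 1 → |ev * cu - eu * cv| = 1 →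
    Lv (KK k) φ r → 0 < t → |t * φ r| ≤ 200 → 0 ≤ s0 → s0 ≤ 1 →
    KK k ^ (49 / 50 : ℝ) ≤ |Vr k (x r)| ∧ φ r ≠ 0 ∧
    ∃ (Y P Θ : ℂ → ℂ) (c0 c1 c2 : ℂ),
      DifferentiableOn ℂ Y (Metric.ball s0 (KK k ^ (4 / 5 : ℝ))) ∧
      DifferentiableOn ℂ P (Metric.ball s0 (KK k ^ (4 / 5 : ℝ))) ∧
      DifferentiableOn ℂ Θ (Metric.ball s0 (KK k ^ (4 / 5 : ℝ))) ∧
      (∀ z ∈ Metric.ball (s0 : ℂ) (KK k ^ (4 / 5 : ℝ)),
        ‖Y z - x r - (z - s0) * (t * φ r : ℝ)‖ ≤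
          ‖z - s0‖ ^ 2 * (t * φ r) ^ 2 * KK k ^ (-(9 / 10) : ℝ) ∧
        ‖P z - (t * φ r : ℝ)‖ ≤ |t * φ r| / 2 ∧
        ‖Θ z - (c0 + c1 * (z - s0) + c2 * (z - s0) ^ 2)‖ ≤
          ‖z - s0‖ ^ 3 * |t * φ r| * KK k ^ (-(7 / 10) : ℝ)) ∧
      ∀ s : ℝ, 0 ≤ s → s ≤ 1 → ∀ x' φ' χ' : Seq, IsOrb k x' →
        x' 0 = x 0 + (s - s0) * t * ev → x' (-1) = x (-1) + (s - s0) * t * eu →
        IsSol (Vs k x') φ' → φ' 0 = ev → φ' (-1) = eu →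
        IsSol (Vs k x') χ' → χ' 0 = cv → χ' (-1) = cu →
        Y s = x' r ∧ P s = (t * φ' r : ℝ) ∧ Θ s = (χ' r / φ' r / t ^ 2 : ℝ) ∧
          |φ' (r - 1)| ≤ KK k ^ (-(49 / 50) : ℝ) * |φ' r| ∧ |φ r| / 2 ≤ |φ' r| ∧
          ∀ m : ℕ, m ≤ r → |φ' m| ≤ 4 * |φ r| := by
  filter_upwards [ray, ev_rpow 200 (show (0 : ℝ) < 1 / 10 by norm_num), eventually_ge_atTop 0,
    ev_rpow 2 (show (0 : ℝ) < 4 / 5 by norm_num)] with k hray h200 hk h2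
  intro x φ eu ev cu cv r t s0 hx hφ h0 h1 he hc hL ht hv hs0 hs1
  obtain ⟨hV, hne, Y, P, Θ, c0, c1, c2, dY, dP, dΘ, hb, hr⟩ :=
    hray x φ eu ev cu cv r hx hφ h0 h1 he hc hL
  have hK : 0 < KK k := by linarith [four_le_KK hk]
  have hp : 0 < |φ r| := abs_pos.2 hne
  have hnorm : ∀ z : ℂ, ‖(z - s0) * t‖ = ‖z - s0‖ * t := fun z => by
    rw [norm_mul, Complex.norm_real, Real.norm_eq_abs, abs_of_pos ht]
  have htv : t * |φ r| ≤ 200 := by rwa [abs_mul, abs_of_pos ht] at hv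
  have hmap : ∀ z ∈ Metric.ball (s0 : ℂ) (KK k ^ (4 / 5 : ℝ)),
      (z - s0) * t ∈ Metric.ball (0 : ℂ) (KK k ^ (9 / 10 : ℝ) / |φ r|) := fun z hz => by
    rw [mem_ball_iff_norm] at hz
    rw [mem_ball_zero_iff, hnorm, lt_div_iff₀ hp,
      show (9 / 10 : ℝ) = 4 / 5 + 1 / 10 by norm_num, Real.rpow_add hK]
    have := norm_nonneg (z - s0)
    have h3 : 0 < t * |φ r| := by positivity
    calc ‖z - s0‖ * t * |φ r| = ‖z - s0‖ * (t * |φ r|) := by ring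
      _ < KK k ^ (4 / 5 : ℝ) * (t * |φ r|) := mul_lt_mul_of_pos_right hz h3
      _ ≤ _ := mul_le_mul_of_nonneg_left (htv.trans h200) (by positivity)
  have dA : DifferentiableOn ℂ (fun z : ℂ => (z - s0) * t)
      (Metric.ball s0 (KK k ^ (4 / 5 : ℝ))) := by fun_prop
  have htc : (t : ℂ) ≠ 0 := by exact_mod_cast ht.ne'
  refine ⟨hV, hne, fun z => Y ((z - s0) * t), fun z => t * P ((z - s0) * t),
    fun z => Θ ((z - s0) * t) / (t : ℂ) ^ 2, c0 / (t : ℂ) ^ 2, c1 / t, c2, dY.comp dA hmap,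
    (dP.comp dA hmap).const_mul _, (dΘ.comp dA hmap).div_const _, fun z hz => ?_, ?_⟩
  · obtain ⟨b1, b2, b3⟩ := hb _ (hmap z hz)
    rw [hnorm] at b1 b3
    refine ⟨?_, ?_, ?_⟩
    · convert b1 using 2
      · push_cast; ring
      · ring
    · rw [show (t : ℂ) * P ((z - s0) * t) - (t * φ r : ℝ) = t * (P ((z - s0) * t) - φ r) by
        push_cast; ring, norm_mul, Complex.norm_real, Real.norm_eq_abs, abs_mul, mul_div_assoc]
      exact mul_le_mul_of_nonneg_left b2 (abs_nonneg _)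
    · rw [show Θ ((z - s0) * t) / (t : ℂ) ^ 2 - (c0 / (t : ℂ) ^ 2 + c1 / t * (z - s0) +
          c2 * (z - s0) ^ 2) = (Θ ((z - s0) * t) - (c0 + c1 * ((z - s0) * t) +
          c2 * ((z - s0) * t) ^ 2)) / (t : ℂ) ^ 2 by field_simp, norm_div, norm_pow,
        Complex.norm_real, Real.norm_eq_abs, abs_of_pos ht, div_le_iff₀ (by positivity),
        abs_mul, abs_of_pos ht]
      exact b3.trans (le_of_eq (by ring))
  · intro s h0s hs1' x' φ' χ' hx' e0 e1 hφ' f0 f1 hχ' g0 g1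
    have hz : (s : ℂ) ∈ Metric.ball (s0 : ℂ) (KK k ^ (4 / 5 : ℝ)) := by
      rw [mem_ball_iff_norm, ← Complex.ofReal_sub, Complex.norm_real, Real.norm_eq_abs, abs_lt]
      constructor <;> linarith
    have hm := hmap _ hz
    have ec : ((s : ℂ) - s0) * t = (((s - s0) * t : ℝ) : ℂ) := by push_cast; ring
    have hm' := hm
    rw [mem_ball_zero_iff, ec, Complex.norm_real, Real.norm_eq_abs] at hm'
    obtain ⟨q1, q2, q3, q4, q5⟩ := hr _ hm' x' φ' χ' hx' e0 e1 hφ' f0 f1 hχ' g0 g1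
    have b2 := (hb _ hm).2.1
    rw [ec, q2, ← Complex.ofReal_sub, Complex.norm_real, Real.norm_eq_abs] at b2
    refine ⟨by simp only [ec, q1], by simp only [ec, q2]; push_cast; ring,
      by simp only [ec, q3]; push_cast; ring, q4, ?_, q5⟩
    have := abs_sub_abs_le_abs_sub (φ r) (φ' r)
    rw [abs_sub_comm] at this
    linarith

/-- One side of the tangency relation. -/
theorem weg_side {V φ ψ : Seq} (hψ : IsSol V ψ) {r : ℤ} {ε : ℝ} (hφ0 : φ r ≠ 0)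
    (h1 : |φ (r - 1)| ≤ ε * |φ r|) (h2 : |ψ (r + 1)| ≤ ε * |ψ r|) (hW : Wr φ ψ r ≠ 0) :
    ∃ β : ℝ, |β - V r| ≤ 2 * ε ∧ φ r * ψ r * β = Wr φ ψ r := by
  have e := hψ r
  have hψ0 : ψ r ≠ 0 := fun h => by
    rw [h, abs_zero, mul_zero, abs_nonpos_iff] at h2
    apply hW
    rw [h, h2] at e
    have : ψ (r - 1) = 0 := by linarith
    simp [Wr, h, this]
  refine ⟨ψ (r - 1) / ψ r - φ (r - 1) / φ r, ?_, by unfold Wr; field_simp⟩
  have a1 : |φ (r - 1) / φ r| ≤ ε := by rwa [abs_div, div_le_iff₀ (abs_pos.2 hφ0)]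
  have a2 : |ψ (r + 1) / ψ r| ≤ ε := by rwa [abs_div, div_le_iff₀ (abs_pos.2 hψ0)]
  have : ψ (r - 1) / ψ r - φ (r - 1) / φ r - V r = -(ψ (r + 1) / ψ r) - φ (r - 1) / φ r := by
    field_simp
    linear_combination φ r * e
  rw [this]
  rw [abs_le] at a1 a2 ⊢
  constructor <;> linarith [a1.1, a1.2, a2.1, a2.2]

/-- The tangency relation. -/
theorem weg_rel {V ψ : Seq} (hψ : IsSol V ψ) (hW : ψ (-1) ≠ 0) {l r : ℤ} {ε t : ℝ} (ht : t ≠ 0)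
    (hr0 : gs V 1 0 r ≠ 0) (hl0 : rf (gs V 1 0) l ≠ 0)
    (r1 : |gs V 1 0 (r - 1)| ≤ ε * |gs V 1 0 r|) (r2 : |ψ (r + 1)| ≤ ε * |ψ r|)
    (l1 : |rf (gs V 1 0) (l - 1)| ≤ ε * |rf (gs V 1 0) l|)
    (l2 : |rf ψ (l + 1)| ≤ ε * |rf ψ l|) :
    ∃ α β : ℝ, |α - rf V l| ≤ 2 * ε ∧ |β - V r| ≤ 2 * ε ∧
      (gs V 0 1 r / gs V 1 0 r / t ^ 2 - rf (gs V 0 1) l / rf (gs V 1 0) l / t ^ 2) *
        (t * rf (gs V 1 0) l) ^ 2 * (t * gs V 1 0 r) ^ 2 * α * β =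
        (t * rf (gs V 1 0) l) ^ 2 * α + (t * gs V 1 0 r) ^ 2 * β := by
  have hφ := isSol_gs V 1 0
  have w1 : Wr (gs V 1 0) ψ r = ψ (-1) := by
    rw [Wr_const hφ hψ r 0]; simp [Wr]
  have w2 : Wr (rf (gs V 1 0)) (rf ψ) l = -ψ (-1) := by
    rw [Wr_const hφ.rf hψ.rf l 0]; simp [Wr, rf]
  obtain ⟨β, b1, b2⟩ := weg_side hψ hr0 r1 r2 (by rwa [w1])
  obtain ⟨α, a1, a2⟩ := weg_side hψ.rf hl0 l1 l2 (by rw [w2]; exact neg_ne_zero.2 hW)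
  have dec : ψ = fun j => ψ 0 * gs V 1 0 j + ψ (-1) * gs V 0 1 j :=
    hψ.ext (hφ.lin (isSol_gs V 0 1) _ _) (s := 0) (by simp) (by simp)
  have e1 : ψ r = ψ 0 * gs V 1 0 r + ψ (-1) * gs V 0 1 r := congrFun dec r
  have e2 : rf ψ l = ψ 0 * rf (gs V 1 0) l + ψ (-1) * rf (gs V 0 1) l := congrFun dec (-1 - l)
  refine ⟨α, β, a1, b1, ?_⟩
  rw [w1, e1] at b2
  rw [w2, e2] at a2
  generalize gs V 1 0 r = q at *
  generalize rf (gs V 1 0) l = p at *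
  generalize gs V 0 1 r = cq at *
  generalize rf (gs V 0 1) l = cp at *
  have key : (cq * p - cp * q) * p * q * α * β = p ^ 2 * α + q ^ 2 * β :=
    mul_left_cancel₀ hW (by linear_combination p ^ 2 * α * b2 - q ^ 2 * β * a2)
  calc _ = t ^ 2 * ((cq * p - cp * q) * p * q * α * β) := by field_simp
    _ = _ := by rw [key]; ring

end Vale.Agent.P108
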