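import Vale.Agent.P108.WegA

/-! The Wegner type estimate: holes. -/

namespace Vale.Agent.P108

open MeasureTheory Filter
open scoped Classical

/-- The potential along the orbit with x (-1) = u and x 0 = a. -/
noncomputable def wegV (k u a : ℝ) : Seq := Vs k (XR k (u, a))
/-- The derivative of the orbit with respect to a. -/
noncomputable def wegP (k u a : ℝ) : Seq := gs (wegV k u a) 1 0

theorem weg_min {K p q t : ℝ} (hK : 1 ≤ K) (ht : 0 < t)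
    (h2 : q ≤ 100 * K ^ (1 / 2 : ℝ) * p) (h : 100 ≤ t * max p q) :
    K ^ (-(1 / 2) : ℝ) ≤ t * p := by
  have hs : 1 ≤ K ^ (1 / 2 : ℝ) := Real.one_le_rpow hK (by norm_num)
  rw [Real.rpow_neg (by linarith), inv_le_iff_one_le_mul₀ (by linarith)]
  rcases le_total p q with hpq | hpq
  · rw [max_eq_right hpq] at h
    nlinarith [mul_le_mul_of_nonneg_left h2 ht.le]
  · rw [max_eq_left hpq] at h
    nlinarith

theorem weg_hole : ∃ (c : ℝ) (Q : ℕ), 0 < c ∧ c ≤ 1 ∧ ∀ᶠ k in atTop, ∀ M : ℕ, KK k ^ Q ≤ M →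
    ∀ (u a0 t s0 : ℝ) (d l r : ℕ), 0 < t → 0 ≤ s0 → s0 ≤ 1 → Pair (KK k) d (wegP k u a0) l r →
    100 ≤ t * max |wegP k u a0 r| |rf (wegP k u a0) l| →
    t * max |wegP k u a0 r| |rf (wegP k u a0) l| ≤ 200 →
    ∀ (E : Set ℝ) (ψ : ℝ → Seq), (∀ a ∈ E, IsSol (wegV k u a) (ψ a) ∧ ψ a (-1) ≠ 0) →
    (∀ s : ℝ, 0 ≤ s → s ≤ 1 →
      (|wegP k u a0 r| / 2 ≤ |wegP k u (a0 + (s - s0) * t) r| ∧
        ∀ m : ℕ, m ≤ r → |wegP k u (a0 + (s - s0) * t) m| ≤ 4 * |wegP k u a0 r|) ∧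
      (|rf (wegP k u a0) l| / 2 ≤ |rf (wegP k u (a0 + (s - s0) * t)) l| ∧
        ∀ m : ℕ, m ≤ l → |rf (wegP k u (a0 + (s - s0) * t)) m| ≤ 4 * |rf (wegP k u a0) l|)) ∧
    c * M ≤ (((Finset.range M).filter fun n : ℕ => ∀ s : ℝ, 0 ≤ s → s ≤ 1 →
      a0 + (s - s0) * t ∈ E → (n : ℝ) / M ≤ s → s < (n + 1) / M →
      Hit (KK k) (ψ (a0 + (s - s0) * t)) r ∨ Hit (KK k) (rf (ψ (a0 + (s - s0) * t))) l).card
        : ℝ) := by
  obtain ⟨c, Q, hc, hc1, hrig⟩ := rigid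
  refine ⟨c, Q, hc, hc1, ?_⟩
  filter_upwards [hrig, weg_ray, eventually_ge_atTop 0] with k hrig hray hk
  intro M hM u a0 t s0 d l r ht hs0 hs1 hP h100 h200 E ψ hψ
  have hK : 1 ≤ KK k := by linarith [four_le_KK hk]
  obtain ⟨Lr, Ll, -, -, m1, m2⟩ := hP
  have emax : max |t * rf (wegP k u a0) l| |t * wegP k u a0 r| =
      t * max |wegP k u a0 r| |rf (wegP k u a0) l| := by
    rw [abs_mul, abs_mul, abs_of_pos ht, mul_max_of_nonneg _ _ ht.le, max_comm]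
  obtain ⟨vr, nr, Y, R, Θr, c0, c1, c2, dY, dR, dΘr, br, rr⟩ :=
    hray (XR k (u, a0)) (wegP k u a0) 0 1 1 0 r t s0 (isOrb_XR _ _) (isSol_gs _ _ _)
      (gs_zero _ _ _) (gs_neg_one _ _ _) (by norm_num) (by norm_num) Lr ht
      ((le_max_right _ _).trans (emax.le.trans h200)) hs0 hs1
  obtain ⟨vl, nl, X, P, Θl, e0, e1, e2, dX, dP, dΘl, bl, rl⟩ :=
    hray (rf (XR k (u, a0))) (rf (wegP k u a0)) 1 0 0 1 l t s0 (isOrb_XR _ _).rf
      (isSol_gs _ _ _).rf (by simp [rf, wegP]) (by simp [rf, wegP]) (by norm_num) (by norm_num)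
      Ll ht ((le_max_left _ _).trans (emax.le.trans h200)) hs0 hs1
  have rr' := fun (s : ℝ) (h0 : 0 ≤ s) (h1 : s ≤ 1) => rr s h0 h1 (XR k (u, a0 + (s - s0) * t))
    (wegP k u (a0 + (s - s0) * t)) (gs (wegV k u (a0 + (s - s0) * t)) 0 1) (isOrb_XR _ _)
    (by simp) (by simp) (isSol_gs _ _ _) (gs_zero _ _ _) (gs_neg_one _ _ _) (isSol_gs _ _ _)
    (gs_zero _ _ _) (gs_neg_one _ _ _)
  have rl' := fun (s : ℝ) (h0 : 0 ≤ s) (h1 : s ≤ 1) => rl s h0 h1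
    (rf (XR k (u, a0 + (s - s0) * t))) (rf (wegP k u (a0 + (s - s0) * t)))
    (rf (gs (wegV k u (a0 + (s - s0) * t)) 0 1)) (isOrb_XR _ _).rf
    (by simp [rf]) (by simp [rf]) (isSol_gs _ _ _).rf (by simp [rf, wegP]) (by simp [rf, wegP])
    (isSol_gs _ _ _).rf (by simp [rf]) (by simp [rf])
  refine ⟨fun s h0 h1 => ⟨(rr' s h0 h1).2.2.2.2, (rl' s h0 h1).2.2.2.2⟩, ?_⟩
  have hmin : KK k ^ (-(1 / 2) : ℝ) ≤ min |t * rf (wegP k u a0) l| |t * wegP k u a0 r| := by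
    rw [abs_mul, abs_mul, abs_of_pos ht]
    exact le_min (weg_min hK ht m1 (by rwa [max_comm])) (weg_min hK ht m2 h100)
  have key := hrig M hM s0 (t * rf (wegP k u a0) l) (t * wegP k u a0 r) _ _ X Y P R
    (fun z => Θr z - Θl z) (c0 - e0) (c1 - e1) (c2 - e2) hs0 hs1 (emax ▸ h100) (emax ▸ h200) hmin
    vl vr dX dY dP dR (dΘr.sub dΘl) (fun z hz => ⟨(bl z hz).1, (br z hz).1, (bl z hz).2.1,
      (br z hz).2.1, by
        have := norm_sub_le (Θr z - (c0 + c1 * (z - s0) + c2 * (z - s0) ^ 2))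
          (Θl z - (e0 + e1 * (z - s0) + e2 * (z - s0) ^ 2))
        have b1 := (br z hz).2.2
        have b2 := (bl z hz).2.2
        rw [show Θr z - Θl z - (c0 - e0 + (c1 - e1) * (z - s0) + (c2 - e2) * (z - s0) ^ 2) =
          Θr z - (c0 + c1 * (z - s0) + c2 * (z - s0) ^ 2) -
          (Θl z - (e0 + e1 * (z - s0) + e2 * (z - s0) ^ 2)) by ring]
        linarith⟩)
    (fun s => rf (XR k (u, a0 + (s - s0) * t)) l) (fun s => XR k (u, a0 + (s - s0) * t) r)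
    (fun s => t * rf (wegP k u (a0 + (s - s0) * t)) l)
    (fun s => t * wegP k u (a0 + (s - s0) * t) r)
    (fun s => gs (wegV k u (a0 + (s - s0) * t)) 0 1 r / wegP k u (a0 + (s - s0) * t) r / t ^ 2 -
      rf (gs (wegV k u (a0 + (s - s0) * t)) 0 1) l / rf (wegP k u (a0 + (s - s0) * t)) l / t ^ 2)
    (fun s h0 h1 => ⟨(rl' s h0 h1).1, (rr' s h0 h1).1, (rl' s h0 h1).2.1, (rr' s h0 h1).2.1, by
      rw [(rr' s h0 h1).2.2.1, (rl' s h0 h1).2.2.1, Complex.ofReal_sub]⟩)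
    {s | 0 ≤ s ∧ s ≤ 1 ∧ a0 + (s - s0) * t ∈ E ∧ ¬ Hit (KK k) (ψ (a0 + (s - s0) * t)) r ∧
      ¬ Hit (KK k) (rf (ψ (a0 + (s - s0) * t))) l}
    (fun s ⟨h0, h1, hE, n1, n2⟩ => by
      obtain ⟨-, -, -, r1, r2, -⟩ := rr' s h0 h1
      obtain ⟨-, -, -, l1, l2, -⟩ := rl' s h0 h1
      have pr := abs_pos.2 nr
      have pl := abs_pos.2 nl
      exact weg_rel (hψ _ hE).1 (hψ _ hE).2 ht.ne' (abs_pos.1 (by unfold wegP at *; linarith))
        (abs_pos.1 (by unfold wegP at *; linarith)) r1 (not_lt.1 n1) l1 (not_lt.1 n2))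
  refine key.trans (Nat.cast_le.2 (Finset.card_le_card fun n hn => ?_))
  rw [Finset.mem_filter] at hn ⊢
  refine ⟨hn.1, fun s h0 h1 hE a b => ?_⟩
  by_contra hcon
  rw [not_or] at hcon
  exact hn.2 s ⟨h0, h1, hE, hcon.1, hcon.2⟩ ⟨a, b⟩

end Vale.Agent.P108
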